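import Vale.Agent.Lib.P137.Defs

/-!
# P137 / V4: lower bound for the volume of a thin annulus

Blueprint. As in `AnnulusUp`: the volume is `ω * (R ^ d - (R - η) ^ d)` (`measure_diff`, `Measure.addHaar_ball`, `Measure.addHaar_closedBall`), and
`η * R ^ (d - 1) ≤ R ^ d - (R - η) ^ d` for `0 ≤ η ≤ R`, `d ≥ 1`, because `(R - η) ^ d ≤ (R - η) * R ^ (d - 1)`.
-/

namespace P137

open MeasureTheory Metric Set
open scoped ENNReal

theorem annulus_ge {d : ℕ} (hd : 1 ≤ d) (R η : ℝ) (hR : 0 < R) (hη : 0 ≤ η) (hηR : η ≤ R) :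
    ENNReal.ofReal η * (volume (ball (0 : EuclideanSpace ℝ (Fin d)) R) / ENNReal.ofReal R) ≤
      volume (ball (0 : EuclideanSpace ℝ (Fin d)) R \
        closedBall (0 : EuclideanSpace ℝ (Fin d)) (R - η)) := by
  obtain ⟨k, rfl⟩ : ∃ k, d = k + 1 := ⟨d - 1, by omega⟩
  set ω : ℝ≥0∞ := volume (ball (0 : EuclideanSpace ℝ (Fin (k + 1))) 1) with hω
  have hωfin : ω ≠ ⊤ := measure_ball_lt_top.ne
  have hb : volume (ball (0 : EuclideanSpace ℝ (Fin (k + 1))) R)
      = ENNReal.ofReal (R ^ (k + 1)) * ω := by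
    rw [Measure.addHaar_ball _ _ hR.le, finrank_euclideanSpace_fin]
  have hc : volume (closedBall (0 : EuclideanSpace ℝ (Fin (k + 1))) (R - η))
      = ENNReal.ofReal ((R - η) ^ (k + 1)) * ω := by
    rw [Measure.addHaar_closedBall _ _ (sub_nonneg.mpr hηR), finrank_euclideanSpace_fin]
  have hRη : 0 ≤ R - η := sub_nonneg.mpr hηR
  have hreal : η * R ^ k ≤ R ^ (k + 1) - (R - η) ^ (k + 1) := by
    have h1 : (R - η) ^ k ≤ R ^ k := pow_le_pow_left₀ hRη (by linarith) k
    have h2 : (R - η) ^ (k + 1) ≤ R ^ k * (R - η) := by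
      rw [pow_succ]
      exact mul_le_mul_of_nonneg_right h1 hRη
    have h3 : R ^ (k + 1) = R ^ k * R := pow_succ R k
    nlinarith
  have hR0 : ENNReal.ofReal R ≠ 0 := by
    simpa using hR
  have hleft : ENNReal.ofReal η * (volume (ball (0 : EuclideanSpace ℝ (Fin (k + 1))) R)
      / ENNReal.ofReal R) = ENNReal.ofReal (η * R ^ k) * ω := by
    rw [hb, pow_succ, ENNReal.ofReal_mul (pow_nonneg hR.le k),
      mul_right_comm (ENNReal.ofReal (R ^ k)) (ENNReal.ofReal R) ω,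
      ENNReal.mul_div_cancel_right hR0 ENNReal.ofReal_ne_top,
      ENNReal.ofReal_mul hη, mul_assoc]
  have hright : ENNReal.ofReal (R ^ (k + 1) - (R - η) ^ (k + 1)) * ω
      = volume (ball (0 : EuclideanSpace ℝ (Fin (k + 1))) R)
        - volume (closedBall (0 : EuclideanSpace ℝ (Fin (k + 1))) (R - η)) := by
    rw [hb, hc, ENNReal.ofReal_sub _ (pow_nonneg hRη (k + 1)),
      ENNReal.sub_mul (fun _ _ => hωfin)]
  calc ENNReal.ofReal η * (volume (ball (0 : EuclideanSpace ℝ (Fin (k + 1))) R)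
      / ENNReal.ofReal R) = ENNReal.ofReal (η * R ^ k) * ω := hleft
    _ ≤ ENNReal.ofReal (R ^ (k + 1) - (R - η) ^ (k + 1)) * ω :=
        mul_le_mul_left (ENNReal.ofReal_le_ofReal hreal) ω
    _ = volume (ball (0 : EuclideanSpace ℝ (Fin (k + 1))) R)
        - volume (closedBall (0 : EuclideanSpace ℝ (Fin (k + 1))) (R - η)) := hright
    _ ≤ _ := le_measure_diff

end P137
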