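import Vale.Agent.Lib.P137.Defs

/-!
# P137 / V3: upper bound for the volume of a thin annulus

Blueprint. `volume (closedBall 0 R) = ofReal (R ^ d) * ω`, `volume (ball 0 r) = ofReal (r ^ d) * ω` for `r > 0` and `ball 0 r = ∅` for `r ≤ 0`
(`Measure.addHaar_closedBall`, `Measure.addHaar_ball`, `finrank_euclideanSpace`), `ω = volume (ball 0 1)` finite; `measure_diff`.
Real inequality: `R ^ d - (R - δ) ^ d ≤ d * δ * R ^ (d - 1)` for `0 ≤ δ ≤ R` (induction on `d`, or `one_add_mul_le_pow`), and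
`R ^ d ≤ d * δ * R ^ (d - 1)` for `δ ≥ R`.
-/

namespace P137

open MeasureTheory Metric Set
open scoped ENNReal

theorem pow_succ_sub_pow_succ_le (R r : ℝ) (hr0 : 0 ≤ r) (hrR : r ≤ R) (k : ℕ) :
    R ^ (k + 1) - r ^ (k + 1) ≤ ((k : ℝ) + 1) * (R - r) * R ^ k := by
  induction k with
  | zero => simp
  | succ k ih =>
    have hR0 : 0 ≤ R := hr0.trans hrR
    have h1 : r ^ (k + 1) ≤ R ^ (k + 1) := pow_le_pow_left₀ hr0 hrR _
    have h2 : R * (R ^ (k + 1) - r ^ (k + 1)) ≤ R * (((k : ℝ) + 1) * (R - r) * R ^ k) :=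
      mul_le_mul_of_nonneg_left ih hR0
    have h3 : r ^ (k + 1) * (R - r) ≤ R ^ (k + 1) * (R - r) :=
      mul_le_mul_of_nonneg_right h1 (by linarith)
    have e1 : R ^ (k + 1 + 1) - r ^ (k + 1 + 1) =
        R * (R ^ (k + 1) - r ^ (k + 1)) + r ^ (k + 1) * (R - r) := by ring
    have e2 : (((k + 1 : ℕ) : ℝ) + 1) * (R - r) * R ^ (k + 1) =
        R * (((k : ℝ) + 1) * (R - r) * R ^ k) + R ^ (k + 1) * (R - r) := by
      push_cast; ring
    rw [e1, e2]
    linarith

theorem annulus_le {d : ℕ} (hd : 1 ≤ d) (R δ : ℝ) (hR : 0 < R) (hδ : 0 ≤ δ) :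
    volume (closedBall (0 : EuclideanSpace ℝ (Fin d)) R \ ball (0 : EuclideanSpace ℝ (Fin d)) (R - δ)) ≤
      (d : ℝ≥0∞) * ENNReal.ofReal δ *
        (volume (ball (0 : EuclideanSpace ℝ (Fin d)) R) / ENNReal.ofReal R) := by
  obtain ⟨k, rfl⟩ : ∃ k, d = k + 1 := ⟨d - 1, by omega⟩
  have hfin : Module.finrank ℝ (EuclideanSpace ℝ (Fin (k + 1))) = k + 1 := by simp
  set r := max (R - δ) 0 with hr
  have hr0 : 0 ≤ r := le_max_right _ _
  have hrR : r ≤ R := max_le (by linarith) hR.le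
  have hRr : R - r ≤ δ := by
    have : R - δ ≤ r := le_max_left _ _
    linarith
  have hball : ball (0 : EuclideanSpace ℝ (Fin (k + 1))) (R - δ) = ball 0 r := by
    rcases le_total (R - δ) 0 with h | h
    · rw [hr, max_eq_right h, ball_eq_empty.2 h, ball_eq_empty.2 le_rfl]
    · rw [hr, max_eq_left h]
  rw [hball]
  have hsub : ball (0 : EuclideanSpace ℝ (Fin (k + 1))) r ⊆ closedBall 0 R :=
    ball_subset_closedBall.trans (closedBall_subset_closedBall hrR)
  rw [measure_sdiff hsub measurableSet_ball.nullMeasurableSet measure_ball_lt_top.ne]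
  rw [Measure.addHaar_closedBall _ _ hR.le, Measure.addHaar_ball _ _ hr0,
    Measure.addHaar_ball _ _ hR.le, hfin]
  set ω := volume (ball (0 : EuclideanSpace ℝ (Fin (k + 1))) 1) with hω
  have hωfin : ω ≠ ∞ := measure_ball_lt_top.ne
  rw [← ENNReal.sub_mul (fun _ _ => hωfin), ← ENNReal.ofReal_sub _ (pow_nonneg hr0 _),
    ENNReal.mul_div_right_comm, ← ENNReal.ofReal_div_of_pos hR, ← ENNReal.ofReal_natCast,
    ← ENNReal.ofReal_mul (by positivity), ← mul_assoc,
    ← ENNReal.ofReal_mul (by positivity)]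
  gcongr
  have h1 := pow_succ_sub_pow_succ_le R r hr0 hrR k
  have h2 : ((k : ℝ) + 1) * (R - r) * R ^ k ≤ ((k : ℝ) + 1) * δ * R ^ k := by
    gcongr
  have h3 : R ^ (k + 1) / R = R ^ k := by
    rw [pow_succ]; field_simp
  rw [h3]
  push_cast
  linarith

end P137
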