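import Vale.Agent.Lib.P137.Scale

/-!
# P137 / L3: the averages of a radially nonincreasing function over centred balls are nonincreasing

Blueprint. For `R > 0`, `avg0 f R = (volume (ball 0 1))⁻¹ * ∫⁻ z in ball 0 1, F (R * ‖z‖)`: apply `lintegral_comp_smul_pos` to
`g = indicator (ball 0 R) f` (`R • z ∈ ball 0 R ↔ z ∈ ball 0 1`, `‖R • z‖ = R * ‖z‖`) and `Measure.addHaar_ball_of_pos`
(`volume (ball 0 R) = ofReal (R ^ d) * volume (ball 0 1)`). The right side is nonincreasing in `R` as `F` is antitone.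
-/

namespace P137

open MeasureTheory Metric Set
open scoped ENNReal

theorem avg0_eq {d : ℕ} (F : ℝ → ℝ≥0∞) (hF : Antitone F) {R : ℝ} (hR : 0 < R) :
    avg0 (fun x : EuclideanSpace ℝ (Fin d) => F ‖x‖) R =
      (volume (ball (0 : EuclideanSpace ℝ (Fin d)) 1))⁻¹ *
        ∫⁻ z in ball (0 : EuclideanSpace ℝ (Fin d)) 1, F (R * ‖z‖) := by
  have hFm : Measurable F := hF.measurable
  have hg : Measurable ((ball (0 : EuclideanSpace ℝ (Fin d)) R).indicator
      (fun x : EuclideanSpace ℝ (Fin d) => F ‖x‖)) :=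
    (hFm.comp measurable_norm).indicator measurableSet_ball
  have h1 := lintegral_comp_smul_pos _ hg R hR
  have h2 : ∀ z : EuclideanSpace ℝ (Fin d),
      (ball (0 : EuclideanSpace ℝ (Fin d)) R).indicator
        (fun x : EuclideanSpace ℝ (Fin d) => F ‖x‖) (R • z) =
      (ball (0 : EuclideanSpace ℝ (Fin d)) 1).indicator
        (fun x : EuclideanSpace ℝ (Fin d) => F (R * ‖x‖)) z := by
    intro z
    have e1 : ‖R • z‖ = R * ‖z‖ := by
      rw [norm_smul, Real.norm_of_nonneg hR.le]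
    by_cases hz : z ∈ ball (0 : EuclideanSpace ℝ (Fin d)) 1
    · have hz' : R • z ∈ ball (0 : EuclideanSpace ℝ (Fin d)) R := by
        rw [mem_ball_zero_iff] at hz ⊢
        rw [e1]; nlinarith
      rw [indicator_of_mem hz, indicator_of_mem hz', e1]
    · have hz' : R • z ∉ ball (0 : EuclideanSpace ℝ (Fin d)) R := by
        rw [mem_ball_zero_iff] at hz ⊢
        rw [e1]; push Not at hz ⊢; nlinarith
      rw [indicator_of_notMem hz, indicator_of_notMem hz']
  simp only [h2] at h1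
  rw [lintegral_indicator measurableSet_ball, lintegral_indicator measurableSet_ball] at h1
  unfold avg0
  rw [h1, Measure.addHaar_ball_of_pos volume (0 : EuclideanSpace ℝ (Fin d)) hR]
  have h3 : Module.finrank ℝ (EuclideanSpace ℝ (Fin d)) = d := by simp
  rw [h3]
  have hpos : ENNReal.ofReal (R ^ d) ≠ 0 := by
    simp only [ne_eq, ENNReal.ofReal_eq_zero, not_le]; exact pow_pos hR d
  rw [ENNReal.mul_inv (Or.inl hpos) (Or.inl ENNReal.ofReal_ne_top)]
  ring

theorem avg0_anti {d : ℕ} (F : ℝ → ℝ≥0∞) (hF : Antitone F) {R R' : ℝ} (hR : 0 < R)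
    (hRR' : R ≤ R') :
    avg0 (fun x : EuclideanSpace ℝ (Fin d) => F ‖x‖) R' ≤
      avg0 (fun x : EuclideanSpace ℝ (Fin d) => F ‖x‖) R := by
  rw [avg0_eq F hF hR, avg0_eq F hF (lt_of_lt_of_le hR hRR')]
  refine mul_le_mul_right (lintegral_mono fun z => hF ?_) _
  exact mul_le_mul_of_nonneg_right hRR' (norm_nonneg z)

end P137
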