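import Mathlib

/-!
# P137 / W2: moving a translation from the test function to `u`

Blueprint. `∫ u (x) ψ (x + h) dx = ∫ u (y - h) ψ (y) dy` (`integral_sub_right_eq_self` applied to `y ↦ u (y - h) * ψ y`, or `integral_add_right_eq_self`). Both `x ↦ u x * ψ x` and `y ↦ u (y - h) * ψ y` are
integrable (locally integrable times continuous with compact support: `LocallyIntegrable.integrable_smul_right_of_hasCompactSupport` or
`Continuous.integrable_of_hasCompactSupport`-style lemmas; translation of a locally integrable function is locally integrable), so the difference is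
`∫ (u (y - h) - u y) * ψ y dy`, of absolute value `≤ ∫ |u (y - h) - u y| dy` (`norm_integral_le_lintegral_norm` / `integral_mono`); use `hdq (-h)`, `norm_neg`,
`ENNReal.toReal_mono` / `ENNReal.ofReal_le_ofReal_iff`.
-/

namespace P137

open MeasureTheory Metric Set
open scoped ENNReal

theorem integral_shift_sub_le {d : ℕ} (u : EuclideanSpace ℝ (Fin d) → ℝ)
    (hu : LocallyIntegrable u volume) (W : ℝ) (hW : 0 ≤ W)
    (hdq : ∀ h : EuclideanSpace ℝ (Fin d),
      ∫⁻ x, ENNReal.ofReal |u (x + h) - u x| ≤ ENNReal.ofReal (W * ‖h‖))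
    (ψ : EuclideanSpace ℝ (Fin d) → ℝ) (hψ : Continuous ψ) (hψc : HasCompactSupport ψ)
    (hψ1 : ∀ x, |ψ x| ≤ 1) (h : EuclideanSpace ℝ (Fin d)) :
    |(∫ x, u x * ψ (x + h)) - ∫ x, u x * ψ x| ≤ W * ‖h‖ := by
  have hi1 : Integrable (fun y => u y * ψ y) volume := by
    simpa [smul_eq_mul] using hu.integrable_smul_right_of_hasCompactSupport hψ hψc
  have hψh : Continuous (fun x => ψ (x + h)) := hψ.comp (continuous_id.add continuous_const)
  have hψhc : HasCompactSupport (fun x => ψ (x + h)) :=
    hψc.comp_homeomorph (Homeomorph.addRight h)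
  have hia : Integrable (fun x => u x * ψ (x + h)) volume := by
    simpa [smul_eq_mul] using hu.integrable_smul_right_of_hasCompactSupport hψh hψhc
  have hi2 : Integrable (fun y => u (y - h) * ψ y) volume := by
    have := hia.comp_sub_right h
    simpa using this
  have h1 : ∫ x, u x * ψ (x + h) = ∫ y, u (y - h) * ψ y := by
    have := integral_add_right_eq_self (μ := (volume : Measure (EuclideanSpace ℝ (Fin d))))
      (fun y => u (y - h) * ψ y) h
    simpa using this
  rw [h1, ← integral_sub hi2 hi1, ← Real.norm_eq_abs]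
  refine (norm_integral_le_lintegral_norm _).trans ?_
  have h2 : ∫⁻ y, ENNReal.ofReal ‖u (y - h) * ψ y - u y * ψ y‖ ≤ ENNReal.ofReal (W * ‖h‖) := by
    refine le_trans (lintegral_mono fun y => ?_) (by simpa using hdq (-h))
    apply ENNReal.ofReal_le_ofReal
    rw [← sub_mul, norm_mul, Real.norm_eq_abs, Real.norm_eq_abs, ← sub_eq_add_neg]
    calc |u (y - h) - u y| * |ψ y| ≤ |u (y - h) - u y| * 1 := by
          gcongr
          exact hψ1 y
      _ = |u (y - h) - u y| := mul_one _
  calc (∫⁻ y, ENNReal.ofReal ‖u (y - h) * ψ y - u y * ψ y‖).toReal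
      ≤ (ENNReal.ofReal (W * ‖h‖)).toReal := ENNReal.toReal_mono ENNReal.ofReal_ne_top h2
    _ = W * ‖h‖ := ENNReal.toReal_ofReal (by positivity)

end P137
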