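import Vale.Agent.Lib.P137.DQDeriv
import Vale.Agent.Lib.P137.DQLip

/-!
# P137 / W3: an `L¹` difference-quotient bound controls the distributional gradient

Blueprint for `integral_mul_fderiv_le`. `Φ s = ∫ u x * ψ (x + s • v)` has derivative `∫ u x * fderiv ℝ ψ x v` at `0` (`hasDerivAt_integral_shift`) and
`|Φ s - Φ 0| ≤ W * ‖v‖ * |s - 0|` (`integral_shift_sub_le` with `h = s • v`, `norm_smul`; `Φ 0` by `simp`); conclude by `HasDerivAt.deriv` and `norm_deriv_le_of_lip'`
(or `HasDerivAt.le_of_lip'`).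
Blueprint for `integral_mul_div_le`. `ψ_i x = φ x i` is `C¹` with compact support, `|ψ_i x| ≤ ‖φ x‖ ≤ 1` (`PiLp.norm_apply_le` / `EuclideanSpace.norm_eq`), and
`fderiv ℝ ψ_i x v = (fderiv ℝ φ x v) i` (compose with the continuous linear map `EuclideanSpace.proj i`: `ContinuousLinearMap.fderiv`, `fderiv_comp`). `Finset.mul_sum`, `integral_finset_sum` (each term is integrable:
locally integrable times continuous with compact support), each term `≤ W * ‖single i 1‖ = W`.
-/

namespace P137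

open MeasureTheory Metric Set
open scoped ENNReal

theorem integral_mul_fderiv_le {d : ℕ} (u : EuclideanSpace ℝ (Fin d) → ℝ)
    (hu : LocallyIntegrable u volume) (W : ℝ) (hW : 0 ≤ W)
    (hdq : ∀ h : EuclideanSpace ℝ (Fin d),
      ∫⁻ x, ENNReal.ofReal |u (x + h) - u x| ≤ ENNReal.ofReal (W * ‖h‖))
    (ψ : EuclideanSpace ℝ (Fin d) → ℝ) (hψ : ContDiff ℝ 1 ψ) (hψc : HasCompactSupport ψ)
    (hψ1 : ∀ x, |ψ x| ≤ 1) (v : EuclideanSpace ℝ (Fin d)) :
    |∫ x, u x * fderiv ℝ ψ x v| ≤ W * ‖v‖ := by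
  have hd := hasDerivAt_integral_shift u hu ψ hψ hψc v
  have hlip : ∀ᶠ s in nhds (0:ℝ),
      ‖(fun s : ℝ => ∫ x, u x * ψ (x + s • v)) s - (fun s : ℝ => ∫ x, u x * ψ (x + s • v)) 0‖
        ≤ (W * ‖v‖) * ‖s - 0‖ := by
    refine Filter.Eventually.of_forall (fun s => ?_)
    have h1 := integral_shift_sub_le u hu W hW hdq ψ hψ.continuous hψc hψ1 (s • v)
    simp only [zero_smul, add_zero, sub_zero, Real.norm_eq_abs]
    rw [norm_smul, Real.norm_eq_abs] at h1
    linarith
  have h2 := hd.le_of_lip' (by positivity) hlip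
  simpa [Real.norm_eq_abs] using h2

theorem integral_mul_div_le {d : ℕ} (u : EuclideanSpace ℝ (Fin d) → ℝ)
    (hu : LocallyIntegrable u volume) (W : ℝ) (hW : 0 ≤ W)
    (hdq : ∀ h : EuclideanSpace ℝ (Fin d),
      ∫⁻ x, ENNReal.ofReal |u (x + h) - u x| ≤ ENNReal.ofReal (W * ‖h‖))
    (φ : EuclideanSpace ℝ (Fin d) → EuclideanSpace ℝ (Fin d)) (hφ : ContDiff ℝ 1 φ)
    (hφc : HasCompactSupport φ) (hφ1 : ∀ x, ‖φ x‖ ≤ 1) :
    ∫ x, u x * ∑ i : Fin d, (fderiv ℝ φ x (EuclideanSpace.single i 1)) i ≤ d * W := by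
  have hψ : ∀ i : Fin d, ContDiff ℝ 1 (fun x => φ x i) := by
    intro i
    exact (EuclideanSpace.proj (𝕜 := ℝ) (ι := Fin d) i).contDiff.comp hφ
  have hψc : ∀ i : Fin d, HasCompactSupport (fun x => φ x i) := by
    intro i
    exact hφc.comp_left (g := fun y : EuclideanSpace ℝ (Fin d) => y i) rfl
  have hψ1 : ∀ (i : Fin d) x, |φ x i| ≤ 1 := by
    intro i x
    have h1 := PiLp.norm_apply_le (φ x) i
    rw [Real.norm_eq_abs] at h1
    exact h1.trans (hφ1 x)
  have hfd : ∀ (i : Fin d) x v, fderiv ℝ (fun x => φ x i) x v = (fderiv ℝ φ x v) i := by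
    intro i x v
    have hdiff : DifferentiableAt ℝ φ x := (hφ.differentiable (by norm_num)) x
    have h1 := ((EuclideanSpace.proj (𝕜 := ℝ) (ι := Fin d) i).hasFDerivAt
      (x := φ x)).comp x hdiff.hasFDerivAt
    have h2 : fderiv ℝ (fun x => φ x i) x
        = (EuclideanSpace.proj (𝕜 := ℝ) (ι := Fin d) i).comp (fderiv ℝ φ x) :=
      h1.fderiv
    rw [h2]
    rfl
  have key : ∀ i : Fin d, |∫ x, u x * (fderiv ℝ φ x (EuclideanSpace.single i 1)) i| ≤ W := by
    intro i
    have h1 := integral_mul_fderiv_le u hu W hW hdq _ (hψ i) (hψc i) (hψ1 i)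
      (EuclideanSpace.single i 1)
    simp only [hfd] at h1
    simpa using h1
  have hint : ∀ i : Fin d,
      Integrable (fun x => u x * (fderiv ℝ φ x (EuclideanSpace.single i 1)) i) := by
    intro i
    have hcont : Continuous (fun x => fderiv ℝ (fun x => φ x i) x (EuclideanSpace.single i 1)) :=
      ((hψ i).continuous_fderiv (by norm_num)).clm_apply continuous_const
    have hcs : HasCompactSupport
        (fun x => fderiv ℝ (fun x => φ x i) x (EuclideanSpace.single i 1)) :=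
      ((hψc i).fderiv (𝕜 := ℝ)).comp_left
        (g := fun L : EuclideanSpace ℝ (Fin d) →L[ℝ] ℝ => L (EuclideanSpace.single i 1)) rfl
    have h1 := hu.integrable_smul_right_of_hasCompactSupport hcont hcs
    simp only [hfd, smul_eq_mul] at h1
    refine h1.congr (Filter.Eventually.of_forall (fun x => ?_))
    simp
  calc ∫ x, u x * ∑ i : Fin d, (fderiv ℝ φ x (EuclideanSpace.single i 1)) i
      = ∫ x, ∑ i : Fin d, u x * (fderiv ℝ φ x (EuclideanSpace.single i 1)) i := by
        simp only [Finset.mul_sum]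
    _ = ∑ i : Fin d, ∫ x, u x * (fderiv ℝ φ x (EuclideanSpace.single i 1)) i :=
        integral_finsetSum _ (fun i _ => hint i)
    _ ≤ ∑ _i : Fin d, W := Finset.sum_le_sum (fun i _ => (le_abs_self _).trans (key i))
    _ = d * W := by simp

end P137
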