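import Mathlib

/-!
# P137 / W4: local integrability from the weighted integral; `toReal` differences

Blueprint for `locallyIntegrable_toReal_of_weighted`. Use `locallyIntegrable_iff` (integrable on compacts) or `LocallyIntegrable` via balls: a compact `K` lies in `closedBall 0 R` with `R > 0`; for `‖x‖ ≤ R`,
`g x ≤ ofReal R * (g x / ofReal ‖x‖)` (for `x = 0` the right side is `∞` unless `g 0 = 0`; otherwise `ENNReal.mul_div_cancel`-type arithmetic), so `∫⁻ x in K, g x < ∞`; then
`integrable_toReal_of_lintegral_ne_top` on the restricted measure.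
Blueprint for `ofReal_abs_toReal_sub_le`. Cases `a = ∞`, `b = ∞`; for finite values write `a = ofReal p`, `b = ofReal q` (or lift to `NNReal`) and split on `p ≤ q`.
-/

namespace P137

open MeasureTheory Metric Set
open scoped ENNReal

theorem le_ofReal_mul_div_norm {E : Type*} [NormedAddCommGroup E] (c : ℝ≥0∞) (x : E) {R : ℝ}
    (hR : 0 < R) (hx : ‖x‖ ≤ R) :
    c ≤ ENNReal.ofReal R * (c / ENNReal.ofReal ‖x‖) := by
  by_cases h0 : ‖x‖ = 0
  · rw [h0, ENNReal.ofReal_zero]
    by_cases hc : c = 0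
    · rw [hc]; exact zero_le
    · rw [ENNReal.div_zero hc, ENNReal.mul_top (by simpa using hR)]
      exact le_top
  · have hpos : 0 < ‖x‖ := lt_of_le_of_ne (norm_nonneg x) (Ne.symm h0)
    have h1 : ENNReal.ofReal ‖x‖ ≠ 0 := by simpa using hpos
    have h2 : ENNReal.ofReal ‖x‖ ≠ ∞ := ENNReal.ofReal_ne_top
    calc c = ENNReal.ofReal ‖x‖ * (c / ENNReal.ofReal ‖x‖) := (ENNReal.mul_div_cancel h1 h2).symm
      _ ≤ ENNReal.ofReal R * (c / ENNReal.ofReal ‖x‖) := by
          gcongr

theorem locallyIntegrable_toReal_of_weighted {d : ℕ} (g : EuclideanSpace ℝ (Fin d) → ℝ≥0∞)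
    (hg : Measurable g)
    (hfin : ∫⁻ x : EuclideanSpace ℝ (Fin d), g x / ENNReal.ofReal ‖x‖ ≠ ∞) :
    LocallyIntegrable (fun x => (g x).toReal) volume := by
  rw [locallyIntegrable_iff]
  intro K hK
  obtain ⟨R, hR, hKR⟩ := hK.isBounded.subset_closedBall_lt 0 0
  have hm : Measurable fun x : EuclideanSpace ℝ (Fin d) => g x / ENNReal.ofReal ‖x‖ :=
    hg.div measurable_norm.ennreal_ofReal
  have hle : ∫⁻ x in K, g x ≤
      ENNReal.ofReal R * ∫⁻ x : EuclideanSpace ℝ (Fin d), g x / ENNReal.ofReal ‖x‖ := by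
    calc ∫⁻ x in K, g x ≤ ∫⁻ x in K, ENNReal.ofReal R * (g x / ENNReal.ofReal ‖x‖) := by
          apply setLIntegral_mono' hK.measurableSet
          intro x hx
          have hx' : ‖x‖ ≤ R := by simpa using hKR hx
          exact le_ofReal_mul_div_norm (g x) x hR hx'
      _ ≤ ∫⁻ x, ENNReal.ofReal R * (g x / ENNReal.ofReal ‖x‖) := setLIntegral_le_lintegral _ _
      _ = ENNReal.ofReal R * ∫⁻ x : EuclideanSpace ℝ (Fin d), g x / ENNReal.ofReal ‖x‖ :=
          lintegral_const_mul _ hm
  have hne : ∫⁻ x in K, g x ≠ ∞ :=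
    ne_top_of_le_ne_top (ENNReal.mul_ne_top ENNReal.ofReal_ne_top hfin) hle
  exact integrable_toReal_of_lintegral_ne_top hg.aemeasurable hne

theorem ofReal_abs_toReal_sub_le (a b : ℝ≥0∞) :
    ENNReal.ofReal |a.toReal - b.toReal| ≤ (a - b) + (b - a) := by
  by_cases ha : a = ∞
  · subst ha
    by_cases hb : b = ∞
    · subst hb; simp
    · simp [ENNReal.top_sub hb]
  by_cases hb : b = ∞
  · subst hb
    simp [ENNReal.top_sub ha]
  rcases le_total a b with h | h
  · have h' : a.toReal ≤ b.toReal := ENNReal.toReal_mono hb h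
    rw [abs_of_nonpos (by linarith), neg_sub, ← ENNReal.toReal_sub_of_le h hb,
      ENNReal.ofReal_toReal (ne_top_of_le_ne_top hb tsub_le_self)]
    exact le_add_self
  · have h' : b.toReal ≤ a.toReal := ENNReal.toReal_mono ha h
    rw [abs_of_nonneg (by linarith), ← ENNReal.toReal_sub_of_le h ha,
      ENNReal.ofReal_toReal (ne_top_of_le_ne_top ha tsub_le_self)]
    exact le_self_add

end P137
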