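import Mathlib

/-!
# P137 / S2: `‖f(· + h) - f‖_{L¹} ≤ |h| ‖∇f‖_{L¹}` for `C¹` functions

Blueprint for `dq_of_contDiff`. For fixed `x`, `s ↦ f (x + s • h)` has derivative `fderiv ℝ f (x + s • h) h`, continuous in `s`; so `f (x + h) - f x = ∫ s in 0..1, fderiv ℝ f (x + s • h) h`
(`intervalIntegral.integral_eq_sub_of_hasDerivAt`), hence `|f (x + h) - f x| ≤ ∫ s in 0..1, ‖fderiv ℝ f (x + s • h)‖ * ‖h‖` (`intervalIntegral.norm_integral_le_integral_norm`, `ContinuousLinearMap.le_opNorm`), and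
`ofReal |f (x + h) - f x| ≤ ∫⁻ s in Ioc 0 1, ‖fderiv ℝ f (x + s • h)‖ₑ * ofReal ‖h‖` (`ofReal_integral_eq_lintegral_ofReal`, `ofReal_norm_eq_enorm`). Integrate in `x`, swap (`lintegral_lintegral_swap`; the integrand is jointly continuous),
use `lintegral_add_right_eq_self` for each `s`, and `volume (Ioc 0 1) = 1`.
`ofReal_sub_add_le`: split on `a ≤ b`; `ENNReal.ofReal_sub`, `tsub_eq_zero_of_le`, `ENNReal.ofReal_le_ofReal`.
-/

namespace P137

open MeasureTheory Metric Set
open scoped ENNReal NNReal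

private theorem dq_pointwise {d : ℕ} (f : EuclideanSpace ℝ (Fin d) → ℝ) (hf : ContDiff ℝ 1 f)
    (h x : EuclideanSpace ℝ (Fin d)) :
    ENNReal.ofReal |f (x + h) - f x| ≤
      ∫⁻ s in Ioc (0 : ℝ) 1, ‖fderiv ℝ f (x + s • h)‖ₑ * ENNReal.ofReal ‖h‖ := by
  have hcont : Continuous (fderiv ℝ f) := hf.continuous_fderiv (by norm_num)
  have hderiv : ∀ s : ℝ, HasDerivAt (fun s : ℝ => f (x + s • h)) (fderiv ℝ f (x + s • h) h) s := by
    intro s
    have h1 : HasDerivAt (fun s : ℝ => x + s • h) h s := by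
      simpa using ((hasDerivAt_id s).smul_const h).const_add x
    exact ((hf.differentiable (by norm_num)) (x + s • h)).hasFDerivAt.comp_hasDerivAt s h1
  have hFc : Continuous (fun s : ℝ => fderiv ℝ f (x + s • h) h) := by
    have h2 : Continuous (fun s : ℝ => fderiv ℝ f (x + s • h)) := hcont.comp (by fun_prop)
    exact h2.clm_apply continuous_const
  have hftc : ∫ s in (0 : ℝ)..1, fderiv ℝ f (x + s • h) h = f (x + h) - f x := by
    have := intervalIntegral.integral_eq_sub_of_hasDerivAt (a := (0 : ℝ)) (b := 1)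
      (f := fun s : ℝ => f (x + s • h)) (fun s _ => hderiv s) (hFc.intervalIntegrable 0 1)
    simpa using this
  rw [← Real.enorm_eq_ofReal_abs, ← hftc, intervalIntegral.integral_of_le zero_le_one]
  refine (enorm_integral_le_lintegral_enorm _).trans ?_
  apply lintegral_mono
  intro s
  rw [ofReal_norm]
  exact ContinuousLinearMap.le_opENorm _ _

theorem dq_of_contDiff {d : ℕ} (f : EuclideanSpace ℝ (Fin d) → ℝ) (hf : ContDiff ℝ 1 f)
    (h : EuclideanSpace ℝ (Fin d)) :
    ∫⁻ x, ENNReal.ofReal |f (x + h) - f x| ≤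
      (∫⁻ x, ‖fderiv ℝ f x‖ₑ) * ENNReal.ofReal ‖h‖ := by
  have hcont : Continuous (fderiv ℝ f) := hf.continuous_fderiv (by norm_num)
  set c := ENNReal.ofReal ‖h‖ with hc
  have hG : Measurable (fun x : EuclideanSpace ℝ (Fin d) => ‖fderiv ℝ f x‖ₑ) :=
    hcont.enorm.measurable
  have hmeas : Measurable (fun p : EuclideanSpace ℝ (Fin d) × ℝ =>
      ‖fderiv ℝ f (p.1 + p.2 • h)‖ₑ * c) := by
    have h2 : Continuous (fun p : EuclideanSpace ℝ (Fin d) × ℝ => fderiv ℝ f (p.1 + p.2 • h)) :=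
      hcont.comp (by fun_prop)
    exact h2.enorm.measurable.mul_const c
  calc ∫⁻ x, ENNReal.ofReal |f (x + h) - f x|
      ≤ ∫⁻ x, ∫⁻ s in Ioc (0 : ℝ) 1, ‖fderiv ℝ f (x + s • h)‖ₑ * c :=
        lintegral_mono (fun x => dq_pointwise f hf h x)
    _ = ∫⁻ s in Ioc (0 : ℝ) 1, ∫⁻ x, ‖fderiv ℝ f (x + s • h)‖ₑ * c :=
        lintegral_lintegral_swap (f := fun (x : EuclideanSpace ℝ (Fin d)) (s : ℝ) =>
          ‖fderiv ℝ f (x + s • h)‖ₑ * c) hmeas.aemeasurable
    _ = ∫⁻ _s in Ioc (0 : ℝ) 1, (∫⁻ x, ‖fderiv ℝ f x‖ₑ) * c := by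
        apply lintegral_congr
        intro s
        have hGs : Measurable (fun x : EuclideanSpace ℝ (Fin d) => ‖fderiv ℝ f (x + s • h)‖ₑ) :=
          hG.comp (measurable_id.add_const (s • h))
        rw [lintegral_mul_const c hGs]
        congr 1
        exact lintegral_add_right_eq_self (fun x => ‖fderiv ℝ f x‖ₑ) (s • h)
    _ = (∫⁻ x, ‖fderiv ℝ f x‖ₑ) * c := by
        rw [lintegral_const, Measure.restrict_apply MeasurableSet.univ, univ_inter,
          Real.volume_Ioc]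
        simp

theorem ofReal_sub_add_le (a b : ℝ) :
    (ENNReal.ofReal a - ENNReal.ofReal b) + (ENNReal.ofReal b - ENNReal.ofReal a) ≤
      ENNReal.ofReal |b - a| := by
  have key : ∀ p q : ℝ, ENNReal.ofReal p - ENNReal.ofReal q ≤ ENNReal.ofReal (p - q) := by
    intro p q
    rw [tsub_le_iff_right]
    calc ENNReal.ofReal p = ENNReal.ofReal ((p - q) + q) := by rw [sub_add_cancel]
      _ ≤ _ := ENNReal.ofReal_add_le
  rcases le_total a b with hab | hab
  · rw [tsub_eq_zero_of_le (ENNReal.ofReal_le_ofReal hab), zero_add, abs_of_nonneg (by linarith)]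
    exact key b a
  · rw [tsub_eq_zero_of_le (ENNReal.ofReal_le_ofReal hab), add_zero, abs_of_nonpos (by linarith),
      neg_sub]
    exact key a b

end P137
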