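import Mathlib

/-!
# P137 / S3: an `L¹` difference-quotient bound controls the integral of the pointwise gradient

Blueprint for `enorm_fderiv_le_sum`. For a continuous linear functional `A` on `EuclideanSpace ℝ (Fin d)`: `v = ∑ i, v i • single i 1`, so `|A v| ≤ ∑ i, |v i| * |A (single i 1)| ≤ ‖v‖ * ∑ i, |A (single i 1)|`
(`PiLp.norm_apply_le`), hence `‖A‖ ≤ ∑ i, |A (single i 1)|` (`ContinuousLinearMap.opNorm_le_bound`); pass to `ENNReal` (`ENNReal.ofReal_sum_of_nonneg`, `ofReal_norm_eq_enorm`).
Blueprint for `lintegral_partial_le`. Put `t n = 1 / (n + 1)`, `q n x = ofReal (|u (x + t n • v) - u x| * (n + 1))`. Pointwise `ofReal |fderiv ℝ u x v| ≤ liminf_n q n x`: if `u` is differentiable at `x`, the line derivative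
(`HasFDerivAt.hasLineDerivAt`, `HasDerivAt.tendsto_slope_zero`-type lemma along `t n → 0`, `t n ≠ 0`) gives `q n x → ofReal |fderiv ℝ u x v|`; otherwise `fderiv ℝ u x = 0`. Fatou (`lintegral_liminf_le`, `q n` measurable as `u` is continuous) and
`∫⁻ q n = ofReal (n + 1) * ∫⁻ ofReal |u (x + t n • v) - u x| ≤ ofReal (n + 1) * (W * ofReal (t n * ‖v‖)) = W * ofReal ‖v‖`.
`lintegral_fderiv_le_of_dq`: sum over `i` with `‖single i 1‖ = 1` (`lintegral_finset_sum`: measurability of `x ↦ fderiv ℝ u x v` is `measurable_fderiv_apply_const`).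
-/

namespace P137

open MeasureTheory Metric Set Filter
open scoped ENNReal NNReal Topology

theorem enorm_fderiv_le_sum {d : ℕ} (A : EuclideanSpace ℝ (Fin d) →L[ℝ] ℝ) :
    ‖A‖ₑ ≤ ∑ i : Fin d, ENNReal.ofReal |A (EuclideanSpace.single i 1)| := by
  have h1 : ‖A‖ ≤ ∑ i : Fin d, |A (EuclideanSpace.single i 1)| := by
    refine ContinuousLinearMap.opNorm_le_bound _ (Finset.sum_nonneg fun i _ => abs_nonneg _) ?_
    intro v
    have hv : v = ∑ i, v i • EuclideanSpace.single i (1 : ℝ) := by
      ext j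
      simp [Finset.sum_apply, Pi.single_apply]
    have hAv : A v = ∑ i, v i * A (EuclideanSpace.single i 1) := by
      conv_lhs => rw [hv]
      simp [map_sum]
    calc ‖A v‖ = |∑ i, v i * A (EuclideanSpace.single i 1)| := by rw [hAv, Real.norm_eq_abs]
      _ ≤ ∑ i, |v i * A (EuclideanSpace.single i 1)| := Finset.abs_sum_le_sum_abs _ _
      _ ≤ ∑ i, |A (EuclideanSpace.single i 1)| * ‖v‖ := by
          refine Finset.sum_le_sum fun i _ => ?_
          rw [abs_mul, mul_comm]
          refine mul_le_mul_of_nonneg_left ?_ (abs_nonneg _)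
          have := PiLp.norm_apply_le v i
          simpa [Real.norm_eq_abs] using this
      _ = (∑ i, |A (EuclideanSpace.single i 1)|) * ‖v‖ := by rw [Finset.sum_mul]
  rw [← ofReal_norm, ← ENNReal.ofReal_sum_of_nonneg (fun i _ => abs_nonneg _)]
  exact ENNReal.ofReal_le_ofReal h1

theorem lintegral_partial_le {d : ℕ} (u : EuclideanSpace ℝ (Fin d) → ℝ) (hu : Continuous u)
    (W : ℝ≥0∞)
    (hdq : ∀ h : EuclideanSpace ℝ (Fin d),
      ∫⁻ x, ENNReal.ofReal |u (x + h) - u x| ≤ W * ENNReal.ofReal ‖h‖)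
    (v : EuclideanSpace ℝ (Fin d)) :
    ∫⁻ x, ENNReal.ofReal |fderiv ℝ u x v| ≤ W * ENNReal.ofReal ‖v‖ := by
  set t : ℕ → ℝ := fun n => 1 / ((n : ℝ) + 1) with ht
  have htpos : ∀ n, 0 < t n := fun n => by positivity
  have htlim : Tendsto t atTop (𝓝 0) := tendsto_one_div_add_atTop_nhds_zero_nat
  set q : ℕ → EuclideanSpace ℝ (Fin d) → ℝ≥0∞ :=
    fun n x => ENNReal.ofReal (|u (x + t n • v) - u x| * ((n : ℝ) + 1)) with hq
  have hpt : ∀ x, ENNReal.ofReal |fderiv ℝ u x v| ≤ liminf (fun n => q n x) atTop := by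
    intro x
    by_cases hx : DifferentiableAt ℝ u x
    · have h1 : HasLineDerivAt ℝ u (fderiv ℝ u x v) x v := hx.hasFDerivAt.hasLineDerivAt v
      have h2 := HasDerivAt.tendsto_slope_zero h1
      have h3 : Tendsto t atTop (𝓝[≠] 0) :=
        tendsto_nhdsWithin_iff.2 ⟨htlim, Eventually.of_forall fun n => (htpos n).ne'⟩
      have h4 := h2.comp h3
      have h5 : Tendsto (fun n => q n x) atTop (𝓝 (ENNReal.ofReal |fderiv ℝ u x v|)) := by
        have := (ENNReal.continuous_ofReal.tendsto _).comp (h4.abs)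
        refine this.congr fun n => ?_
        have hn : (0 : ℝ) < (n : ℝ) + 1 := by positivity
        simp only [Function.comp, hq, ht, zero_add, zero_smul, add_zero, smul_eq_mul, abs_mul,
          one_div, inv_inv, abs_of_pos hn]
        rw [mul_comm]
      exact h5.liminf_eq.ge
    · rw [fderiv_zero_of_not_differentiableAt hx]
      simp
  have hmeas : ∀ n, Measurable (q n) := by
    intro n
    have : Continuous (fun x => |u (x + t n • v) - u x| * ((n : ℝ) + 1)) := by fun_prop
    exact ENNReal.measurable_ofReal.comp this.measurable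
  calc ∫⁻ x, ENNReal.ofReal |fderiv ℝ u x v|
      ≤ ∫⁻ x, liminf (fun n => q n x) atTop := lintegral_mono hpt
    _ ≤ liminf (fun n => ∫⁻ x, q n x) atTop := lintegral_liminf_le hmeas
    _ ≤ W * ENNReal.ofReal ‖v‖ := by
        refine liminf_le_of_frequently_le' (Frequently.of_forall fun n => ?_)
        have hn : (0 : ℝ) < (n : ℝ) + 1 := by positivity
        have hm : Measurable (fun x => ENNReal.ofReal |u (x + t n • v) - u x|) := by
          have : Continuous (fun x => |u (x + t n • v) - u x|) := by fun_prop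
          exact ENNReal.measurable_ofReal.comp this.measurable
        calc ∫⁻ x, q n x
            = ∫⁻ x, ENNReal.ofReal |u (x + t n • v) - u x| * ENNReal.ofReal ((n : ℝ) + 1) := by
              refine lintegral_congr fun x => ?_
              simp only [hq]
              rw [ENNReal.ofReal_mul (abs_nonneg _)]
          _ = (∫⁻ x, ENNReal.ofReal |u (x + t n • v) - u x|) * ENNReal.ofReal ((n : ℝ) + 1) :=
              lintegral_mul_const _ hm
          _ ≤ (W * ENNReal.ofReal ‖t n • v‖) * ENNReal.ofReal ((n : ℝ) + 1) := by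
              gcongr
              exact hdq _
          _ = W * ENNReal.ofReal ‖v‖ := by
              rw [mul_assoc, ← ENNReal.ofReal_mul (norm_nonneg _), norm_smul,
                Real.norm_eq_abs, abs_of_pos (htpos n)]
              congr 2
              simp only [ht]
              field_simp

theorem lintegral_fderiv_le_of_dq {d : ℕ} (u : EuclideanSpace ℝ (Fin d) → ℝ) (hu : Continuous u)
    (W : ℝ≥0∞)
    (hdq : ∀ h : EuclideanSpace ℝ (Fin d),
      ∫⁻ x, ENNReal.ofReal |u (x + h) - u x| ≤ W * ENNReal.ofReal ‖h‖) :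
    ∫⁻ x, ‖fderiv ℝ u x‖ₑ ≤ d * W := by
  calc ∫⁻ x, ‖fderiv ℝ u x‖ₑ
      ≤ ∫⁻ x, ∑ i : Fin d, ENNReal.ofReal |fderiv ℝ u x (EuclideanSpace.single i 1)| :=
        lintegral_mono fun x => enorm_fderiv_le_sum _
    _ = ∑ i : Fin d, ∫⁻ x, ENNReal.ofReal |fderiv ℝ u x (EuclideanSpace.single i 1)| := by
        refine lintegral_finsetSum _ fun i _ => ?_
        have := measurable_fderiv_apply_const ℝ u (EuclideanSpace.single i (1 : ℝ))
        exact ENNReal.measurable_ofReal.comp (measurable_norm.comp this)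
    _ ≤ ∑ _i : Fin d, W := by
        refine Finset.sum_le_sum fun i _ => ?_
        have := lintegral_partial_le u hu W hdq (EuclideanSpace.single i 1)
        simpa using this
    _ = d * W := by simp

end P137
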