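import Vale.Agent.Lib.P137.Defs

/-!
# P137 / S1: the centred maximal function of a Lipschitz function is Lipschitz

Blueprint for `maxFun_le_add`. Fix `r > 0`. `∫⁻ w in ball x r, g w = ∫⁻ z in ball 0 r, g (x + z)` (write set integrals with `indicator`, `lintegral_add_left_eq_self`, `x + z ∈ ball x r ↔ z ∈ ball 0 r`), the same for `y`;
`∫⁻ z in ball 0 r, g (x + z) ≤ ∫⁻ z in ball 0 r, (g (y + z) + c) = ∫⁻ z in ball 0 r, g (y + z) + c * volume (ball 0 r)` (`lintegral_add_right` with the constant, `setLIntegral_const`);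
`volume (ball x r) = volume (ball y r) = volume (ball 0 r)` (`Measure.addHaar_ball_center`) is neither `0` nor `∞`; multiply by its inverse, then `le_iSup`-type bound and `iSup_le`.
`maxFun_le_const`: each average is `≤ (volume B)⁻¹ * (c * volume B) ≤ c`.
`lipschitzWith_maxFun_toReal`: `LipschitzWith.of_dist_le_mul`; `ofReal (f (x + z)) ≤ ofReal (f (y + z)) + ofReal (L * dist x y)` from `hL.dist_le_mul`, `Real.dist_eq`, `dist_add_right`; apply `maxFun_le_add` in both directions and pass to `toReal` with `hfin`.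
-/

namespace P137

open MeasureTheory Metric Set
open scoped ENNReal NNReal

theorem setLIntegral_ball_shift {d : ℕ} (g : EuclideanSpace ℝ (Fin d) → ℝ≥0∞)
    (x : EuclideanSpace ℝ (Fin d)) (r : ℝ) :
    ∫⁻ w in ball x r, g w = ∫⁻ z in ball (0 : EuclideanSpace ℝ (Fin d)) r, g (x + z) := by
  rw [← lintegral_indicator measurableSet_ball, ← lintegral_indicator measurableSet_ball,
    ← lintegral_add_left_eq_self _ x]
  refine lintegral_congr fun z => ?_
  by_cases hz : z ∈ ball (0 : EuclideanSpace ℝ (Fin d)) r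
  · have h1 : x + z ∈ ball x r := by
      rw [mem_ball, dist_eq_norm] at hz ⊢
      simpa using hz
    rw [indicator_of_mem h1, indicator_of_mem hz]
  · have h1 : x + z ∉ ball x r := by
      rw [mem_ball, dist_eq_norm] at hz ⊢
      simpa using hz
    rw [indicator_of_notMem h1, indicator_of_notMem hz]

theorem maxFun_le_add {d : ℕ} (g : EuclideanSpace ℝ (Fin d) → ℝ≥0∞) (c : ℝ≥0∞)
    (x y : EuclideanSpace ℝ (Fin d)) (hg : ∀ z, g (x + z) ≤ g (y + z) + c) :
    maxFun g x ≤ maxFun g y + c := by
  unfold maxFun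
  refine iSup_le fun r => ?_
  have hr := r.2
  set v := volume (ball (0 : EuclideanSpace ℝ (Fin d)) r.1) with hv
  have hvx : volume (ball x r.1) = v := Measure.addHaar_ball_center _ _ _
  have hvy : volume (ball y r.1) = v := Measure.addHaar_ball_center _ _ _
  have hv0 : v ≠ 0 := (measure_ball_pos volume 0 hr).ne'
  have hvt : v ≠ ∞ := measure_ball_lt_top.ne
  have h1 : ∫⁻ w in ball x r.1, g w ≤ (∫⁻ w in ball y r.1, g w) + c * v := by
    rw [setLIntegral_ball_shift g x, setLIntegral_ball_shift g y]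
    calc ∫⁻ z in ball (0 : EuclideanSpace ℝ (Fin d)) r.1, g (x + z)
        ≤ ∫⁻ z in ball (0 : EuclideanSpace ℝ (Fin d)) r.1, (g (y + z) + c) :=
          lintegral_mono fun z => hg z
      _ = _ := by rw [lintegral_add_right _ measurable_const, setLIntegral_const]
  calc (volume (ball x r.1))⁻¹ * ∫⁻ w in ball x r.1, g w
      ≤ v⁻¹ * ((∫⁻ w in ball y r.1, g w) + c * v) := by
        rw [hvx]
        gcongr
    _ = v⁻¹ * (∫⁻ w in ball y r.1, g w) + c := by
        rw [mul_add, mul_comm c v, ← mul_assoc, ENNReal.inv_mul_cancel hv0 hvt, one_mul]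
    _ ≤ _ := by
        gcongr
        rw [← hvy]
        exact le_iSup (fun r : {r : ℝ // 0 < r} =>
          (volume (ball y r.1))⁻¹ * ∫⁻ w in ball y r.1, g w) r

theorem maxFun_le_const {d : ℕ} (g : EuclideanSpace ℝ (Fin d) → ℝ≥0∞) (c : ℝ≥0∞)
    (hg : ∀ z, g z ≤ c) (x : EuclideanSpace ℝ (Fin d)) : maxFun g x ≤ c := by
  unfold maxFun
  refine iSup_le fun r => ?_
  have hr := r.2
  have hv0 : volume (ball x r.1) ≠ 0 := (measure_ball_pos volume x hr).ne'
  have hvt : volume (ball x r.1) ≠ ∞ := measure_ball_lt_top.ne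
  calc (volume (ball x r.1))⁻¹ * ∫⁻ w in ball x r.1, g w
      ≤ (volume (ball x r.1))⁻¹ * ∫⁻ _w in ball x r.1, c := by
        gcongr with w
        exact hg w
    _ = c := by
        rw [setLIntegral_const, mul_comm c, ← mul_assoc, ENNReal.inv_mul_cancel hv0 hvt, one_mul]

theorem lipschitzWith_maxFun_toReal {d : ℕ} (f : EuclideanSpace ℝ (Fin d) → ℝ) (L : ℝ≥0)
    (hL : LipschitzWith L f)
    (hfin : ∀ x, maxFun (fun z : EuclideanSpace ℝ (Fin d) => ENNReal.ofReal (f z)) x ≠ ∞) :
    LipschitzWith L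
      (fun x => (maxFun (fun z : EuclideanSpace ℝ (Fin d) => ENNReal.ofReal (f z)) x).toReal) := by
  set g : EuclideanSpace ℝ (Fin d) → ℝ≥0∞ := fun z => ENNReal.ofReal (f z) with hgdef
  have key : ∀ x y, maxFun g x ≤ maxFun g y + ENNReal.ofReal (L * dist x y) := by
    intro x y
    apply maxFun_le_add
    intro z
    have h1 : f (x + z) ≤ f (y + z) + L * dist x y := by
      have h2 := hL.dist_le_mul (x + z) (y + z)
      rw [Real.dist_eq, dist_add_right] at h2
      have h3 := le_abs_self (f (x + z) - f (y + z))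
      linarith
    exact (ENNReal.ofReal_le_ofReal h1).trans ENNReal.ofReal_add_le
  have key2 : ∀ x y, (maxFun g x).toReal ≤ (maxFun g y).toReal + L * dist x y := by
    intro x y
    have h1 := ENNReal.toReal_mono (ENNReal.add_ne_top.2 ⟨hfin y, ENNReal.ofReal_ne_top⟩) (key x y)
    rwa [ENNReal.toReal_add (hfin y) ENNReal.ofReal_ne_top,
      ENNReal.toReal_ofReal (by positivity)] at h1
  refine LipschitzWith.of_dist_le_mul fun x y => ?_
  rw [Real.dist_eq, abs_sub_le_iff]
  constructor
  · have := key2 x y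
    linarith
  · have := key2 y x
    rw [dist_comm] at this
    linarith

end P137
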