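import Vale.Agent.Lib.P137.Defs

/-!
# P137 / V5: the integral of `1 / |x|` over a centred ball

Blueprint. `ballInv_ge`: on `ball 0 R`, `(ofReal R)⁻¹ ≤ (ofReal ‖x‖)⁻¹`; `setLIntegral_const`.
`ballInv_le`: polar coordinates as in `Tail.lean` (`integrable_fun_norm_addHaar`, `integral_fun_norm_addHaar` with the profile
`indicator (Iic R) (fun t => t⁻¹)`, so that `∫ t in Ioc 0 R, t ^ (d - 1) * t⁻¹ = R ^ (d - 1) / (d - 1)`); the exact value is
`d / (d - 1) * ω * R ^ (d - 1)` and `d / (d - 1) ≤ 2` for `d ≥ 2`; `volume (ball 0 R) = ofReal (R ^ d) * ω`.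
-/

namespace P137

open MeasureTheory Metric Set
open scoped ENNReal

theorem ballInv_ge {d : ℕ} (R : ℝ) (hR : 0 < R) :
    volume (ball (0 : EuclideanSpace ℝ (Fin d)) R) / ENNReal.ofReal R ≤
      ∫⁻ x in ball (0 : EuclideanSpace ℝ (Fin d)) R, (ENNReal.ofReal ‖x‖)⁻¹ := by
  have h1 : ∫⁻ _x in ball (0 : EuclideanSpace ℝ (Fin d)) R, (ENNReal.ofReal R)⁻¹ =
      (ENNReal.ofReal R)⁻¹ * volume (ball (0 : EuclideanSpace ℝ (Fin d)) R) :=
    setLIntegral_const _ _
  rw [div_eq_mul_inv, mul_comm, ← h1]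
  refine setLIntegral_mono' measurableSet_ball fun x hx => ?_
  exact ENNReal.inv_le_inv.2 (ENNReal.ofReal_le_ofReal (le_of_lt (mem_ball_zero_iff.1 hx)))

/-- the radial profile -/
noncomputable def invG (R : ℝ) : ℝ → ℝ :=
  indicator (Ioc 0 R) (fun t => t⁻¹)

theorem invG_nonneg (R : ℝ) (t : ℝ) : 0 ≤ invG R t := by
  unfold invG
  refine indicator_nonneg ?_ t
  intro s hs
  exact inv_nonneg.2 hs.1.le

theorem invG_radial {d : ℕ} (hd : 2 ≤ d) (R : ℝ) :
    (fun y : ℝ => y ^ (d - 1) • invG R y) = indicator (Ioc 0 R) (fun t : ℝ => t ^ (d - 2)) := by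
  funext y
  unfold invG
  by_cases hy : y ∈ Ioc 0 R
  · rw [indicator_of_mem hy, indicator_of_mem hy]
    have hy0 : y ≠ 0 := hy.1.ne'
    have e : d - 1 = (d - 2) + 1 := by omega
    rw [smul_eq_mul, e, pow_succ, mul_assoc, mul_inv_cancel₀ hy0, mul_one]
  · rw [indicator_of_notMem hy, indicator_of_notMem hy, smul_zero]

theorem invG_integrableOn {d : ℕ} (hd : 2 ≤ d) (R : ℝ) :
    IntegrableOn (fun y : ℝ => y ^ (d - 1) • invG R y) (Ioi 0) := by
  rw [invG_radial hd R]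
  have h : IntegrableOn (fun t : ℝ => t ^ (d - 2)) (Ioc 0 R) :=
    (continuous_pow (d - 2)).integrableOn_Ioc
  exact ((integrable_indicator_iff measurableSet_Ioc).2 h).integrableOn

theorem invG_integral {d : ℕ} (hd : 2 ≤ d) (R : ℝ) (hR : 0 < R) :
    ∫ y in Ioi (0 : ℝ), y ^ (d - 1) • invG R y = R ^ (d - 1) / ((d : ℝ) - 1) := by
  rw [invG_radial hd R, setIntegral_indicator measurableSet_Ioc]
  have : Ioi (0 : ℝ) ∩ Ioc 0 R = Ioc 0 R := by
    ext t
    simp only [mem_inter_iff, mem_Ioi, mem_Ioc]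
    exact ⟨fun h => h.2, fun h => ⟨h.1, h⟩⟩
  rw [this, ← intervalIntegral.integral_of_le hR.le, integral_pow]
  have e : d - 2 + 1 = d - 1 := by omega
  rw [e, zero_pow (by omega), sub_zero]
  congr 1
  rw [Nat.cast_sub hd]
  push_cast
  ring

theorem ballInv_le {d : ℕ} (hd : 2 ≤ d) (R : ℝ) (hR : 0 < R) :
    ∫⁻ x in closedBall (0 : EuclideanSpace ℝ (Fin d)) R, (ENNReal.ofReal ‖x‖)⁻¹ ≤
      2 * (volume (ball (0 : EuclideanSpace ℝ (Fin d)) R) / ENNReal.ofReal R) := by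
  have hne : Nonempty (Fin d) := ⟨⟨0, by omega⟩⟩
  have hωt : volume (ball (0 : EuclideanSpace ℝ (Fin d)) 1) ≠ ⊤ := measure_ball_lt_top.ne
  have hfin : Module.finrank ℝ (EuclideanSpace ℝ (Fin d)) = d := by simp
  have h1 : ∀ x : EuclideanSpace ℝ (Fin d), x ≠ 0 →
      indicator (closedBall (0 : EuclideanSpace ℝ (Fin d)) R)
        (fun x => (ENNReal.ofReal ‖x‖)⁻¹) x = ENNReal.ofReal (invG R ‖x‖) := by
    intro x hx0
    have hx0' : 0 < ‖x‖ := norm_pos_iff.2 hx0
    by_cases hx : ‖x‖ ≤ R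
    · rw [indicator_of_mem (mem_closedBall_zero_iff.2 hx)]
      unfold invG
      rw [indicator_of_mem (show ‖x‖ ∈ Ioc 0 R from ⟨hx0', hx⟩), ENNReal.ofReal_inv_of_pos hx0']
    · rw [indicator_of_notMem (fun h => hx (mem_closedBall_zero_iff.1 h))]
      unfold invG
      rw [indicator_of_notMem (fun h : ‖x‖ ∈ Ioc 0 R => hx h.2)]
      simp
  have hae : ∀ᵐ x : EuclideanSpace ℝ (Fin d), x ≠ 0 := by
    have h0 : volume ({0} : Set (EuclideanSpace ℝ (Fin d))) = 0 := measure_singleton 0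
    have h2 : ({0} : Set (EuclideanSpace ℝ (Fin d)))ᶜ ∈ ae volume := compl_mem_ae_iff.2 h0
    filter_upwards [h2] with x hx
    exact fun h => hx (by simp [h])
  rw [← lintegral_indicator measurableSet_closedBall]
  rw [lintegral_congr_ae (hae.mono fun x hx => h1 x hx)]
  have hint : Integrable (fun x : EuclideanSpace ℝ (Fin d) => invG R ‖x‖) volume := by
    rw [integrable_fun_norm_addHaar, hfin]
    exact invG_integrableOn hd R
  have hval : ∫ x : EuclideanSpace ℝ (Fin d), invG R ‖x‖ =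
      d * ((volume (ball (0 : EuclideanSpace ℝ (Fin d)) 1)).toReal *
        (R ^ (d - 1) / ((d : ℝ) - 1))) := by
    rw [integral_fun_norm_addHaar, hfin, invG_integral hd R hR]
    simp [Measure.real]
  rw [← ofReal_integral_eq_lintegral_ofReal hint
    (Filter.Eventually.of_forall fun x => invG_nonneg R _), hval]
  rw [Measure.addHaar_ball_of_pos volume 0 hR, hfin]
  set ω := volume (ball (0 : EuclideanSpace ℝ (Fin d)) 1) with hω
  have e2 : 2 * (ENNReal.ofReal (R ^ d) * ω / ENNReal.ofReal R) =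
      ENNReal.ofReal (2 * (R ^ d * ω.toReal / R)) := by
    rw [ENNReal.ofReal_mul (by norm_num), ENNReal.ofReal_div_of_pos hR,
      ENNReal.ofReal_mul (by positivity), ENNReal.ofReal_toReal hωt]
    simp
  rw [e2]
  apply ENNReal.ofReal_le_ofReal
  have hd2 : (2 : ℝ) ≤ d := by exact_mod_cast hd
  have hw : 0 ≤ ω.toReal := ENNReal.toReal_nonneg
  have e3 : R ^ d = R ^ (d - 1) * R := by
    rw [← pow_succ]
    congr 1
    omega
  rw [e3]
  have hP : 0 ≤ R ^ (d - 1) := by positivity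
  have e4 : R ^ (d - 1) * R * ω.toReal / R = R ^ (d - 1) * ω.toReal := by
    field_simp
  rw [e4]
  have hd1 : (0 : ℝ) < (d : ℝ) - 1 := by linarith
  have e5 : (d : ℝ) * (ω.toReal * (R ^ (d - 1) / ((d : ℝ) - 1))) =
      ((d : ℝ) / ((d : ℝ) - 1)) * (R ^ (d - 1) * ω.toReal) := by
    field_simp
  rw [e5]
  apply mul_le_mul_of_nonneg_right _ (by positivity)
  rw [div_le_iff₀ hd1]
  linarith

end P137
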