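import Mathlib

/-!
# P137 / V1: the layer-cake representation of a truncated difference

Blueprint for `layer_vol`. If `a ≤ b` the set is empty. If `b < a` then `b ≠ ∞`; for `t > 0` one has
`b ≤ ofReal t ↔ b.toReal ≤ t` and (if `a ≠ ∞`) `ofReal t < a ↔ t < a.toReal`, so the set is `Ico b.toReal a.toReal` up to the
point `0` (volume `ofReal (a.toReal - b.toReal) = a - b`); if `a = ∞` it contains `Ioi (max b.toReal 0)`, of infinite volume.

Blueprint for `lintegral_sub_mul_eq`. Write both sides as iterated integrals of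
`(x, t) ↦ indicator {p | 0 < p.2 ∧ g2 p.1 ≤ ofReal p.2 ∧ ofReal p.2 < g1 p.1} (fun p => w p.1)` (a measurable function on the product)
and use `lintegral_lintegral_swap`; the inner integral in `t` is `w x * volume {t | ...} = w x * (g1 x - g2 x)` by `layer_vol`.
-/

namespace P137

open MeasureTheory Metric Set
open scoped ENNReal

theorem layer_vol (a b : ℝ≥0∞) :
    volume {t : ℝ | 0 < t ∧ b ≤ ENNReal.ofReal t ∧ ENNReal.ofReal t < a} = a - b := by
  rcases le_or_gt a b with hab | hab
  · have hempty : {t : ℝ | 0 < t ∧ b ≤ ENNReal.ofReal t ∧ ENNReal.ofReal t < a} = ∅ := by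
      ext t
      simp only [mem_ofPred_eq, mem_empty_iff_false, iff_false]
      rintro ⟨_, h1, h2⟩
      exact absurd (lt_of_le_of_lt h1 h2) (not_lt.mpr hab)
    rw [hempty, measure_empty, tsub_eq_zero_of_le hab]
  · have hb : b ≠ ∞ := ne_top_of_lt hab
    by_cases ha : a = ∞
    · subst ha
      rw [ENNReal.top_sub hb]
      apply top_le_iff.mp
      calc (∞ : ℝ≥0∞) = volume (Ioi (max b.toReal 0)) := Real.volume_Ioi.symm
        _ ≤ _ := by
          apply measure_mono
          intro t ht
          have ht' : max b.toReal 0 < t := ht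
          have h0 : 0 < t := lt_of_le_of_lt (le_max_right _ _) ht'
          have hbt : b.toReal < t := lt_of_le_of_lt (le_max_left _ _) ht'
          exact ⟨h0, (ENNReal.le_ofReal_iff_toReal_le hb h0.le).mpr hbt.le, ENNReal.ofReal_lt_top⟩
    · have hval : ENNReal.ofReal (a.toReal - b.toReal) = a - b := by
        rw [ENNReal.ofReal_sub _ ENNReal.toReal_nonneg, ENNReal.ofReal_toReal ha,
          ENNReal.ofReal_toReal hb]
      apply le_antisymm
      · calc _ ≤ volume (Ico b.toReal a.toReal) := by
              apply measure_mono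
              rintro t ⟨h0, h1, h2⟩
              exact ⟨(ENNReal.le_ofReal_iff_toReal_le hb h0.le).mp h1,
                (ENNReal.ofReal_lt_iff_lt_toReal h0.le ha).mp h2⟩
          _ = a - b := by rw [Real.volume_Ico, hval]
      · calc a - b = volume (Ioo b.toReal a.toReal) := by rw [Real.volume_Ioo, hval]
          _ ≤ _ := by
              apply measure_mono
              rintro t ⟨h1, h2⟩
              have h0 : 0 < t := lt_of_le_of_lt ENNReal.toReal_nonneg h1
              exact ⟨h0, (ENNReal.le_ofReal_iff_toReal_le hb h0.le).mpr h1.le,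
                (ENNReal.ofReal_lt_iff_lt_toReal h0.le ha).mpr h2⟩

theorem lintegral_sub_mul_eq {α : Type*} [MeasurableSpace α] (μ : Measure α) [SFinite μ]
    (g1 g2 w : α → ℝ≥0∞) (h1 : Measurable g1) (h2 : Measurable g2) (hw : Measurable w) :
    ∫⁻ x, (g1 x - g2 x) * w x ∂μ =
      ∫⁻ t in Ioi (0 : ℝ),
        ∫⁻ x in {x | g2 x ≤ ENNReal.ofReal t ∧ ENNReal.ofReal t < g1 x}, w x ∂μ := by
  set S : Set (α × ℝ) :=
    {p | 0 < p.2 ∧ g2 p.1 ≤ ENNReal.ofReal p.2 ∧ ENNReal.ofReal p.2 < g1 p.1} with hS
  have hSm : MeasurableSet S := by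
    have m1 : MeasurableSet {p : α × ℝ | 0 < p.2} :=
      measurableSet_lt measurable_const measurable_snd
    have m2 : MeasurableSet {p : α × ℝ | g2 p.1 ≤ ENNReal.ofReal p.2} :=
      measurableSet_le (h2.comp measurable_fst) (ENNReal.measurable_ofReal.comp measurable_snd)
    have m3 : MeasurableSet {p : α × ℝ | ENNReal.ofReal p.2 < g1 p.1} :=
      measurableSet_lt (ENNReal.measurable_ofReal.comp measurable_snd) (h1.comp measurable_fst)
    exact m1.inter (m2.inter m3)
  let F : α → ℝ → ℝ≥0∞ := fun x t => S.indicator (fun p => w p.1) (x, t)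
  have hF : Measurable (Function.uncurry F) := by
    have : Function.uncurry F = S.indicator (fun p => w p.1) := by
      funext p
      rfl
    rw [this]
    exact (hw.comp measurable_fst).indicator hSm
  have hswap := lintegral_lintegral_swap (μ := μ) (ν := (volume : Measure ℝ)) hF.aemeasurable
  have hL : ∀ x, ∫⁻ t, F x t = (g1 x - g2 x) * w x := by
    intro x
    have hset : MeasurableSet
        {t : ℝ | 0 < t ∧ g2 x ≤ ENNReal.ofReal t ∧ ENNReal.ofReal t < g1 x} := by
      have := measurable_prodMk_left (x := x) hSm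
      exact this
    have hFx : F x = {t : ℝ | 0 < t ∧ g2 x ≤ ENNReal.ofReal t ∧ ENNReal.ofReal t < g1 x}.indicator
        (fun _ => w x) := by
      funext t
      rfl
    rw [hFx, lintegral_indicator hset, lintegral_const, Measure.restrict_apply MeasurableSet.univ,
      univ_inter, layer_vol, mul_comm]
  have hR : ∀ t, ∫⁻ x, F x t ∂μ = (Ioi (0:ℝ)).indicator (fun t =>
      ∫⁻ x in {x | g2 x ≤ ENNReal.ofReal t ∧ ENNReal.ofReal t < g1 x}, w x ∂μ) t := by
    intro t
    have hset : MeasurableSet {x | g2 x ≤ ENNReal.ofReal t ∧ ENNReal.ofReal t < g1 x} :=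
      (measurableSet_le h2 measurable_const).inter (measurableSet_lt measurable_const h1)
    by_cases ht : 0 < t
    · rw [indicator_of_mem (show t ∈ Ioi (0:ℝ) from ht), ← lintegral_indicator hset]
      apply lintegral_congr
      intro x
      by_cases hx : g2 x ≤ ENNReal.ofReal t ∧ ENNReal.ofReal t < g1 x
      · have hxS : (x, t) ∈ S := ⟨ht, hx⟩
        simp only [F]
        rw [indicator_of_mem hxS, indicator_of_mem (show x ∈ {x | g2 x ≤ ENNReal.ofReal t ∧ ENNReal.ofReal t < g1 x} from hx)]
      · have hxS : (x, t) ∉ S := fun h => hx h.2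
        simp only [F]
        rw [indicator_of_notMem hxS, indicator_of_notMem (show x ∉ {x | g2 x ≤ ENNReal.ofReal t ∧ ENNReal.ofReal t < g1 x} from hx)]
    · rw [indicator_of_notMem (show t ∉ Ioi (0:ℝ) from ht)]
      have : ∀ x, F x t = 0 := by
        intro x
        have hxS : (x, t) ∉ S := fun h => ht h.1
        simp only [F]
        rw [indicator_of_notMem hxS]
      simp only [this, lintegral_zero]
  rw [← lintegral_indicator measurableSet_Ioi]
  calc ∫⁻ x, (g1 x - g2 x) * w x ∂μ = ∫⁻ x, ∫⁻ t, F x t ∂volume ∂μ := by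
        apply lintegral_congr
        intro x
        exact (hL x).symm
    _ = ∫⁻ t, ∫⁻ x, F x t ∂μ ∂volume := hswap
    _ = _ := by
        apply lintegral_congr
        intro t
        exact hR t

end P137
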