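import Vale.Agent.Lib.P137.Defs

/-!
# P137 / V2: superlevel sets of a radially nonincreasing function are balls

Blueprint. Let `I = {r | 0 ≤ r ∧ t < G r}`; it is downward closed in `[0, ∞)` as `G` is antitone. If `I = ∅` the set is empty.
If `I` is not bounded above, every `r ≥ 0` is in `I` and the set is `univ`. Otherwise take `R = sSup I` (`0 ≤ R` as `I` is nonempty):
`‖x‖ < R` gives `r ∈ I` with `‖x‖ < r` (`exists_lt_of_lt_csSup`), hence `‖x‖ ∈ I`; and `‖x‖ ∈ I` gives `‖x‖ ≤ R` (`le_csSup`).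
-/

namespace P137

open MeasureTheory Metric Set
open scoped ENNReal

theorem superlevel_cases {d : ℕ} (G : ℝ → ℝ≥0∞) (hG : Antitone G) (t : ℝ≥0∞) :
    {x : EuclideanSpace ℝ (Fin d) | t < G ‖x‖} = ∅ ∨
    {x : EuclideanSpace ℝ (Fin d) | t < G ‖x‖} = univ ∨
    ∃ R : ℝ, 0 ≤ R ∧ ball (0 : EuclideanSpace ℝ (Fin d)) R ⊆ {x | t < G ‖x‖} ∧
      {x : EuclideanSpace ℝ (Fin d) | t < G ‖x‖} ⊆ closedBall 0 R := by
  set I : Set ℝ := {r | 0 ≤ r ∧ t < G r} with hI
  have hdown : ∀ r ∈ I, ∀ s : ℝ, 0 ≤ s → s ≤ r → s ∈ I :=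
    fun r hr s hs hsr => ⟨hs, lt_of_lt_of_le hr.2 (hG hsr)⟩
  by_cases hne : I.Nonempty
  · by_cases hbd : BddAbove I
    · right; right
      obtain ⟨r0, hr0⟩ := hne
      refine ⟨sSup I, le_trans hr0.1 (le_csSup hbd hr0), ?_, ?_⟩
      · intro x hx
        rw [mem_ball_zero_iff] at hx
        obtain ⟨r, hr, hxr⟩ := exists_lt_of_lt_csSup ⟨r0, hr0⟩ hx
        exact (hdown r hr ‖x‖ (norm_nonneg x) hxr.le).2
      · intro x hx
        rw [mem_closedBall_zero_iff]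
        exact le_csSup hbd ⟨norm_nonneg x, hx⟩
    · right; left
      rw [eq_univ_iff_forall]
      intro x
      rw [not_bddAbove_iff] at hbd
      obtain ⟨r, hr, hxr⟩ := hbd ‖x‖
      exact (hdown r hr ‖x‖ (norm_nonneg x) hxr.le).2
  · left
    rw [eq_empty_iff_forall_notMem]
    intro x hx
    exact hne ⟨‖x‖, norm_nonneg x, hx⟩

end P137
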