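import Vale.Agent.Lib.P137.HardyStep

/-!
# P137 / T7: the `L¹` Hardy inequality for functions of bounded variation

Blueprint for `radW_tendsto`. For `x ≠ 0`, `s = ‖x‖ ^ 2 > 0`: `cut (n + 1) s → 1`, `s + 1 / (n + 1) → s`, so `radW (1 / (n + 1)) (n + 1) x → s / (s * sqrt s) = 1 / ‖x‖` (continuity of `max`, `sqrt`, division at a nonzero point;
`tendsto_one_div_add_atTop_nhds_zero_nat`), and `ENNReal.tendsto_ofReal`, `ENNReal.ofReal_inv_of_pos`.
Blueprint for `weighted_le_of_testVar`. Fatou (`lintegral_liminf_le`): `∫⁻ f / ofReal ‖x‖ = ∫⁻ liminf_n f * ofReal (radW ..) ≤ liminf_n ∫⁻ f * ofReal (radW ..)` (a.e. equality off the null set `{0}`, `Tendsto.liminf_eq`,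
`ENNReal.Tendsto.const_mul`), each term `≤ V + ofReal (4 / sqrt (n + 1)) * ∫⁻ f` by `hardy_step`, and the right side tends to `V` as `∫⁻ f ≠ ∞` (`le_of_tendsto'`-style argument, `liminf_le_liminf`).
-/

namespace P137

open MeasureTheory Metric Set Filter
open scoped ENNReal NNReal Topology

theorem radW_tendsto {d : ℕ} (x : EuclideanSpace ℝ (Fin d)) (hx : x ≠ 0) :
    Tendsto (fun n : ℕ => ENNReal.ofReal (radW (1 / ((n : ℝ) + 1)) ((n : ℝ) + 1) x)) atTop
      (𝓝 (ENNReal.ofReal ‖x‖)⁻¹) := by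
  have hn : 0 < ‖x‖ := norm_pos_iff.2 hx
  set s : ℝ := ‖x‖ ^ 2 with hs
  have hs0 : 0 < s := by positivity
  have hsq : Real.sqrt s = ‖x‖ := by rw [hs]; exact Real.sqrt_sq hn.le
  set g : ℝ → ℝ := fun e => (max (1 - s * e) 0) ^ 2 * s / ((s + e) * Real.sqrt (s + e)) with hg
  have hgc : ContinuousAt g 0 := by
    apply ContinuousAt.div
    · fun_prop
    · fun_prop
    · rw [add_zero, hsq]
      positivity
  have hg0 : g 0 = ‖x‖⁻¹ := by
    simp only [hg, mul_zero, sub_zero, add_zero, hsq]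
    rw [max_eq_left zero_le_one, hs]
    field_simp
  have he : Tendsto (fun n : ℕ => 1 / ((n : ℝ) + 1)) atTop (𝓝 0) :=
    tendsto_one_div_add_atTop_nhds_zero_nat
  have h1 : Tendsto (fun n : ℕ => g (1 / ((n : ℝ) + 1))) atTop (𝓝 (‖x‖⁻¹)) := by
    rw [← hg0]
    exact hgc.tendsto.comp he
  have h2 : (fun n : ℕ => radW (1 / ((n : ℝ) + 1)) ((n : ℝ) + 1) x)
      = fun n : ℕ => g (1 / ((n : ℝ) + 1)) := by
    funext n
    simp only [radW, cut, hg, ← hs]
    rw [mul_one_div]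
  rw [← ENNReal.ofReal_inv_of_pos hn]
  rw [← h2] at h1
  exact ENNReal.tendsto_ofReal h1

theorem weighted_le_of_testVar {d : ℕ} (hd : 2 ≤ d) (f : EuclideanSpace ℝ (Fin d) → ℝ≥0∞)
    (hf : Measurable f) (hint : ∫⁻ x, f x ≠ ∞) (V : ℝ≥0)
    (hV : ∀ φ : EuclideanSpace ℝ (Fin d) → EuclideanSpace ℝ (Fin d), ContDiff ℝ 1 φ →
      HasCompactSupport φ → (∀ x, ‖φ x‖ ≤ 1) →
      ∫ x, (f x).toReal * ∑ i : Fin d, (fderiv ℝ φ x (EuclideanSpace.single i 1)) i ≤ V) :
    ∫⁻ x, f x / ENNReal.ofReal ‖x‖ ≤ V := by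
  have : Nonempty (Fin d) := ⟨⟨0, by omega⟩⟩
  set F : ℕ → EuclideanSpace ℝ (Fin d) → ℝ≥0∞ :=
    fun n x => f x * ENNReal.ofReal (radW (1 / ((n : ℝ) + 1)) ((n : ℝ) + 1) x) with hF
  have hFm : ∀ n, Measurable (F n) := fun n =>
    hf.mul (radW_measurable _ _).ennreal_ofReal
  have hae : ∀ᵐ x : EuclideanSpace ℝ (Fin d), x ≠ 0 := by
    have h0 : volume ({0} : Set (EuclideanSpace ℝ (Fin d))) = 0 := measure_singleton 0
    have := compl_mem_ae_iff.2 h0
    filter_upwards [this] with x hx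
    simpa using hx
  have hlim : ∀ x : EuclideanSpace ℝ (Fin d), x ≠ 0 →
      liminf (fun n => F n x) atTop = f x / ENNReal.ofReal ‖x‖ := by
    intro x hx
    have h1 := ENNReal.Tendsto.const_mul (a := f x) (radW_tendsto x hx)
      (Or.inl (ENNReal.inv_ne_zero.2 ENNReal.ofReal_ne_top))
    rw [div_eq_mul_inv]
    exact h1.liminf_eq
  have hstep : ∀ n : ℕ, ∫⁻ x, F n x ≤
      V + ENNReal.ofReal (4 / Real.sqrt ((n : ℝ) + 1)) * ∫⁻ x, f x := by
    intro n
    exact hardy_step hd f hf hint V hV _ _ (by positivity) (by positivity)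
  have hsq : Tendsto (fun n : ℕ => 4 / Real.sqrt ((n : ℝ) + 1)) atTop (𝓝 0) := by
    apply Filter.Tendsto.const_div_atTop
    exact Real.tendsto_sqrt_atTop.comp
      (tendsto_atTop_add_const_right _ 1 tendsto_natCast_atTop_atTop)
  have hG : Tendsto (fun n : ℕ => (V : ℝ≥0∞) +
      ENNReal.ofReal (4 / Real.sqrt ((n : ℝ) + 1)) * ∫⁻ x, f x) atTop (𝓝 V) := by
    have h1 := ENNReal.tendsto_ofReal hsq
    rw [ENNReal.ofReal_zero] at h1
    have h2 := ENNReal.Tendsto.mul_const (b := ∫⁻ x, f x) h1 (Or.inr hint)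
    rw [zero_mul] at h2
    have h3 := h2.const_add (V : ℝ≥0∞)
    rwa [add_zero] at h3
  calc ∫⁻ x, f x / ENNReal.ofReal ‖x‖
      = ∫⁻ x, liminf (fun n => F n x) atTop := by
        apply lintegral_congr_ae
        filter_upwards [hae] with x hx
        exact (hlim x hx).symm
    _ ≤ liminf (fun n => ∫⁻ x, F n x) atTop := lintegral_liminf_le hFm
    _ ≤ liminf (fun n : ℕ => (V : ℝ≥0∞) +
          ENNReal.ofReal (4 / Real.sqrt ((n : ℝ) + 1)) * ∫⁻ x, f x) atTop :=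
        liminf_le_liminf (Filter.Eventually.of_forall hstep)
    _ = V := hG.liminf_eq

end P137
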