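import Vale.Agent.Lib.P137.Point

/-!
# P137 / V11: radial profile, finiteness of the maximal function off the origin

Blueprint for `exists_profile`. Let `e = EuclideanSpace.single ⟨0, _⟩ 1` (norm `1`) and `G r = g ((max r 0) • e)`. `‖(max r 0) • e‖ = max r 0` is monotone in `r`, so `G` is antitone;
`‖(max ‖x‖ 0) • e‖ = ‖x‖`, so `g x = G ‖x‖` by `hg` in both directions.
Blueprint for `maxFun_ne_top`. By `maxFun_le` it is enough that `F (‖x‖ / 2) ≠ ∞` and `avg0 f ‖x‖ ≠ ∞`. If `F (‖x‖ / 2) = ∞` then `F ‖z‖ = ∞` on `ball 0 (‖x‖ / 2)`, of positive volume,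
so `∫⁻ F ‖z‖ = ∞`. And `avg0 f ‖x‖ ≤ (volume (ball 0 ‖x‖))⁻¹ * ∫⁻ f` with `volume (ball 0 ‖x‖) ≠ 0`.
-/

namespace P137

open MeasureTheory Metric Set
open scoped ENNReal

theorem exists_profile {d : ℕ} (hd : 1 ≤ d) (g : EuclideanSpace ℝ (Fin d) → ℝ≥0∞)
    (hg : ∀ x y : EuclideanSpace ℝ (Fin d), ‖x‖ ≤ ‖y‖ → g y ≤ g x) :
    ∃ G : ℝ → ℝ≥0∞, Antitone G ∧ ∀ x : EuclideanSpace ℝ (Fin d), g x = G ‖x‖ := by
  set e : EuclideanSpace ℝ (Fin d) := EuclideanSpace.single ⟨0, hd⟩ (1 : ℝ) with he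
  have hne : ‖e‖ = 1 := by simp [he]
  have hn : ∀ r : ℝ, ‖(max r 0) • e‖ = max r 0 := by
    intro r
    rw [norm_smul, hne, mul_one, Real.norm_eq_abs, abs_of_nonneg (le_max_right _ _)]
  refine ⟨fun r => g ((max r 0) • e), ?_, ?_⟩
  · intro r s hrs
    apply hg
    rw [hn, hn]
    exact max_le_max hrs le_rfl
  · intro x
    have h1 : ‖(max ‖x‖ 0) • e‖ = ‖x‖ := by
      rw [hn, max_eq_left (norm_nonneg x)]
    exact le_antisymm (hg _ _ h1.le) (hg _ _ h1.ge)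

theorem maxFun_ne_top {d : ℕ} (F : ℝ → ℝ≥0∞) (hF : Antitone F)
    (hint : ∫⁻ x : EuclideanSpace ℝ (Fin d), F ‖x‖ ≠ ∞) (x : EuclideanSpace ℝ (Fin d))
    (hx : x ≠ 0) :
    maxFun (fun z : EuclideanSpace ℝ (Fin d) => F ‖z‖) x ≠ ∞ := by
  have hx0 : 0 < ‖x‖ := norm_pos_iff.2 hx
  have hle := maxFun_le F hF x hx
  have hF2 : F (‖x‖ / 2) ≠ ∞ := by
    intro htop
    apply hint
    have hpos : volume (ball (0 : EuclideanSpace ℝ (Fin d)) (‖x‖ / 2)) ≠ 0 :=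
      (measure_ball_pos volume _ (by positivity)).ne'
    have h1 : ∫⁻ _z in ball (0 : EuclideanSpace ℝ (Fin d)) (‖x‖ / 2), (∞ : ℝ≥0∞)
        ≤ ∫⁻ z in ball (0 : EuclideanSpace ℝ (Fin d)) (‖x‖ / 2), F ‖z‖ := by
      refine setLIntegral_mono' measurableSet_ball fun z hz => ?_
      have hz' : ‖z‖ < ‖x‖ / 2 := by simpa [dist_eq_norm] using hz
      rw [← htop]
      exact hF hz'.le
    rw [setLIntegral_const, ENNReal.top_mul hpos] at h1
    have h2 : ∫⁻ z in ball (0 : EuclideanSpace ℝ (Fin d)) (‖x‖ / 2), F ‖z‖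
        ≤ ∫⁻ z : EuclideanSpace ℝ (Fin d), F ‖z‖ := setLIntegral_le_lintegral _ _
    exact top_le_iff.1 (h1.trans h2)
  have hav : avg0 (fun z : EuclideanSpace ℝ (Fin d) => F ‖z‖) ‖x‖ ≠ ∞ := by
    unfold avg0
    have hpos : volume (ball (0 : EuclideanSpace ℝ (Fin d)) ‖x‖) ≠ 0 :=
      (measure_ball_pos volume _ hx0).ne'
    refine ENNReal.mul_ne_top (ENNReal.inv_ne_top.2 hpos) ?_
    exact ne_top_of_le_ne_top hint (setLIntegral_le_lintegral _ _)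
  refine ne_top_of_le_ne_top ?_ hle
  exact ENNReal.add_ne_top.2 ⟨hF2, ENNReal.mul_ne_top (by simp) hav⟩

end P137
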