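import Vale.Agent.Lib.P137.Defs

/-!
# P137 / V6: some coordinate shift increases the norm by `δ / d`

Blueprint. Choose `i` maximising `|x i|` (`Finite.exists_max` or `Finset.exists_max_image`); `‖x‖ ^ 2 = ∑ j, x j ^ 2 ≤ d * x i ^ 2` (`EuclideanSpace.norm_sq_eq`),
so `‖x‖ ≤ d * |x i|`. With `s = δ` if `0 ≤ x i` and `s = -δ` otherwise,
`‖x + single i s‖ ^ 2 = ‖x‖ ^ 2 + 2 * δ * |x i| + δ ^ 2 ≥ (‖x‖ + δ / d) ^ 2` (`norm_add_sq_real`, `EuclideanSpace.inner_single_right`, `EuclideanSpace.norm_single`);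
conclude with `abs_le_of_sq_le_sq` or `pow_le_pow_left₀`.
-/

namespace P137

open MeasureTheory Metric Set
open scoped ENNReal

theorem coord_norm_add_single_sq {d : ℕ} (x : EuclideanSpace ℝ (Fin d)) (i : Fin d) (s : ℝ) :
    ‖x + EuclideanSpace.single i s‖ ^ 2 = ‖x‖ ^ 2 + 2 * (s * x i) + s ^ 2 := by
  rw [norm_add_sq_real, EuclideanSpace.inner_single_right, EuclideanSpace.norm_single]
  simp

theorem exists_coord {d : ℕ} (hd : 1 ≤ d) (x : EuclideanSpace ℝ (Fin d)) (δ : ℝ) (hδ : 0 < δ) :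
    ∃ i : Fin d, ‖x‖ + δ / d ≤ ‖x + EuclideanSpace.single i δ‖ ∨
      ‖x‖ + δ / d ≤ ‖x + EuclideanSpace.single i (-δ)‖ := by
  have : Nonempty (Fin d) := ⟨⟨0, hd⟩⟩
  obtain ⟨i, hi⟩ := Finite.exists_max (fun j : Fin d => |x j|)
  have hd0 : (0 : ℝ) < d := by exact_mod_cast hd
  have hd1 : (1 : ℝ) ≤ d := by exact_mod_cast hd
  have hn0 : 0 ≤ ‖x‖ := norm_nonneg x
  have hsq : ‖x‖ ^ 2 ≤ d * |x i| ^ 2 := by
    rw [EuclideanSpace.norm_sq_eq]
    calc ∑ j : Fin d, ‖x j‖ ^ 2 ≤ ∑ _j : Fin d, |x i| ^ 2 := by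
          refine Finset.sum_le_sum (fun j _ => ?_)
          rw [Real.norm_eq_abs]
          exact pow_le_pow_left₀ (abs_nonneg _) (hi j) 2
      _ = d * |x i| ^ 2 := by simp
  have ha0 : 0 ≤ |x i| := abs_nonneg _
  have hle : ‖x‖ ≤ d * |x i| := by
    have h2 : ‖x‖ ^ 2 ≤ (d * |x i|) ^ 2 := by
      have : (d : ℝ) * |x i| ^ 2 ≤ d * (d * |x i| ^ 2) := by
        have h3 : 0 ≤ (d : ℝ) * |x i| ^ 2 := by positivity
        nlinarith
      nlinarith
    exact (pow_le_pow_iff_left₀ hn0 (by positivity) two_ne_zero).1 h2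
  have hq : ‖x‖ / d ≤ |x i| := by
    rw [div_le_iff₀ hd0]; linarith
  have hδd : δ / d ≤ δ := div_le_self hδ.le hd1
  have hδd0 : 0 ≤ δ / d := by positivity
  -- the common estimate
  have main : (‖x‖ + δ / d) ^ 2 ≤ ‖x‖ ^ 2 + 2 * (δ * |x i|) + δ ^ 2 := by
    have e1 : ‖x‖ * (δ / d) = δ * (‖x‖ / d) := by ring
    have e2 : δ * (‖x‖ / d) ≤ δ * |x i| := mul_le_mul_of_nonneg_left hq hδ.le
    have e3 : (δ / d) ^ 2 ≤ δ ^ 2 := pow_le_pow_left₀ hδd0 hδd 2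
    nlinarith
  refine ⟨i, ?_⟩
  rcases le_total 0 (x i) with h | h
  · left
    refine (pow_le_pow_iff_left₀ (by positivity) (norm_nonneg _) two_ne_zero).1 ?_
    rw [coord_norm_add_single_sq]
    rw [abs_of_nonneg h] at main
    exact main
  · right
    refine (pow_le_pow_iff_left₀ (by positivity) (norm_nonneg _) two_ne_zero).1 ?_
    rw [coord_norm_add_single_sq]
    rw [abs_of_nonpos h] at main
    nlinarith

end P137
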