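import Mathlib

/-!
# P137 / T1: a `C¹` cutoff

`cut R s = (max (1 - s / R) 0) ^ 2`.
Blueprint. `t ↦ (max t 0) ^ 2` has derivative `2 * max t 0` at every `t` (cases `t < 0`, `t > 0` by local equality with `0` resp. `t ^ 2`; at `t = 0` directly from
`hasDerivAt_iff_isLittleO` / squeeze `|max t 0 ^ 2| ≤ t ^ 2`); compose with the affine map `s ↦ 1 - s / R`. `ContDiff ℝ 1`: `contDiff_one_iff_deriv` (differentiable, and the derivative
`s ↦ -(2 / R) * max (1 - s / R) 0` is continuous).
-/

namespace P137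

/-- the cutoff `(1 - s / R)_+ ^ 2` -/
noncomputable def cut (R s : ℝ) : ℝ := (max (1 - s / R) 0) ^ 2

theorem sqpos_hasDerivAt (t : ℝ) :
    HasDerivAt (fun x : ℝ => (max x 0) ^ 2) (2 * max t 0) t := by
  rcases lt_trichotomy t 0 with ht | ht | ht
  · have h1 : (fun x : ℝ => (max x 0) ^ 2) =ᶠ[nhds t] fun _ => (0 : ℝ) := by
      filter_upwards [Iio_mem_nhds ht] with x hx
      rw [max_eq_right (le_of_lt hx)]
      norm_num
    rw [max_eq_right ht.le, mul_zero]
    exact (hasDerivAt_const t (0 : ℝ)).congr_of_eventuallyEq h1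
  · subst ht
    rw [max_self, mul_zero]
    have hL : HasDerivWithinAt (fun x : ℝ => (max x 0) ^ 2) 0 (Set.Iic 0) 0 := by
      refine (hasDerivWithinAt_const (0 : ℝ) (Set.Iic 0) (0 : ℝ)).congr ?_ ?_
      · intro x hx
        rw [max_eq_right hx]
        norm_num
      · simp
    have hR : HasDerivWithinAt (fun x : ℝ => (max x 0) ^ 2) 0 (Set.Ici 0) 0 := by
      have h2 : HasDerivWithinAt (fun x : ℝ => x ^ 2) 0 (Set.Ici 0) 0 := by
        have := (hasDerivAt_pow 2 (0 : ℝ)).hasDerivWithinAt (s := Set.Ici 0)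
        simpa using this
      refine h2.congr ?_ ?_
      · intro x hx
        rw [max_eq_left hx]
      · simp
    have := hL.union hR
    rwa [Set.Iic_union_Ici, hasDerivWithinAt_univ] at this
  · have h1 : (fun x : ℝ => (max x 0) ^ 2) =ᶠ[nhds t] fun x => x ^ 2 := by
      filter_upwards [Ioi_mem_nhds ht] with x hx
      rw [max_eq_left (le_of_lt hx)]
    rw [max_eq_left ht.le]
    have h2 : HasDerivAt (fun x : ℝ => x ^ 2) (2 * t) t := by
      have := hasDerivAt_pow 2 t
      simpa using this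
    exact h2.congr_of_eventuallyEq h1

theorem cut_hasDerivAt (R s : ℝ) :
    HasDerivAt (cut R) (-(2 / R) * max (1 - s / R) 0) s := by
  have h1 : HasDerivAt (fun s : ℝ => 1 - s / R) (-(1 / R)) s :=
    ((hasDerivAt_id s).div_const R).const_sub 1
  have h2 := (sqpos_hasDerivAt (1 - s / R)).comp s h1
  have h3 : cut R = (fun x : ℝ => (max x 0) ^ 2) ∘ (fun s : ℝ => 1 - s / R) := by
    funext x
    rfl
  rw [h3]
  have h4 : -(2 / R) * max (1 - s / R) 0 = 2 * max (1 - s / R) 0 * -(1 / R) := by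
    ring
  rw [h4]
  exact h2

theorem cut_contDiff (R : ℝ) : ContDiff ℝ 1 (cut R) := by
  rw [contDiff_one_iff_deriv]
  refine ⟨fun s => (cut_hasDerivAt R s).differentiableAt, ?_⟩
  have h : deriv (cut R) = fun s => -(2 / R) * max (1 - s / R) 0 := by
    funext s
    exact (cut_hasDerivAt R s).deriv
  rw [h]
  fun_prop

theorem cut_nonneg (R s : ℝ) : 0 ≤ cut R s := by
  unfold cut; positivity

theorem cut_le_one (R s : ℝ) (hR : 0 < R) (hs : 0 ≤ s) : cut R s ≤ 1 := by
  unfold cut
  apply pow_le_one₀ (le_max_right _ _)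
  apply max_le _ zero_le_one
  have : 0 ≤ s / R := by positivity
  linarith

theorem cut_eq_zero (R s : ℝ) (hR : 0 < R) (hs : R ≤ s) : cut R s = 0 := by
  unfold cut
  have h1 : 1 ≤ s / R := by
    rw [le_div_iff₀ hR]
    linarith
  rw [max_eq_right (by linarith)]
  norm_num

end P137
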