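import Mathlib

/-!
# P137 / W1: differentiating `s ↦ ∫ u (x) ψ (x + s v) dx` at `s = 0`

Blueprint. Either `hasDerivAt_integral_of_dominated_loc_of_deriv_le` with `F s x = u x * ψ (x + s • v)`, `F' s x = u x * fderiv ℝ ψ (x + s • v) v`, and the bound
`|F' s x| ≤ indicator K' (fun x => |u x| * (L * ‖v‖)) x` for `|s| < 1`, where `K' = tsupport ψ + closedBall 0 ‖v‖` (compact; cthickening) and `L` bounds `‖fderiv ℝ ψ‖`
(continuous with compact support); `u` is integrable on the compact `K'`.
Or `HasCompactSupport.hasFDerivAt_convolution_right` applied to `u` and `y ↦ ψ (-y)` composed with `s ↦ -(s • v)`.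
-/

namespace P137

open MeasureTheory Metric Set
open scoped ENNReal

theorem hasDerivAt_integral_shift {d : ℕ} (u : EuclideanSpace ℝ (Fin d) → ℝ)
    (hu : LocallyIntegrable u volume) (ψ : EuclideanSpace ℝ (Fin d) → ℝ) (hψ : ContDiff ℝ 1 ψ)
    (hψc : HasCompactSupport ψ) (v : EuclideanSpace ℝ (Fin d)) :
    HasDerivAt (fun s : ℝ => ∫ x, u x * ψ (x + s • v)) (∫ x, u x * fderiv ℝ ψ x v) 0 := by
  have hcf : Continuous (fderiv ℝ ψ) := hψ.continuous_fderiv one_ne_zero
  obtain ⟨C, hC⟩ := hcf.bounded_above_of_compact_support (hψc.fderiv (𝕜 := ℝ))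
  have hC0 : 0 ≤ C := le_trans (norm_nonneg _) (hC 0)
  obtain ⟨R, hR⟩ := hψc.isCompact.isBounded.subset_closedBall (0 : EuclideanSpace ℝ (Fin d))
  set K' : Set (EuclideanSpace ℝ (Fin d)) := closedBall 0 (R + ‖v‖) with hK'
  set bound : EuclideanSpace ℝ (Fin d) → ℝ := K'.indicator (fun x => ‖u x‖ * (C * ‖v‖)) with hb
  have hum : AEStronglyMeasurable u volume := hu.aestronglyMeasurable
  have hshift : ∀ s : ℝ, Continuous fun x : EuclideanSpace ℝ (Fin d) => x + s • v :=
    fun s => continuous_id.add continuous_const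
  have main := hasDerivAt_integral_of_dominated_loc_of_deriv_le (μ := volume)
    (F := fun (s : ℝ) (x : EuclideanSpace ℝ (Fin d)) => u x * ψ (x + s • v))
    (F' := fun (s : ℝ) (x : EuclideanSpace ℝ (Fin d)) => u x * fderiv ℝ ψ (x + s • v) v)
    (x₀ := (0 : ℝ)) (s := ball (0 : ℝ) 1) (bound := bound) (ball_mem_nhds _ one_pos)
    ?_ ?_ ?_ ?_ ?_ ?_
  · have h := main.2
    simpa using h
  · -- measurability of `F s`
    filter_upwards with s
    exact hum.mul ((hψ.continuous.comp (hshift s)).aestronglyMeasurable)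
  · -- integrability of `F 0`
    have h := hu.integrable_smul_right_of_hasCompactSupport hψ.continuous hψc
    simpa [smul_eq_mul] using h
  · -- measurability of `F' 0`
    apply hum.mul
    have : Continuous fun x : EuclideanSpace ℝ (Fin d) => fderiv ℝ ψ (x + (0 : ℝ) • v) v :=
      (hcf.comp (hshift 0)).clm_apply continuous_const
    exact this.aestronglyMeasurable
  · -- the bound
    filter_upwards with x s hs
    have hs1 : |s| < 1 := by simpa [Real.norm_eq_abs] using hs
    by_cases hx : x ∈ K'
    · rw [hb, indicator_of_mem hx, norm_mul]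
      apply mul_le_mul_of_nonneg_left _ (norm_nonneg _)
      calc ‖fderiv ℝ ψ (x + s • v) v‖ ≤ ‖fderiv ℝ ψ (x + s • v)‖ * ‖v‖ :=
            ContinuousLinearMap.le_opNorm _ _
        _ ≤ C * ‖v‖ := mul_le_mul_of_nonneg_right (hC _) (norm_nonneg _)
    · rw [hb, indicator_of_notMem hx]
      have hout : x + s • v ∉ tsupport ψ := by
        intro hmem
        apply hx
        have h1 := hR hmem
        rw [mem_closedBall, dist_zero_right] at h1
        rw [hK', mem_closedBall, dist_zero_right]
        have h2 : ‖s • v‖ ≤ ‖v‖ := by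
          rw [norm_smul, Real.norm_eq_abs]
          nlinarith [norm_nonneg v, abs_nonneg s]
        calc ‖x‖ = ‖(x + s • v) - s • v‖ := by rw [add_sub_cancel_right]
          _ ≤ ‖x + s • v‖ + ‖s • v‖ := norm_sub_le _ _
          _ ≤ R + ‖v‖ := add_le_add h1 h2
      have hz : fderiv ℝ ψ (x + s • v) = 0 := by
        by_contra hne
        exact hout (support_fderiv_subset ℝ hne)
      rw [hz]
      simp
  · -- integrability of the bound
    rw [hb, integrable_indicator_iff measurableSet_closedBall]
    exact ((hu.integrableOn_isCompact (isCompact_closedBall _ _)).norm).mul_const _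
  · -- differentiability
    filter_upwards with x s _
    have h1 : HasDerivAt (fun s : ℝ => x + s • v) v s := by
      have := ((hasDerivAt_id s).smul_const v).const_add x
      simpa using this
    have h2 : HasFDerivAt ψ (fderiv ℝ ψ (x + s • v)) (x + s • v) :=
      (hψ.differentiable one_ne_zero _).hasFDerivAt
    exact (h2.comp_hasDerivAt s h1).const_mul (u x)

end P137
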