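import Mathlib

/-!
# P137: the centred Hardy-Littlewood maximal function on `ℝ^d`, radially nonincreasing input
-/

namespace P137

open MeasureTheory Metric Set
open scoped ENNReal

/-- the centred Hardy-Littlewood maximal function of a nonnegative function on `ℝ^d`:
the supremum over `r > 0` of the averages over the open Euclidean balls `B(x, r)` -/
noncomputable def maxFun {d : ℕ} (f : EuclideanSpace ℝ (Fin d) → ℝ≥0∞)
    (x : EuclideanSpace ℝ (Fin d)) : ℝ≥0∞ :=
  ⨆ r : {r : ℝ // 0 < r}, (volume (ball x r.1))⁻¹ * ∫⁻ y in ball x r.1, f y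

/-- the average over the ball of radius `R` centred at the origin -/
noncomputable def avg0 {d : ℕ} (f : EuclideanSpace ℝ (Fin d) → ℝ≥0∞) (R : ℝ) : ℝ≥0∞ :=
  (volume (ball (0 : EuclideanSpace ℝ (Fin d)) R))⁻¹ *
    ∫⁻ y in ball (0 : EuclideanSpace ℝ (Fin d)) R, f y

end P137
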