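import Mathlib

/-!
# P137 / T3: the divergence of `x ↦ B x • x`

Blueprint. `fderiv ℝ (fun y => B y • y) x v = B x • v + (fderiv ℝ B x v) • x` (`fderiv_smul` / `HasFDerivAt.smul` with `hasFDerivAt_id`). Coordinate `i` at `v = single i 1` is
`B x + fderiv ℝ B x (single i 1) * x i`. Sum over `i`: `d * B x + fderiv ℝ B x (∑ i, x i • single i 1)` (`map_sum`, `map_smul`) and `∑ i, x i • single i 1 = x` (ext; `EuclideanSpace.single_apply`, or
`(EuclideanSpace.basisFun (Fin d) ℝ).sum_repr`).
-/

namespace P137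

theorem div_smul_id {d : ℕ} (B : EuclideanSpace ℝ (Fin d) → ℝ) (x : EuclideanSpace ℝ (Fin d))
    (hB : DifferentiableAt ℝ B x) :
    ∑ i : Fin d, (fderiv ℝ (fun y => B y • y) x (EuclideanSpace.single i 1)) i =
      d * B x + fderiv ℝ B x x := by
  have hd : HasFDerivAt (fun y : EuclideanSpace ℝ (Fin d) => B y • y)
      (B x • ContinuousLinearMap.id ℝ (EuclideanSpace ℝ (Fin d))
        + (fderiv ℝ B x).smulRight x) x :=
    hB.hasFDerivAt.smul (hasFDerivAt_id x)
  rw [hd.fderiv]
  have hx : x = ∑ i : Fin d, x i • (EuclideanSpace.single i (1 : ℝ)) := by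
    ext j
    simp [Finset.sum_apply, Pi.single_apply]
  have h1 : ∀ i : Fin d,
      ((B x • ContinuousLinearMap.id ℝ (EuclideanSpace ℝ (Fin d))
        + (fderiv ℝ B x).smulRight x) (EuclideanSpace.single i 1)) i
        = B x + x i * fderiv ℝ B x (EuclideanSpace.single i 1) := by
    intro i
    simp [mul_comm]
  rw [Finset.sum_congr rfl (fun i _ => h1 i), Finset.sum_add_distrib]
  congr 1
  · simp
  · have h2 := congrArg (fderiv ℝ B x) hx
    rw [h2, map_sum]
    apply Finset.sum_congr rfl
    intro i _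
    rw [map_smul, smul_eq_mul]

end P137
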