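import Vale.Agent.Lib.P137.Field

/-!
# P137 / T4: the radial derivative of the scalar factor

Blueprint. With `s = ‖x‖ ^ 2`: `y ↦ ‖y‖ ^ 2` has `fderiv` `v ↦ 2 * ⟪x, v⟫` at `x` (`HasStrictFDerivAt.norm_sq` / `hasStrictFDerivAt_norm_sq`), equal to `2 * s` at `v = x` (`real_inner_self_eq_norm_sq`).
`b t = cut R t / sqrt (t + ε)` has derivative `(cut' * sqrt (s + ε) - cut R s * (1 / (2 * sqrt (s + ε)))) / (sqrt (s + ε)) ^ 2` at `s` (`cut_hasDerivAt`, `HasDerivAt.sqrt`, `HasDerivAt.div`); chain rule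
(`HasDerivAt.comp_hasFDerivAt`), then `field_simp` and `Real.sq_sqrt` / `Real.mul_self_sqrt`.
-/

namespace P137

theorem radB_fderiv_self {d : ℕ} (ε R : ℝ) (hε : 0 < ε) (x : EuclideanSpace ℝ (Fin d)) :
    fderiv ℝ (radB ε R) x x =
      2 * ‖x‖ ^ 2 * (-(2 / R) * max (1 - ‖x‖ ^ 2 / R) 0) / Real.sqrt (‖x‖ ^ 2 + ε) -
        cut R (‖x‖ ^ 2) * ‖x‖ ^ 2 / ((‖x‖ ^ 2 + ε) * Real.sqrt (‖x‖ ^ 2 + ε)) := by
  have hpos : 0 < ‖x‖ ^ 2 + ε := by positivity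
  have hsq : 0 < Real.sqrt (‖x‖ ^ 2 + ε) := Real.sqrt_pos.2 hpos
  have hN : HasFDerivAt (fun y : EuclideanSpace ℝ (Fin d) => ‖y‖ ^ 2)
      (2 • (innerSL ℝ x)) x := (hasStrictFDerivAt_norm_sq x).hasFDerivAt
  have h1 : HasDerivAt (fun t : ℝ => Real.sqrt (t + ε))
      (1 / (2 * Real.sqrt (‖x‖ ^ 2 + ε))) (‖x‖ ^ 2) :=
    ((hasDerivAt_id (‖x‖ ^ 2)).add_const ε).sqrt hpos.ne'
  have h2 : HasDerivAt (fun t : ℝ => cut R t / Real.sqrt (t + ε))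
      (((-(2 / R) * max (1 - ‖x‖ ^ 2 / R) 0) * Real.sqrt (‖x‖ ^ 2 + ε) -
        cut R (‖x‖ ^ 2) * (1 / (2 * Real.sqrt (‖x‖ ^ 2 + ε)))) /
        (Real.sqrt (‖x‖ ^ 2 + ε)) ^ 2) (‖x‖ ^ 2) :=
    (cut_hasDerivAt R (‖x‖ ^ 2)).div h1 hsq.ne'
  have h3 := h2.comp_hasFDerivAt x hN
  have h4 : fderiv ℝ (radB ε R) x = _ := h3.fderiv
  rw [h4]
  simp only [_root_.smul_apply, innerSL_apply_apply, real_inner_self_eq_norm_sq,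
    smul_eq_mul, nsmul_eq_mul, Nat.cast_ofNat]
  have hs2 : Real.sqrt (‖x‖ ^ 2 + ε) ^ 2 = ‖x‖ ^ 2 + ε := Real.sq_sqrt hpos.le
  generalize Real.sqrt (‖x‖ ^ 2 + ε) = r at *
  rw [← hs2]
  field_simp

end P137
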