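import Vale.Agent.Lib.P137.DivGen
import Vale.Agent.Lib.P137.RadDeriv

/-!
# P137 / T5: lower bound for the divergence of the test fields

Blueprint. By `div_smul_id` (`radB_contDiff` gives differentiability) and `radB_fderiv_self`, with `s = ‖x‖ ^ 2 ≥ 0`, `q = sqrt (s + ε) > 0`, `m = max (1 - s / R) 0 ∈ [0, 1]`, `χ = cut R s = m ^ 2 ≥ 0`:
`div = d * χ / q - (4 * s / R) * m / q - χ * s / ((s + ε) * q)`. First, `d * χ / q = d * χ * (s + ε) / ((s + ε) * q) ≥ 2 * χ * s / ((s + ε) * q)`.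
Second, `(4 * s / R) * m / q ≤ 4 / sqrt R`: if `s ≥ R` then `m = 0`; if `s < R` then `m ≤ 1`, `s / q ≤ sqrt s ≤ sqrt R` and `sqrt R / R = 1 / sqrt R`.
-/

namespace P137

/-- the weight `(1 - |x|² / R)_+² |x|² / (|x|² + ε)^(3/2)` -/
noncomputable def radW {d : ℕ} (ε R : ℝ) (x : EuclideanSpace ℝ (Fin d)) : ℝ :=
  cut R (‖x‖ ^ 2) * ‖x‖ ^ 2 / ((‖x‖ ^ 2 + ε) * Real.sqrt (‖x‖ ^ 2 + ε))

theorem radField_div_ge {d : ℕ} (hd : 2 ≤ d) (ε R : ℝ) (hε : 0 < ε) (hR : 0 < R)
    (x : EuclideanSpace ℝ (Fin d)) :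
    radW ε R x - 4 / Real.sqrt R ≤
      ∑ i : Fin d, (fderiv ℝ (radField ε R) x (EuclideanSpace.single i 1)) i := by
  have hdiff : DifferentiableAt ℝ (radB (d := d) ε R) x :=
    ((radB_contDiff ε R hε).differentiable (by norm_num)) x
  have h1 := div_smul_id (radB ε R) x hdiff
  have h2 := radB_fderiv_self ε R hε x
  have h3 : (fun y : EuclideanSpace ℝ (Fin d) => radB ε R y • y) = radField ε R := rfl
  rw [h3] at h1
  rw [h1, h2]
  unfold radW radB
  have hcut : cut R (‖x‖ ^ 2) = (max (1 - ‖x‖ ^ 2 / R) 0) ^ 2 := rfl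
  rw [hcut]
  have hs0 : 0 ≤ ‖x‖ ^ 2 := by positivity
  generalize ‖x‖ ^ 2 = s at hs0 ⊢
  have hse : 0 < s + ε := by positivity
  have hq0 : 0 < Real.sqrt (s + ε) := Real.sqrt_pos.2 hse
  have hqq : Real.sqrt (s + ε) * Real.sqrt (s + ε) = s + ε := Real.mul_self_sqrt hse.le
  generalize Real.sqrt (s + ε) = q at hq0 hqq ⊢
  have ha0 : 0 < Real.sqrt R := Real.sqrt_pos.2 hR
  have haa : Real.sqrt R * Real.sqrt R = R := Real.mul_self_sqrt hR.le
  generalize Real.sqrt R = a at ha0 haa ⊢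
  have hm0 : 0 ≤ max (1 - s / R) 0 := le_max_right _ _
  have hm1 : max (1 - s / R) 0 ≤ 1 := by
    apply max_le _ zero_le_one
    have : 0 ≤ s / R := div_nonneg hs0 hR.le
    linarith
  have hmz : R ≤ s → max (1 - s / R) 0 = 0 := by
    intro h
    apply max_eq_right
    have : 1 ≤ s / R := (one_le_div hR).2 h
    linarith
  generalize max (1 - s / R) 0 = m at hm0 hm1 hmz ⊢
  have hd' : (2 : ℝ) ≤ d := by exact_mod_cast hd
  -- first part
  have hA : 2 * (m ^ 2 * s / ((s + ε) * q)) ≤ d * (m ^ 2 / q) := by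
    have e1 : m ^ 2 * s / ((s + ε) * q) ≤ m ^ 2 / q := by
      rw [div_le_div_iff₀ (by positivity) hq0]
      have : 0 ≤ m ^ 2 * q * ε := by positivity
      nlinarith
    have e2 : 0 ≤ m ^ 2 / q := by positivity
    nlinarith
  -- second part
  have hB : 4 * s * m / (R * q) ≤ 4 / a := by
    rw [div_le_div_iff₀ (by positivity) ha0]
    -- s * m * a ≤ R * q
    have key : s * m ≤ a * q := by
      by_cases hsR : R ≤ s
      · rw [hmz hsR]; simp; positivity
      · push Not at hsR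
        have h5 : s * m ≤ s := by nlinarith
        have h6 : s * s ≤ (a * q) * (a * q) := by
          have : (a * q) * (a * q) = R * (s + ε) := by
            calc (a * q) * (a * q) = (a * a) * (q * q) := by ring
              _ = R * (s + ε) := by rw [haa, hqq]
          rw [this]
          nlinarith
        have h7 : s ≤ a * q := by
          have hpos : 0 ≤ a * q := by positivity
          nlinarith [abs_le_of_sq_le_sq' (by nlinarith : s ^ 2 ≤ (a * q) ^ 2) hpos]
        linarith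
    calc 4 * s * m * a = 4 * a * (s * m) := by ring
      _ ≤ 4 * a * (a * q) := by
          apply mul_le_mul_of_nonneg_left key (by positivity)
      _ = 4 * (R * q) := by rw [← haa]; ring
  have hC : 2 * s * (-(2 / R) * m) / q = -(4 * s * m / (R * q)) := by
    field_simp
    ring
  rw [hC]
  linarith

end P137
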