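import Vale.Agent.Lib.P137.Cut

/-!
# P137 / T2: the test fields `x ↦ (1 - |x|² / R)_+² x / sqrt (|x|² + ε)`

Blueprint. `radB_contDiff`: `cut_contDiff.comp (contDiff_norm_sq ℝ)`, `ContDiff.sqrt` (the argument `‖x‖ ^ 2 + ε` is positive), `ContDiff.div`. `radField_contDiff`: `ContDiff.smul` with `contDiff_id`.
Compact support: `radField ε R x = 0` when `R ≤ ‖x‖ ^ 2` (`cut_eq_zero`), so the support lies in `closedBall 0 (sqrt R)` (`HasCompactSupport.intro (isCompact_closedBall 0 _)`).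
Norm: `‖radField ε R x‖ = cut R (‖x‖^2) * (‖x‖ / sqrt (‖x‖^2 + ε)) ≤ 1 * 1` (`cut_le_one`, `Real.le_sqrt`, `norm_smul`).
-/

namespace P137

open MeasureTheory Metric Set

/-- the scalar factor -/
noncomputable def radB {d : ℕ} (ε R : ℝ) (x : EuclideanSpace ℝ (Fin d)) : ℝ :=
  cut R (‖x‖ ^ 2) / Real.sqrt (‖x‖ ^ 2 + ε)

/-- the test field -/
noncomputable def radField {d : ℕ} (ε R : ℝ) (x : EuclideanSpace ℝ (Fin d)) :
    EuclideanSpace ℝ (Fin d) :=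
  radB ε R x • x

theorem radB_contDiff {d : ℕ} (ε R : ℝ) (hε : 0 < ε) :
    ContDiff ℝ 1 (radB (d := d) ε R) := by
  have h1 : ContDiff ℝ 1 fun x : EuclideanSpace ℝ (Fin d) => ‖x‖ ^ 2 := contDiff_norm_sq ℝ
  have hpos : ∀ x : EuclideanSpace ℝ (Fin d), 0 < ‖x‖ ^ 2 + ε := fun x => by positivity
  have h2 : ContDiff ℝ 1 fun x : EuclideanSpace ℝ (Fin d) => Real.sqrt (‖x‖ ^ 2 + ε) :=
    (h1.add contDiff_const).sqrt fun x => (hpos x).ne'
  have h3 : ContDiff ℝ 1 fun x : EuclideanSpace ℝ (Fin d) => cut R (‖x‖ ^ 2) :=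
    (cut_contDiff R).comp h1
  exact h3.div h2 fun x => (Real.sqrt_pos.2 (hpos x)).ne'

theorem radField_contDiff {d : ℕ} (ε R : ℝ) (hε : 0 < ε) :
    ContDiff ℝ 1 (radField (d := d) ε R) :=
  (radB_contDiff ε R hε).smul contDiff_id

theorem radField_hasCompactSupport {d : ℕ} (ε R : ℝ) (hR : 0 < R) :
    HasCompactSupport (radField (d := d) ε R) := by
  apply HasCompactSupport.intro (isCompact_closedBall (0 : EuclideanSpace ℝ (Fin d)) (Real.sqrt R))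
  intro x hx
  rw [mem_closedBall, dist_zero_right, not_le] at hx
  have h1 : R ≤ ‖x‖ ^ 2 := by
    have := Real.sqrt_lt' (lt_of_le_of_lt (Real.sqrt_nonneg R) hx) |>.1 hx
    exact this.le
  unfold radField radB
  rw [cut_eq_zero R _ hR h1, zero_div, zero_smul]

theorem radField_norm_le {d : ℕ} (ε R : ℝ) (hε : 0 < ε) (hR : 0 < R)
    (x : EuclideanSpace ℝ (Fin d)) : ‖radField ε R x‖ ≤ 1 := by
  have hpos : 0 < ‖x‖ ^ 2 + ε := by positivity
  have hs : 0 < Real.sqrt (‖x‖ ^ 2 + ε) := Real.sqrt_pos.2 hpos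
  have hc0 : 0 ≤ cut R (‖x‖ ^ 2) := cut_nonneg _ _
  have hc1 : cut R (‖x‖ ^ 2) ≤ 1 := cut_le_one R _ hR (by positivity)
  have hx : ‖x‖ ≤ Real.sqrt (‖x‖ ^ 2 + ε) := Real.le_sqrt_of_sq_le (by linarith)
  unfold radField radB
  rw [norm_smul, Real.norm_eq_abs, abs_of_nonneg (div_nonneg hc0 hs.le), div_mul_eq_mul_div,
    div_le_one hs]
  calc cut R (‖x‖ ^ 2) * ‖x‖ ≤ 1 * Real.sqrt (‖x‖ ^ 2 + ε) :=
        mul_le_mul hc1 hx (norm_nonneg _) zero_le_one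
    _ = Real.sqrt (‖x‖ ^ 2 + ε) := one_mul _

end P137
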