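import Vale.Agent.Lib.P137.Variation
import Vale.Agent.Lib.P137.DQ
import Vale.Agent.Lib.P137.LocInt

/-!
# P137: the distributional gradient of the centred maximal function, radially nonincreasing input
-/

namespace P137

open MeasureTheory Metric Set
open scoped ENNReal NNReal

theorem variation_full {d : ℕ} (hd : 2 ≤ d) (F : ℝ → ℝ≥0∞) (hF : Antitone F)
    (hint : ∫⁻ x : EuclideanSpace ℝ (Fin d), F ‖x‖ ≠ ∞) (V : ℝ≥0)
    (hV : ∀ h : EuclideanSpace ℝ (Fin d),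
      ∫⁻ x : EuclideanSpace ℝ (Fin d), ((F ‖x‖ - F ‖x + h‖) + (F ‖x + h‖ - F ‖x‖)) ≤
        V * ENNReal.ofReal ‖h‖) :
    LocallyIntegrable
      (fun x => (maxFun (fun z : EuclideanSpace ℝ (Fin d) => F ‖z‖) x).toReal) volume ∧
    ∀ φ : EuclideanSpace ℝ (Fin d) → EuclideanSpace ℝ (Fin d), ContDiff ℝ 1 φ →
      HasCompactSupport φ → (∀ x, ‖φ x‖ ≤ 1) →
      ∫ x, (maxFun (fun z : EuclideanSpace ℝ (Fin d) => F ‖z‖) x).toReal *
          ∑ i : Fin d, (fderiv ℝ φ x (EuclideanSpace.single i 1)) i ≤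
        d * (8 * (d : ℝ) ^ 3 * (2 ^ (d - 1) + d * 3 ^ d) * V) := by
  have hd1 : 1 ≤ d := by omega
  obtain ⟨G, hG, hGe⟩ := exists_profile hd1
    (maxFun (fun z : EuclideanSpace ℝ (Fin d) => F ‖z‖)) (fun x y hxy => maxFun_anti F hF x y hxy)
  have hgm : Measurable (maxFun (fun z : EuclideanSpace ℝ (Fin d) => F ‖z‖)) := by
    have : maxFun (fun z : EuclideanSpace ℝ (Fin d) => F ‖z‖) = fun x => G ‖x‖ := funext hGe
    rw [this]
    exact hG.measurable.comp measurable_norm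
  have hV' : ∀ h : EuclideanSpace ℝ (Fin d),
      ∫⁻ x : EuclideanSpace ℝ (Fin d), (F ‖x‖ - F ‖x + h‖) ≤ V * ENNReal.ofReal ‖h‖ := fun h =>
    le_trans (lintegral_mono fun x => le_self_add) (hV h)
  have h2 := weighted_le hd1 F hF
  have h3 := weighted_le_var hd F hF hint V hV'
  have hfin : ∫⁻ x : EuclideanSpace ℝ (Fin d),
      maxFun (fun z : EuclideanSpace ℝ (Fin d) => F ‖z‖) x / ENNReal.ofReal ‖x‖ ≠ ∞ := by
    refine ne_top_of_le_ne_top ?_ (le_trans h2 (mul_le_mul_right h3 _))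
    refine ENNReal.mul_ne_top ?_ ?_
    · refine ENNReal.add_ne_top.2 ⟨by simp, ?_⟩
      exact ENNReal.mul_ne_top (by simp) (by simp)
    · refine ENNReal.mul_ne_top (ENNReal.mul_ne_top (by simp) (by simp)) (by simp)
  have hu := locallyIntegrable_toReal_of_weighted _ hgm hfin
  refine ⟨hu, fun φ hφ hφc hφ1 => ?_⟩
  set c : ℝ≥0 := 8 * (d : ℝ≥0) ^ 3 * (2 ^ (d - 1) + d * 3 ^ d) * V with hc
  have hcR : (c : ℝ) = 8 * (d : ℝ) ^ 3 * (2 ^ (d - 1) + d * 3 ^ d) * V := by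
    rw [hc]; push_cast; ring
  have hcE : (c : ℝ≥0∞) = 8 * (d : ℝ≥0∞) ^ 3 * (2 ^ (d - 1) + d * 3 ^ d) * V := by
    rw [hc]; push_cast; ring
  rw [← hcR]
  refine integral_mul_div_le _ hu c (NNReal.coe_nonneg c) (fun h => ?_) φ hφ hφc hφ1
  calc ∫⁻ x, ENNReal.ofReal
        |(maxFun (fun z : EuclideanSpace ℝ (Fin d) => F ‖z‖) (x + h)).toReal -
          (maxFun (fun z : EuclideanSpace ℝ (Fin d) => F ‖z‖) x).toReal|
      ≤ ∫⁻ x : EuclideanSpace ℝ (Fin d),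
        ((maxFun (fun z : EuclideanSpace ℝ (Fin d) => F ‖z‖) x -
            maxFun (fun z : EuclideanSpace ℝ (Fin d) => F ‖z‖) (x + h)) +
          (maxFun (fun z : EuclideanSpace ℝ (Fin d) => F ‖z‖) (x + h) -
            maxFun (fun z : EuclideanSpace ℝ (Fin d) => F ‖z‖) x)) := by
        refine lintegral_mono fun x => ?_
        exact le_trans (ofReal_abs_toReal_sub_le _ _) (le_of_eq (add_comm _ _))
    _ ≤ 8 * (d : ℝ≥0∞) ^ 3 * (2 ^ (d - 1) + d * 3 ^ d) * V * ENNReal.ofReal ‖h‖ :=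
        variation_le hd F hF hint V hV h
    _ = ENNReal.ofReal (c * ‖h‖) := by
        rw [ENNReal.ofReal_mul (NNReal.coe_nonneg c), ENNReal.ofReal_coe_nnreal, hcE]

end P137
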