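import Vale.Agent.Lib.P137.Full
import Vale.Agent.Lib.P137.HardyLimit

/-!
# P137: `|D Mf| ≤ C |Df|` for radially nonincreasing input, both sides tested against `C¹` fields
-/

namespace P137

open MeasureTheory Metric Set
open scoped ENNReal NNReal

theorem variation_of_weighted {d : ℕ} (hd1 : 1 ≤ d) (F : ℝ → ℝ≥0∞) (hF : Antitone F) (K : ℝ≥0)
    (hK : ∫⁻ x : EuclideanSpace ℝ (Fin d), F ‖x‖ / ENNReal.ofReal ‖x‖ ≤ K) :
    LocallyIntegrable
      (fun x => (maxFun (fun z : EuclideanSpace ℝ (Fin d) => F ‖z‖) x).toReal) volume ∧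
    (∀ h : EuclideanSpace ℝ (Fin d),
      ∫⁻ x : EuclideanSpace ℝ (Fin d),
        ((maxFun (fun z : EuclideanSpace ℝ (Fin d) => F ‖z‖) x -
            maxFun (fun z : EuclideanSpace ℝ (Fin d) => F ‖z‖) (x + h)) +
          (maxFun (fun z : EuclideanSpace ℝ (Fin d) => F ‖z‖) (x + h) -
            maxFun (fun z : EuclideanSpace ℝ (Fin d) => F ‖z‖) x)) ≤
      2 * (d : ℝ≥0∞) * (2 ^ (d - 1) + d * 3 ^ d) * K * ENNReal.ofReal ‖h‖) ∧
    ∀ φ : EuclideanSpace ℝ (Fin d) → EuclideanSpace ℝ (Fin d), ContDiff ℝ 1 φ →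
      HasCompactSupport φ → (∀ x, ‖φ x‖ ≤ 1) →
      ∫ x, (maxFun (fun z : EuclideanSpace ℝ (Fin d) => F ‖z‖) x).toReal *
          ∑ i : Fin d, (fderiv ℝ φ x (EuclideanSpace.single i 1)) i ≤
        d * (2 * (d : ℝ) * (2 ^ (d - 1) + d * 3 ^ d) * K) := by
  obtain ⟨G, hG, hGe⟩ := exists_profile hd1
    (maxFun (fun z : EuclideanSpace ℝ (Fin d) => F ‖z‖)) (fun x y hxy => maxFun_anti F hF x y hxy)
  have hgm : Measurable (maxFun (fun z : EuclideanSpace ℝ (Fin d) => F ‖z‖)) := by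
    have : maxFun (fun z : EuclideanSpace ℝ (Fin d) => F ‖z‖) = fun x => G ‖x‖ := funext hGe
    rw [this]
    exact hG.measurable.comp measurable_norm
  have h2 := weighted_le hd1 F hF
  have h4 : ∫⁻ x : EuclideanSpace ℝ (Fin d),
      maxFun (fun z : EuclideanSpace ℝ (Fin d) => F ‖z‖) x / ENNReal.ofReal ‖x‖ ≤
        (2 ^ (d - 1) + d * 3 ^ d) * K := le_trans h2 (mul_le_mul_right hK _)
  have hfin : ∫⁻ x : EuclideanSpace ℝ (Fin d),
      maxFun (fun z : EuclideanSpace ℝ (Fin d) => F ‖z‖) x / ENNReal.ofReal ‖x‖ ≠ ∞ := by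
    refine ne_top_of_le_ne_top ?_ h4
    refine ENNReal.mul_ne_top ?_ (by simp)
    refine ENNReal.add_ne_top.2 ⟨by simp, ?_⟩
    exact ENNReal.mul_ne_top (by simp) (by simp)
  have hu := locallyIntegrable_toReal_of_weighted _ hgm hfin
  have hdq : ∀ h : EuclideanSpace ℝ (Fin d),
      ∫⁻ x : EuclideanSpace ℝ (Fin d),
        ((maxFun (fun z : EuclideanSpace ℝ (Fin d) => F ‖z‖) x -
            maxFun (fun z : EuclideanSpace ℝ (Fin d) => F ‖z‖) (x + h)) +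
          (maxFun (fun z : EuclideanSpace ℝ (Fin d) => F ‖z‖) (x + h) -
            maxFun (fun z : EuclideanSpace ℝ (Fin d) => F ‖z‖) x)) ≤
      2 * (d : ℝ≥0∞) * (2 ^ (d - 1) + d * 3 ^ d) * K * ENNReal.ofReal ‖h‖ := by
    intro h
    have h1 := var_le_weighted hd1 G hG h
    simp only [hGe] at h4 ⊢
    calc _ ≤ 2 * (d : ℝ≥0∞) * ENNReal.ofReal ‖h‖ *
          ∫⁻ x : EuclideanSpace ℝ (Fin d), G ‖x‖ / ENNReal.ofReal ‖x‖ := h1
      _ ≤ 2 * (d : ℝ≥0∞) * ENNReal.ofReal ‖h‖ * ((2 ^ (d - 1) + d * 3 ^ d) * K) :=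
          mul_le_mul_right h4 _
      _ = _ := by ring
  refine ⟨hu, hdq, fun φ hφ hφc hφ1 => ?_⟩
  set c : ℝ≥0 := 2 * (d : ℝ≥0) * (2 ^ (d - 1) + d * 3 ^ d) * K with hc
  have hcR : (c : ℝ) = 2 * (d : ℝ) * (2 ^ (d - 1) + d * 3 ^ d) * K := by
    rw [hc]; push_cast; ring
  have hcE : (c : ℝ≥0∞) = 2 * (d : ℝ≥0∞) * (2 ^ (d - 1) + d * 3 ^ d) * K := by
    rw [hc]; push_cast; ring
  rw [← hcR]
  refine integral_mul_div_le _ hu c (NNReal.coe_nonneg c) (fun h => ?_) φ hφ hφc hφ1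
  calc ∫⁻ x, ENNReal.ofReal
        |(maxFun (fun z : EuclideanSpace ℝ (Fin d) => F ‖z‖) (x + h)).toReal -
          (maxFun (fun z : EuclideanSpace ℝ (Fin d) => F ‖z‖) x).toReal|
      ≤ ∫⁻ x : EuclideanSpace ℝ (Fin d),
        ((maxFun (fun z : EuclideanSpace ℝ (Fin d) => F ‖z‖) x -
            maxFun (fun z : EuclideanSpace ℝ (Fin d) => F ‖z‖) (x + h)) +
          (maxFun (fun z : EuclideanSpace ℝ (Fin d) => F ‖z‖) (x + h) -
            maxFun (fun z : EuclideanSpace ℝ (Fin d) => F ‖z‖) x)) := by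
        refine lintegral_mono fun x => ?_
        exact le_trans (ofReal_abs_toReal_sub_le _ _) (le_of_eq (add_comm _ _))
    _ ≤ 2 * (d : ℝ≥0∞) * (2 ^ (d - 1) + d * 3 ^ d) * K * ENNReal.ofReal ‖h‖ := hdq h
    _ = ENNReal.ofReal (c * ‖h‖) := by
        rw [ENNReal.ofReal_mul (NNReal.coe_nonneg c), ENNReal.ofReal_coe_nnreal, hcE]

theorem variation_bv {d : ℕ} (hd : 2 ≤ d) (F : ℝ → ℝ≥0∞) (hF : Antitone F)
    (hint : ∫⁻ x : EuclideanSpace ℝ (Fin d), F ‖x‖ ≠ ∞) (V : ℝ≥0)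
    (hV : ∀ φ : EuclideanSpace ℝ (Fin d) → EuclideanSpace ℝ (Fin d), ContDiff ℝ 1 φ →
      HasCompactSupport φ → (∀ x, ‖φ x‖ ≤ 1) →
      ∫ x, (F ‖x‖).toReal * ∑ i : Fin d, (fderiv ℝ φ x (EuclideanSpace.single i 1)) i ≤ V) :
    LocallyIntegrable
      (fun x => (maxFun (fun z : EuclideanSpace ℝ (Fin d) => F ‖z‖) x).toReal) volume ∧
    ∀ φ : EuclideanSpace ℝ (Fin d) → EuclideanSpace ℝ (Fin d), ContDiff ℝ 1 φ →
      HasCompactSupport φ → (∀ x, ‖φ x‖ ≤ 1) →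
      ∫ x, (maxFun (fun z : EuclideanSpace ℝ (Fin d) => F ‖z‖) x).toReal *
          ∑ i : Fin d, (fderiv ℝ φ x (EuclideanSpace.single i 1)) i ≤
        d * (2 * (d : ℝ) * (2 ^ (d - 1) + d * 3 ^ d) * V) := by
  have hK := weighted_le_of_testVar hd (fun x : EuclideanSpace ℝ (Fin d) => F ‖x‖)
    (hF.measurable.comp measurable_norm) hint V hV
  have h := variation_of_weighted (by omega) F hF V hK
  exact ⟨h.1, h.2.2⟩

end P137
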