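import Vale.Agent.Lib.P137.Scale

/-!
# P137 / L7: the dilated term

Blueprint. Apply `lintegral_comp_smul_pos` with `R = 2` to `g x = F (‖x‖ / 2) / ofReal ‖x‖`:
`g (2 • z) = F ‖z‖ / ofReal (2 * ‖z‖) = 2⁻¹ * (F ‖z‖ / ofReal ‖z‖)`, so `∫⁻ g = 2 ^ d * 2⁻¹ * ∫⁻ z, F ‖z‖ / ofReal ‖z‖`.
-/

namespace P137

open MeasureTheory Metric Set
open scoped ENNReal

theorem half_le {d : ℕ} (hd : 1 ≤ d) (F : ℝ → ℝ≥0∞) (hF : Antitone F) :
    ∫⁻ x : EuclideanSpace ℝ (Fin d), F (‖x‖ / 2) / ENNReal.ofReal ‖x‖ ≤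
      2 ^ (d - 1) * ∫⁻ x : EuclideanSpace ℝ (Fin d), F ‖x‖ / ENNReal.ofReal ‖x‖ := by
  have hFm : Measurable F := hF.measurable
  have hg : Measurable (fun x : EuclideanSpace ℝ (Fin d) => F (‖x‖ / 2) / ENNReal.ofReal ‖x‖) := by
    refine Measurable.div (hFm.comp (measurable_norm.div_const 2)) ?_
    exact ENNReal.measurable_ofReal.comp measurable_norm
  have h1 := lintegral_comp_smul_pos
    (fun x : EuclideanSpace ℝ (Fin d) => F (‖x‖ / 2) / ENNReal.ofReal ‖x‖) hg 2 (by norm_num)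
  have h2 : ∀ z : EuclideanSpace ℝ (Fin d),
      F (‖(2 : ℝ) • z‖ / 2) / ENNReal.ofReal ‖(2 : ℝ) • z‖ =
        2⁻¹ * (F ‖z‖ / ENNReal.ofReal ‖z‖) := by
    intro z
    have e1 : ‖(2 : ℝ) • z‖ = 2 * ‖z‖ := by
      rw [norm_smul]; simp
    rw [e1]
    have e2 : 2 * ‖z‖ / 2 = ‖z‖ := by ring
    rw [e2, ENNReal.ofReal_mul (by norm_num : (0 : ℝ) ≤ 2)]
    have e3 : ENNReal.ofReal 2 = 2 := by simp
    rw [e3, div_eq_mul_inv, div_eq_mul_inv,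
      ENNReal.mul_inv (Or.inl (by norm_num)) (Or.inl (by norm_num))]
    ring
  simp only [h2] at h1
  rw [lintegral_const_mul' _ _ (by simp)] at h1
  have e4 : ENNReal.ofReal ((2 : ℝ) ^ d) = 2 ^ d := by
    rw [ENNReal.ofReal_pow (by norm_num)]; simp
  rw [e4] at h1
  have h3 : ∫⁻ x : EuclideanSpace ℝ (Fin d), F (‖x‖ / 2) / ENNReal.ofReal ‖x‖ =
      2 ^ d * ((2 ^ d)⁻¹ * ∫⁻ x : EuclideanSpace ℝ (Fin d), F (‖x‖ / 2) / ENNReal.ofReal ‖x‖) := by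
    rw [← mul_assoc, ENNReal.mul_inv_cancel (by positivity) (by simp), one_mul]
  rw [h3, ← h1, ← mul_assoc]
  have e5 : (2 : ℝ≥0∞) ^ d * 2⁻¹ = 2 ^ (d - 1) := by
    obtain ⟨k, rfl⟩ : ∃ k, d = k + 1 := ⟨d - 1, by omega⟩
    rw [pow_succ, mul_assoc, ENNReal.mul_inv_cancel (by norm_num) (by norm_num), mul_one]
    simp
  rw [e5]

end P137
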