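import Vale.Agent.Lib.P137.Tail

/-!
# P137 / L6: the weighted Hardy inequality

Blueprint. `avg0 f ‖x‖ / ofReal ‖x‖ = ∫⁻ y, indicator {p | ‖p.2‖ < ‖p.1‖} (fun p => w p.1 * f p.2) (x, y)` with
`w x = (volume (ball 0 ‖x‖))⁻¹ / ofReal ‖x‖`. Exchange the integrals (`lintegral_lintegral_swap`); for `y ≠ 0` the inner integral is
`f y * ∫⁻ x in {x | ‖y‖ < ‖x‖}, w x ≤ f y * (d / ofReal ‖y‖)` by `tail_le`; the point `y = 0` is a null set (`d ≥ 1`).
-/

namespace P137

open MeasureTheory Metric Set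
open scoped ENNReal

/-- the weight -/
private noncomputable def hw {d : ℕ} (x : EuclideanSpace ℝ (Fin d)) : ℝ≥0∞ :=
  (volume (ball (0 : EuclideanSpace ℝ (Fin d)) ‖x‖))⁻¹ / ENNReal.ofReal ‖x‖

private lemma hw_measurable {d : ℕ} (hd : 1 ≤ d) :
    Measurable (hw : EuclideanSpace ℝ (Fin d) → ℝ≥0∞) := by
  have hne : Nonempty (Fin d) := ⟨⟨0, hd⟩⟩
  have hfin : Module.finrank ℝ (EuclideanSpace ℝ (Fin d)) = d := by simp
  have : (hw : EuclideanSpace ℝ (Fin d) → ℝ≥0∞) = fun x =>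
      (ENNReal.ofReal (‖x‖ ^ d) * volume (ball (0 : EuclideanSpace ℝ (Fin d)) 1))⁻¹
        / ENNReal.ofReal ‖x‖ := by
    funext x
    unfold hw
    rw [Measure.addHaar_ball volume 0 (norm_nonneg x), hfin]
  rw [this]
  fun_prop

private lemma tail_le' {d : ℕ} (hd : 1 ≤ d) (y : EuclideanSpace ℝ (Fin d)) :
    ∫⁻ x in {x : EuclideanSpace ℝ (Fin d) | ‖y‖ < ‖x‖}, hw x ≤
      (d : ℝ≥0∞) / ENNReal.ofReal ‖y‖ := by
  rcases (norm_nonneg y).eq_or_lt with h | h
  · rw [← h, ENNReal.ofReal_zero, ENNReal.div_zero (by exact_mod_cast (by omega : d ≠ 0))]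
    exact le_top
  · exact tail_le hd ‖y‖ h

theorem hardy_le {d : ℕ} (hd : 1 ≤ d) (f : EuclideanSpace ℝ (Fin d) → ℝ≥0∞) (hf : Measurable f) :
    ∫⁻ x : EuclideanSpace ℝ (Fin d), avg0 f ‖x‖ / ENNReal.ofReal ‖x‖ ≤
      (d : ℝ≥0∞) * ∫⁻ y : EuclideanSpace ℝ (Fin d), f y / ENNReal.ofReal ‖y‖ := by
  have hwm := hw_measurable hd
  obtain ⟨S, hSdef⟩ : ∃ S : Set (EuclideanSpace ℝ (Fin d) × EuclideanSpace ℝ (Fin d)),
      S = {p | ‖p.2‖ < ‖p.1‖} := ⟨_, rfl⟩
  have hS : MeasurableSet S := by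
    rw [hSdef]
    exact measurableSet_lt (measurable_norm.comp measurable_snd)
      (measurable_norm.comp measurable_fst)
  have hG : Measurable (S.indicator (fun p => hw p.1 * f p.2)) :=
    ((hwm.comp measurable_fst).mul (hf.comp measurable_snd)).indicator hS
  -- rows
  have h1 : ∀ x : EuclideanSpace ℝ (Fin d), avg0 f ‖x‖ / ENNReal.ofReal ‖x‖ =
      ∫⁻ y, S.indicator (fun p => hw p.1 * f p.2) (x, y) := by
    intro x
    have e : ∀ y, S.indicator (fun p => hw p.1 * f p.2) (x, y) =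
        hw x * (ball (0 : EuclideanSpace ℝ (Fin d)) ‖x‖).indicator f y := by
      intro y
      by_cases hy : ‖y‖ < ‖x‖
      · rw [indicator_of_mem (show (x, y) ∈ S by rw [hSdef]; exact hy),
          indicator_of_mem (show y ∈ ball (0 : EuclideanSpace ℝ (Fin d)) ‖x‖ by
            rw [mem_ball_zero_iff]; exact hy)]
      · rw [indicator_of_notMem (show (x, y) ∉ S by rw [hSdef]; exact hy),
          indicator_of_notMem (show y ∉ ball (0 : EuclideanSpace ℝ (Fin d)) ‖x‖ by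
            rw [mem_ball_zero_iff]; exact hy), mul_zero]
    simp_rw [e]
    rw [lintegral_const_mul _ (hf.indicator measurableSet_ball),
      lintegral_indicator measurableSet_ball]
    unfold avg0 hw
    rw [div_eq_mul_inv, div_eq_mul_inv]
    ring
  -- columns
  have h2 : ∀ y : EuclideanSpace ℝ (Fin d),
      ∫⁻ x, S.indicator (fun p => hw p.1 * f p.2) (x, y) ≤
        (d : ℝ≥0∞) * (f y / ENNReal.ofReal ‖y‖) := by
    intro y
    have hT : MeasurableSet {x : EuclideanSpace ℝ (Fin d) | ‖y‖ < ‖x‖} :=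
      measurableSet_lt measurable_const measurable_norm
    have e : ∀ x, S.indicator (fun p => hw p.1 * f p.2) (x, y) =
        f y * ({x : EuclideanSpace ℝ (Fin d) | ‖y‖ < ‖x‖}).indicator hw x := by
      intro x
      by_cases hy : ‖y‖ < ‖x‖
      · rw [indicator_of_mem (show (x, y) ∈ S by rw [hSdef]; exact hy),
          indicator_of_mem (show x ∈ {x : EuclideanSpace ℝ (Fin d) | ‖y‖ < ‖x‖} from hy), mul_comm]
      · rw [indicator_of_notMem (show (x, y) ∉ S by rw [hSdef]; exact hy),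
          indicator_of_notMem (show x ∉ {x : EuclideanSpace ℝ (Fin d) | ‖y‖ < ‖x‖} from hy),
          mul_zero]
    simp_rw [e]
    rw [lintegral_const_mul _ (hwm.indicator hT), lintegral_indicator hT]
    calc f y * ∫⁻ x in {x : EuclideanSpace ℝ (Fin d) | ‖y‖ < ‖x‖}, hw x
        ≤ f y * ((d : ℝ≥0∞) / ENNReal.ofReal ‖y‖) := by gcongr; exact tail_le' hd y
      _ = (d : ℝ≥0∞) * (f y / ENNReal.ofReal ‖y‖) := by
          rw [div_eq_mul_inv, div_eq_mul_inv]; ring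
  simp_rw [h1]
  rw [lintegral_lintegral_swap (f := fun x y => S.indicator (fun p => hw p.1 * f p.2) (x, y))
    hG.aemeasurable]
  calc ∫⁻ y, ∫⁻ x, S.indicator (fun p => hw p.1 * f p.2) (x, y)
      ≤ ∫⁻ y, (d : ℝ≥0∞) * (f y / ENNReal.ofReal ‖y‖) := lintegral_mono h2
    _ = (d : ℝ≥0∞) * ∫⁻ y, f y / ENNReal.ofReal ‖y‖ :=
        lintegral_const_mul' _ _ (ENNReal.natCast_ne_top d)

end P137
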