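import Vale.Agent.Lib.P137.DivLower

/-!
# P137 / T6: testing the variation against the fields `radField ε R`

Blueprint. Let `u x = (f x).toReal` (integrable by `integrable_toReal_of_lintegral_ne_top`, nonnegative) and `D x = ∑ i, (fderiv ℝ (radField ε R) x (single i 1)) i`. `D` is continuous with compact support
(`radField_contDiff`, `ContDiff.continuous_fderiv`, `HasCompactSupport.fderiv`), hence bounded, so `u * D` is integrable (`Integrable.mul_bdd` / `Integrable.bdd_mul`). `radW ε R` is continuous, `0 ≤ radW ≤ D + 4 / sqrt R` is bounded, so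
`u * radW` is integrable. From `radField_div_ge`, `u x * radW ε R x ≤ u x * D x + 4 / sqrt R * u x`; integrate and use `hV (radField ε R)`: `∫ u * radW ≤ V + 4 / sqrt R * ∫ u`.
Convert: `f x = ofReal (u x)` a.e. (`ae_lt_top`), `∫⁻ f * ofReal radW = ofReal (∫ u * radW)` (`ofReal_integral_eq_lintegral_ofReal`, `ENNReal.ofReal_mul`), `∫⁻ f = ofReal (∫ u)`.
-/

namespace P137

open MeasureTheory Metric Set
open scoped ENNReal NNReal

theorem radW_nonneg {d : ℕ} (ε R : ℝ) (hε : 0 < ε) (x : EuclideanSpace ℝ (Fin d)) :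
    0 ≤ radW ε R x := by
  unfold radW
  have h1 := cut_nonneg R (‖x‖ ^ 2)
  have h2 : 0 ≤ ‖x‖ ^ 2 := by positivity
  have h3 : 0 ≤ Real.sqrt (‖x‖ ^ 2 + ε) := Real.sqrt_nonneg _
  positivity

theorem radW_measurable {d : ℕ} (ε R : ℝ) : Measurable (radW (d := d) ε R) := by
  unfold radW cut
  fun_prop

theorem hardy_step {d : ℕ} (hd : 2 ≤ d) (f : EuclideanSpace ℝ (Fin d) → ℝ≥0∞) (hf : Measurable f)
    (hint : ∫⁻ x, f x ≠ ∞) (V : ℝ≥0)
    (hV : ∀ φ : EuclideanSpace ℝ (Fin d) → EuclideanSpace ℝ (Fin d), ContDiff ℝ 1 φ →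
      HasCompactSupport φ → (∀ x, ‖φ x‖ ≤ 1) →
      ∫ x, (f x).toReal * ∑ i : Fin d, (fderiv ℝ φ x (EuclideanSpace.single i 1)) i ≤ V)
    (ε R : ℝ) (hε : 0 < ε) (hR : 0 < R) :
    ∫⁻ x, f x * ENNReal.ofReal (radW ε R x) ≤
      V + ENNReal.ofReal (4 / Real.sqrt R) * ∫⁻ x, f x := by
  set φ : EuclideanSpace ℝ (Fin d) → EuclideanSpace ℝ (Fin d) := radField ε R with hφdef
  have hφ : ContDiff ℝ 1 φ := radField_contDiff ε R hε
  have hcs : HasCompactSupport φ := radField_hasCompactSupport ε R hR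
  set u : EuclideanSpace ℝ (Fin d) → ℝ := fun x => (f x).toReal with hu
  set D : EuclideanSpace ℝ (Fin d) → ℝ :=
    fun x => ∑ i : Fin d, (fderiv ℝ φ x (EuclideanSpace.single i 1)) i with hD
  set c : ℝ := 4 / Real.sqrt R with hc
  have hc0 : 0 ≤ c := by positivity
  have hu0 : ∀ x, 0 ≤ u x := fun x => ENNReal.toReal_nonneg
  have hui : Integrable u := integrable_toReal_of_lintegral_ne_top hf.aemeasurable hint
  have hcf : Continuous (fderiv ℝ φ) := hφ.continuous_fderiv one_ne_zero
  have hDc : Continuous D := by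
    apply continuous_finsetSum
    intro i _
    exact (EuclideanSpace.proj i).continuous.comp (hcf.clm_apply continuous_const)
  have hDs : HasCompactSupport D := by
    have h1 : HasCompactSupport (fderiv ℝ φ) := hcs.fderiv (𝕜 := ℝ)
    exact h1.comp_left (g := fun T : EuclideanSpace ℝ (Fin d) →L[ℝ] EuclideanSpace ℝ (Fin d) =>
      ∑ i : Fin d, (T (EuclideanSpace.single i 1)) i) (by simp)
  obtain ⟨C, hC⟩ := hDc.bounded_above_of_compact_support hDs
  have hW0 : ∀ x : EuclideanSpace ℝ (Fin d), 0 ≤ radW ε R x := radW_nonneg ε R hε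
  have hWD : ∀ x : EuclideanSpace ℝ (Fin d), radW ε R x ≤ D x + c := fun x => by
    have := radField_div_ge hd ε R hε hR x
    simp only [hD, hc, hφdef]
    linarith
  have hWb : ∀ x : EuclideanSpace ℝ (Fin d), ‖radW ε R x‖ ≤ C + c := fun x => by
    rw [Real.norm_eq_abs, abs_of_nonneg (hW0 x)]
    have h1 := hC x
    rw [Real.norm_eq_abs] at h1
    linarith [hWD x, le_abs_self (D x)]
  have huD : Integrable (fun x => u x * D x) :=
    hui.mul_bdd (c := C) hDc.aestronglyMeasurable (Filter.Eventually.of_forall hC)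
  have huW : Integrable (fun x => u x * radW ε R x) :=
    hui.mul_bdd (c := C + c) (radW_measurable ε R).aestronglyMeasurable (Filter.Eventually.of_forall hWb)
  have hmain : ∫ x, u x * radW ε R x ≤ (V : ℝ) + c * ∫ x, u x := by
    calc ∫ x, u x * radW ε R x ≤ ∫ x, (u x * D x + c * u x) := by
          apply integral_mono huW (huD.add (hui.const_mul c))
          intro x
          have := mul_le_mul_of_nonneg_left (hWD x) (hu0 x)
          show u x * radW ε R x ≤ u x * D x + c * u x
          linarith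
      _ = (∫ x, u x * D x) + c * ∫ x, u x := by
          rw [integral_add huD (hui.const_mul c), integral_const_mul]
      _ ≤ (V : ℝ) + c * ∫ x, u x := by
          have := hV φ hφ hcs (radField_norm_le ε R hε hR)
          linarith
  have hfin : ∀ᵐ x, f x < ∞ := ae_lt_top hf hint
  have hIu : ENNReal.ofReal (∫ x, u x) = ∫⁻ x, f x := by
    rw [hu, integral_toReal hf.aemeasurable hfin, ENNReal.ofReal_toReal hint]
  have hL : ∫⁻ x, f x * ENNReal.ofReal (radW ε R x)
      = ENNReal.ofReal (∫ x, u x * radW ε R x) := by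
    rw [ofReal_integral_eq_lintegral_ofReal huW
      (Filter.Eventually.of_forall fun x => mul_nonneg (hu0 x) (hW0 x))]
    apply lintegral_congr_ae
    filter_upwards [hfin] with x hx
    rw [ENNReal.ofReal_mul (hu0 x), hu]
    simp only
    rw [ENNReal.ofReal_toReal hx.ne]
  rw [hL, ← hIu]
  calc ENNReal.ofReal (∫ x, u x * radW ε R x)
      ≤ ENNReal.ofReal ((V : ℝ) + c * ∫ x, u x) := ENNReal.ofReal_le_ofReal hmain
    _ = V + ENNReal.ofReal c * ENNReal.ofReal (∫ x, u x) := by
        have hI0 : 0 ≤ ∫ x, u x := integral_nonneg hu0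
        rw [ENNReal.ofReal_add (NNReal.coe_nonneg V) (mul_nonneg hc0 hI0),
          ENNReal.ofReal_mul hc0, ENNReal.ofReal_coe_nnreal]

end P137
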