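import Vale.Agent.Lib.P137.Avg

/-!
# P137 / L4: the pointwise bound

Blueprint. Fix `r > 0`. If `r ≤ ‖x‖ / 2`, every `y ∈ ball x r` has `‖y‖ ≥ ‖x‖ / 2`, so `F ‖y‖ ≤ F (‖x‖ / 2)` and the average is
at most `F (‖x‖ / 2)`. If `‖x‖ / 2 < r`, then `ball x r ⊆ ball 0 (3 r)` and
`volume (ball 0 (3 r)) = 3 ^ d * volume (ball x r)` (`Measure.addHaar_ball_mul_of_pos`, `Measure.addHaar_ball_center`), so the average is at most
`3 ^ d * avg0 f (3 r) ≤ 3 ^ d * avg0 f ‖x‖` by `avg0_anti` (`0 < ‖x‖ ≤ 3 r`).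
-/

namespace P137

open MeasureTheory Metric Set
open scoped ENNReal

theorem maxFun_le {d : ℕ} (F : ℝ → ℝ≥0∞) (hF : Antitone F) (x : EuclideanSpace ℝ (Fin d))
    (hx : x ≠ 0) :
    maxFun (fun x : EuclideanSpace ℝ (Fin d) => F ‖x‖) x ≤
      F (‖x‖ / 2) + 3 ^ d * avg0 (fun x : EuclideanSpace ℝ (Fin d) => F ‖x‖) ‖x‖ := by
  have hx0 : 0 < ‖x‖ := norm_pos_iff.2 hx
  unfold maxFun
  refine iSup_le fun r => ?_
  obtain ⟨r, hr⟩ := r
  simp only
  rcases le_or_gt r (‖x‖ / 2) with hrx | hrx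
  · refine le_trans ?_ le_self_add
    have h1 : ∫⁻ y in ball x r, F ‖y‖ ≤ ∫⁻ _y in ball x r, F (‖x‖ / 2) := by
      refine setLIntegral_mono' measurableSet_ball fun y hy => hF ?_
      have h2 : ‖y - x‖ < r := by simpa [dist_eq_norm] using hy
      have h3 : ‖x‖ ≤ ‖y‖ + ‖y - x‖ := by
        have := norm_sub_le y (y - x)
        simpa using this
      linarith
    rw [setLIntegral_const] at h1
    calc (volume (ball x r))⁻¹ * ∫⁻ y in ball x r, F ‖y‖
        ≤ (volume (ball x r))⁻¹ * (F (‖x‖ / 2) * volume (ball x r)) := by gcongr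
      _ = F (‖x‖ / 2) * ((volume (ball x r))⁻¹ * volume (ball x r)) := by ring
      _ ≤ F (‖x‖ / 2) * 1 := by gcongr; exact ENNReal.inv_mul_le_one _
      _ = F (‖x‖ / 2) := mul_one _
  · refine le_trans ?_ le_add_self
    have hsub : ball x r ⊆ ball (0 : EuclideanSpace ℝ (Fin d)) (3 * r) := by
      intro y hy
      have h2 : ‖y - x‖ < r := by simpa [dist_eq_norm] using hy
      have h3 : ‖y‖ ≤ ‖y - x‖ + ‖x‖ := by
        have := norm_add_le (y - x) x
        simpa using this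
      simp only [mem_ball, dist_zero_right]
      linarith
    have hV : volume (ball (0 : EuclideanSpace ℝ (Fin d)) (3 * r)) =
        3 ^ d * volume (ball x r) := by
      rw [Measure.addHaar_ball_mul_of_pos volume (0 : EuclideanSpace ℝ (Fin d))
        (by norm_num : (0 : ℝ) < 3) r, Measure.addHaar_ball_center volume x r,
        finrank_euclideanSpace, Fintype.card_fin, ENNReal.ofReal_pow (by norm_num)]
      norm_num
    have hV0 : volume (ball x r) ≠ 0 := (measure_ball_pos volume x hr).ne'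
    have hVt : volume (ball x r) ≠ ⊤ := measure_ball_lt_top.ne
    have h3 : (3 : ℝ≥0∞) ^ d ≠ 0 := by positivity
    have h3t : (3 : ℝ≥0∞) ^ d ≠ ⊤ := ENNReal.pow_ne_top (by norm_num)
    have hinv : (volume (ball x r))⁻¹ =
        3 ^ d * (volume (ball (0 : EuclideanSpace ℝ (Fin d)) (3 * r)))⁻¹ := by
      rw [hV, ENNReal.mul_inv (Or.inl h3) (Or.inl h3t), ← mul_assoc,
        ENNReal.mul_inv_cancel h3 h3t, one_mul]
    calc (volume (ball x r))⁻¹ * ∫⁻ y in ball x r, F ‖y‖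
        ≤ (volume (ball x r))⁻¹ * ∫⁻ y in ball (0 : EuclideanSpace ℝ (Fin d)) (3 * r), F ‖y‖ := by
          gcongr
      _ = 3 ^ d * avg0 (fun x : EuclideanSpace ℝ (Fin d) => F ‖x‖) (3 * r) := by
          rw [hinv, avg0, mul_assoc]
      _ ≤ 3 ^ d * avg0 (fun x : EuclideanSpace ℝ (Fin d) => F ‖x‖) ‖x‖ := by
          gcongr
          exact avg0_anti F hF hx0 (by linarith)

end P137
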