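import Vale.Agent.Lib.P137.Refl
import Vale.Agent.Lib.P137.Point
import Vale.Agent.Lib.P137.Hardy
import Vale.Agent.Lib.P137.Half

/-!
# P137: assembly
-/

namespace P137

open MeasureTheory Metric Set
open scoped ENNReal

theorem maxFun_anti {d : ℕ} (F : ℝ → ℝ≥0∞) (hF : Antitone F)
    (x y : EuclideanSpace ℝ (Fin d)) (hxy : ‖x‖ ≤ ‖y‖) :
    maxFun (fun x : EuclideanSpace ℝ (Fin d) => F ‖x‖) y ≤
      maxFun (fun x : EuclideanSpace ℝ (Fin d) => F ‖x‖) x := by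
  unfold maxFun
  refine iSup_mono fun r => ?_
  rw [Measure.addHaar_ball_center volume y r.1, Measure.addHaar_ball_center volume x r.1]
  exact mul_le_mul_right (setLIntegral_ball_le F hF x y hxy r.1) _

theorem weighted_le {d : ℕ} (hd : 1 ≤ d) (F : ℝ → ℝ≥0∞) (hF : Antitone F) :
    ∫⁻ x : EuclideanSpace ℝ (Fin d),
        maxFun (fun x : EuclideanSpace ℝ (Fin d) => F ‖x‖) x / ENNReal.ofReal ‖x‖ ≤
      (2 ^ (d - 1) + d * 3 ^ d) *
        ∫⁻ x : EuclideanSpace ℝ (Fin d), F ‖x‖ / ENNReal.ofReal ‖x‖ := by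
  have hFm : Measurable F := hF.measurable
  have hf : Measurable (fun x : EuclideanSpace ℝ (Fin d) => F ‖x‖) := hFm.comp measurable_norm
  have hg : Measurable (fun x : EuclideanSpace ℝ (Fin d) => F (‖x‖ / 2) / ENNReal.ofReal ‖x‖) := by
    refine Measurable.div (hFm.comp (measurable_norm.div_const 2)) ?_
    exact ENNReal.measurable_ofReal.comp measurable_norm
  have : Nonempty (Fin d) := ⟨⟨0, by omega⟩⟩
  have hne : ∀ᵐ x : EuclideanSpace ℝ (Fin d), x ≠ 0 := by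
    rw [ae_iff]
    simp
  calc ∫⁻ x : EuclideanSpace ℝ (Fin d),
        maxFun (fun x : EuclideanSpace ℝ (Fin d) => F ‖x‖) x / ENNReal.ofReal ‖x‖
      ≤ ∫⁻ x : EuclideanSpace ℝ (Fin d), (F (‖x‖ / 2) / ENNReal.ofReal ‖x‖ +
          3 ^ d * (avg0 (fun x : EuclideanSpace ℝ (Fin d) => F ‖x‖) ‖x‖ /
            ENNReal.ofReal ‖x‖)) := by
        refine lintegral_mono_ae ?_
        filter_upwards [hne] with x hx
        have := maxFun_le F hF x hx
        calc maxFun (fun x : EuclideanSpace ℝ (Fin d) => F ‖x‖) x / ENNReal.ofReal ‖x‖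
            ≤ (F (‖x‖ / 2) + 3 ^ d * avg0 (fun x : EuclideanSpace ℝ (Fin d) => F ‖x‖) ‖x‖) /
                ENNReal.ofReal ‖x‖ := ENNReal.div_le_div_right this _
          _ = _ := by rw [ENNReal.add_div, mul_div_assoc]
    _ = (∫⁻ x : EuclideanSpace ℝ (Fin d), F (‖x‖ / 2) / ENNReal.ofReal ‖x‖) +
          3 ^ d * ∫⁻ x : EuclideanSpace ℝ (Fin d),
            avg0 (fun x : EuclideanSpace ℝ (Fin d) => F ‖x‖) ‖x‖ / ENNReal.ofReal ‖x‖ := by
        rw [lintegral_add_left hg, lintegral_const_mul' _ _ (by simp)]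
    _ ≤ 2 ^ (d - 1) * (∫⁻ x : EuclideanSpace ℝ (Fin d), F ‖x‖ / ENNReal.ofReal ‖x‖) +
          3 ^ d * ((d : ℝ≥0∞) * ∫⁻ x : EuclideanSpace ℝ (Fin d), F ‖x‖ / ENNReal.ofReal ‖x‖) :=
        add_le_add (half_le hd F hF) (mul_le_mul_right (hardy_le hd _ hf) _)
    _ = _ := by ring

end P137
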