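import Vale.Agent.Lib.P137.Defs

/-!
# P137 / L1: moving the centre of a ball towards the origin increases the integral of a radially
nonincreasing function

Blueprint for `setLIntegral_ball_le`. If `x = y` there is nothing to prove. Otherwise let `u = y - x`, `m = (1/2) • (x + y)`,
`R₀ = reflection (ℝ ∙ u)ᗮ` (a linear isometry equivalence, `R₀ u = -u`) and `R z = m + R₀ (z - m)`.
`R` is an involution, preserves `volume` (`LinearIsometryEquiv.measurePreserving`, translations) and distances,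
and `R y = x`, `R x = y`; hence `R` maps `ball y r \ ball x r` onto `ball x r \ ball y r`.
For `z ∈ ball y r \ ball x r` one has `‖z - y‖ ≤ ‖z - x‖`, and
`‖R z‖^2 = ‖z‖^2 - 4 ⟪z - m, u⟫ ⟪m, u⟫ / ‖u‖^2` with `2 ⟪m, u⟫ = ‖y‖^2 - ‖x‖^2 ≥ 0`,
`2 ⟪z - m, u⟫ = ‖z - x‖^2 - ‖z - y‖^2 ≥ 0`; so `‖R z‖ ≤ ‖z‖` and `F ‖z‖ ≤ F ‖R z‖`. Therefore
`∫ over (ball y r \ ball x r) of F ‖z‖ ≤ ∫ over (ball y r \ ball x r) of F ‖R z‖ = ∫ over (ball x r \ ball y r) of F ‖z‖`;
add the integral over `ball x r ∩ ball y r`.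
-/

namespace P137

open MeasureTheory Metric Set
open scoped ENNReal

lemma refl_aux {E : Type*} [NormedAddCommGroup E] [InnerProductSpace ℝ E] (w u : E) :
    2 * inner ℝ u w = ‖w + (1 / 2 : ℝ) • u‖ ^ 2 - ‖w - (1 / 2 : ℝ) • u‖ ^ 2 := by
  rw [norm_add_sq_real, norm_sub_sq_real, inner_smul_right, real_inner_comm u w]
  ring

theorem setLIntegral_ball_le {d : ℕ} (F : ℝ → ℝ≥0∞) (hF : Antitone F)
    (x y : EuclideanSpace ℝ (Fin d)) (hxy : ‖x‖ ≤ ‖y‖) (r : ℝ) :
    ∫⁻ z in ball y r, F ‖z‖ ≤ ∫⁻ z in ball x r, F ‖z‖ := by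
  by_cases hne : x = y
  · rw [hne]
  set u : EuclideanSpace ℝ (Fin d) := y - x with hu
  have hu0 : u ≠ 0 := by
    rw [hu]; exact sub_ne_zero.2 (Ne.symm hne)
  have hun : 0 < ‖u‖ ^ 2 := by positivity
  set m : EuclideanSpace ℝ (Fin d) := (1 / 2 : ℝ) • (x + y) with hm
  let R₀ : EuclideanSpace ℝ (Fin d) ≃ₗᵢ[ℝ] EuclideanSpace ℝ (Fin d) := (ℝ ∙ u)ᗮ.reflection
  have hR₀ : ∀ v, R₀ v = v - (2 * (inner ℝ u v / ‖u‖ ^ 2)) • u := by
    intro v
    simp only [R₀]
    rw [Submodule.reflection_orthogonal_apply, Submodule.reflection_singleton_apply]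
    simp only [RCLike.ofReal_real_eq_id, id_eq, two_smul, neg_sub, two_mul, add_smul]
  have hR₀u : R₀ u = -u := Submodule.reflection_orthogonalComplement_singleton_eq_neg u
  let R : EuclideanSpace ℝ (Fin d) → EuclideanSpace ℝ (Fin d) := fun z => m + R₀ (z - m)
  have hRmp : MeasurePreserving R volume volume :=
    (measurePreserving_add_left volume m).comp
      (R₀.measurePreserving.comp (measurePreserving_sub_right volume m))
  have hmy : y = m + (1 / 2 : ℝ) • u := by
    rw [hm, hu, ← smul_add]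
    have : x + y + (y - x) = (2 : ℝ) • y := by rw [two_smul]; abel
    rw [this, smul_smul]; norm_num
  have hmx : x = m - (1 / 2 : ℝ) • u := by
    rw [hm, hu, ← smul_sub]
    have : x + y - (y - x) = (2 : ℝ) • x := by rw [two_smul]; abel
    rw [this, smul_smul]; norm_num
  have hRx : ∀ z, ‖R z - x‖ = ‖z - y‖ := by
    intro z
    have : R z - x = R₀ (z - y) := by
      have h1 : z - y = (z - m) - (1 / 2 : ℝ) • u := by
        conv_lhs => rw [hmy]
        abel
      rw [h1, map_sub, map_smul, hR₀u]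
      simp only [R]
      conv_lhs => rw [hmx]
      simp only [smul_neg]
      abel
    rw [this, LinearIsometryEquiv.norm_map]
  have hRy : ∀ z, ‖R z - y‖ = ‖z - x‖ := by
    intro z
    have : R z - y = R₀ (z - x) := by
      have h1 : z - x = (z - m) + (1 / 2 : ℝ) • u := by
        conv_lhs => rw [hmx]
        abel
      rw [h1, map_add, map_smul, hR₀u]
      simp only [R]
      conv_lhs => rw [hmy]
      simp only [smul_neg]
      abel
    rw [this, LinearIsometryEquiv.norm_map]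
  have hpre : R ⁻¹' (ball x r \ ball y r) = ball y r \ ball x r := by
    ext z
    simp only [mem_preimage, mem_sdiff, mem_ball, dist_eq_norm, hRx, hRy]
  -- the key pointwise inequality
  have hkey : ∀ z ∈ ball y r \ ball x r, ‖R z‖ ≤ ‖z‖ := by
    intro z hz
    simp only [mem_sdiff, mem_ball, dist_eq_norm, not_lt] at hz
    have hzz : ‖z - y‖ ≤ ‖z - x‖ := le_trans hz.1.le hz.2
    have h1 : 2 * inner ℝ u m = ‖y‖ ^ 2 - ‖x‖ ^ 2 := by
      rw [hu, hm, inner_smul_right, inner_sub_left, inner_add_right, inner_add_right,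
        real_inner_self_eq_norm_sq, real_inner_self_eq_norm_sq, real_inner_comm x y]
      ring
    have h2 : 2 * inner ℝ u (z - m) = ‖z - x‖ ^ 2 - ‖z - y‖ ^ 2 := by
      have e1 : z - x = (z - m) + (1 / 2 : ℝ) • u := by
        conv_lhs => rw [hmx]
        abel
      have e2 : z - y = (z - m) - (1 / 2 : ℝ) • u := by
        conv_lhs => rw [hmy]
        abel
      rw [e1, e2]
      exact refl_aux (z - m) u
    have h1' : 0 ≤ inner ℝ u m := by
      have : ‖x‖ ^ 2 ≤ ‖y‖ ^ 2 := by gcongr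
      linarith
    have h2' : 0 ≤ inner ℝ u (z - m) := by
      have : ‖z - y‖ ^ 2 ≤ ‖z - x‖ ^ 2 := by gcongr
      linarith
    set t : ℝ := inner ℝ u (z - m) / ‖u‖ ^ 2 with ht
    have ht0 : 0 ≤ t := div_nonneg h2' hun.le
    have hRz : R z = z - (2 * t) • u := by
      simp only [R]
      rw [hR₀]
      abel
    have hsq : ‖R z‖ ^ 2 = ‖z‖ ^ 2 - 4 * t * inner ℝ u m := by
      rw [hRz, norm_sub_sq_real, inner_smul_right, norm_smul, mul_pow, Real.norm_eq_abs, sq_abs]
      have e3 : inner ℝ z u = inner ℝ u (z - m) + inner ℝ u m := by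
        rw [← inner_add_right, sub_add_cancel, real_inner_comm]
      have e4 : inner ℝ u (z - m) = t * ‖u‖ ^ 2 := by
        rw [ht]; field_simp
      rw [e3, e4]; ring
    have hle : ‖R z‖ ^ 2 ≤ ‖z‖ ^ 2 := by
      rw [hsq]
      have : 0 ≤ 4 * t * inner ℝ u m := by positivity
      linarith
    exact (sq_le_sq₀ (norm_nonneg _) (norm_nonneg _)).1 hle
  have hFm : Measurable (fun z : EuclideanSpace ℝ (Fin d) => F ‖z‖) :=
    hF.measurable.comp measurable_norm
  have hdiff : ∫⁻ z in ball y r \ ball x r, F ‖z‖ ≤ ∫⁻ z in ball x r \ ball y r, F ‖z‖ := by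
    calc ∫⁻ z in ball y r \ ball x r, F ‖z‖
        ≤ ∫⁻ z in ball y r \ ball x r, F ‖R z‖ :=
          setLIntegral_mono' (measurableSet_ball.diff measurableSet_ball)
            (fun z hz => hF (hkey z hz))
      _ = ∫⁻ z in R ⁻¹' (ball x r \ ball y r), F ‖R z‖ := by rw [hpre]
      _ = ∫⁻ z in ball x r \ ball y r, F ‖z‖ :=
          hRmp.setLIntegral_comp_preimage (measurableSet_ball.diff measurableSet_ball) hFm
  rw [← lintegral_inter_add_sdiff (fun z => F ‖z‖) (ball y r) (measurableSet_ball (x := x) (ε := r)),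
    ← lintegral_inter_add_sdiff (fun z => F ‖z‖) (ball x r) (measurableSet_ball (x := y) (ε := r)),
    inter_comm (ball y r) (ball x r)]
  gcongr

end P137
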