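import Vale.Agent.Lib.P137.Defs

/-!
# P137 / L2: dilations
-/

namespace P137

open MeasureTheory Metric Set
open scoped ENNReal

/-- change of variables `z ↦ R • z` (use `Measure.map_addHaar_smul`, `lintegral_map`, `finrank_euclideanSpace`) -/
theorem lintegral_comp_smul_pos {d : ℕ} (g : EuclideanSpace ℝ (Fin d) → ℝ≥0∞) (hg : Measurable g)
    (R : ℝ) (hR : 0 < R) :
    ∫⁻ z, g (R • z) = (ENNReal.ofReal (R ^ d))⁻¹ * ∫⁻ z, g z := by
  have h1 : ∫⁻ z, g (R • z) = ∫⁻ z, g z ∂(Measure.map (R • ·) volume) := by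
    rw [lintegral_map hg (measurable_const_smul R)]
  rw [h1, Measure.map_addHaar_smul volume hR.ne', lintegral_smul_measure]
  have h2 : Module.finrank ℝ (EuclideanSpace ℝ (Fin d)) = d := by simp
  rw [h2, abs_of_pos (inv_pos.2 (pow_pos hR d)), ENNReal.ofReal_inv_of_pos (pow_pos hR d)]
  rfl

end P137
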