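import Vale.Agent.Lib.P137.Level
import Vale.Agent.Lib.P137.AnnulusLow
import Vale.Agent.Lib.P137.BallInv
import Vale.Agent.Lib.P137.Coord

/-!
# P137 / V8: shifted superlevel sets, lower bound

Blueprint. Let `S = {x | t < G ‖x‖}`. Use `superlevel_cases`. `S = ∅`: the left side is `0`. `S = univ` contradicts `hfin` (`volume univ = ∞`, `d ≥ 1`).
Otherwise `ball 0 R ⊆ S ⊆ closedBall 0 R`. If `R < δ` the set on the left is empty. If `δ ≤ R`: put `A = ball 0 R \ closedBall 0 (R - δ / d)`.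
For `x ∈ A`, `exists_coord` gives `i` and a sign with `‖x + single i (± δ)‖ ≥ ‖x‖ + δ / d > R`, so `x + single i (± δ) ∉ S` while `x ∈ S`;
hence `A` is contained in the union of the `2 d` sets on the right and `volume A ≤` the sum (`measure_iUnion_fintype_le`, `measure_union_le`).
Finally `ofReal δ * ∫ over (S ∩ {δ ≤ ‖x‖}) ≤ ofReal δ * ∫ over closedBall 0 R ≤ ofReal δ * 2 * (volume (ball 0 R) / ofReal R)` (`ballInv_le`)
`= 2 * d * (ofReal (δ / d) * (volume (ball 0 R) / ofReal R)) ≤ 2 * d * volume A` (`annulus_ge` with `η = δ / d ≤ R`).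
-/

namespace P137

open MeasureTheory Metric Set
open scoped ENNReal

theorem vol_shift_ge {d : ℕ} (hd : 2 ≤ d) (G : ℝ → ℝ≥0∞) (hG : Antitone G) (t : ℝ≥0∞)
    (hfin : volume {x : EuclideanSpace ℝ (Fin d) | t < G ‖x‖} ≠ ∞) (δ : ℝ) (hδ : 0 < δ) :
    ENNReal.ofReal δ *
        ∫⁻ x in {x : EuclideanSpace ℝ (Fin d) | t < G ‖x‖ ∧ δ ≤ ‖x‖}, (ENNReal.ofReal ‖x‖)⁻¹ ≤
      2 * (d : ℝ≥0∞) * ∑ i : Fin d,
        (volume {x : EuclideanSpace ℝ (Fin d) | G ‖x + EuclideanSpace.single i δ‖ ≤ t ∧ t < G ‖x‖} +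
          volume {x : EuclideanSpace ℝ (Fin d) |
            G ‖x + EuclideanSpace.single i (-δ)‖ ≤ t ∧ t < G ‖x‖}) := by
  have hne : Nonempty (Fin d) := ⟨⟨0, by omega⟩⟩
  have hd1 : 1 ≤ d := by omega
  have hdpos : (0 : ℝ) < d := by exact_mod_cast hd1
  rcases superlevel_cases (d := d) G hG t with h | h | ⟨R, hR0, hsub, hsup⟩
  · have he : {x : EuclideanSpace ℝ (Fin d) | t < G ‖x‖ ∧ δ ≤ ‖x‖} = ∅ := by
      ext x
      simp only [mem_ofPred_eq, mem_empty_iff_false, iff_false]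
      intro hx
      have : x ∈ {x : EuclideanSpace ℝ (Fin d) | t < G ‖x‖} := hx.1
      rw [h] at this
      exact this
    rw [he]
    simp
  · exfalso
    rw [h] at hfin
    exact hfin (measure_univ_of_isAddLeftInvariant volume)
  · by_cases hRδ : R < δ
    · have he : {x : EuclideanSpace ℝ (Fin d) | t < G ‖x‖ ∧ δ ≤ ‖x‖} = ∅ := by
        ext x
        simp only [mem_ofPred_eq, mem_empty_iff_false, iff_false]
        intro hx
        have h1 : x ∈ closedBall (0 : EuclideanSpace ℝ (Fin d)) R := hsup hx.1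
        have h2 : ‖x‖ ≤ R := mem_closedBall_zero_iff.1 h1
        linarith [hx.2]
      rw [he]
      simp
    · have hδR : δ ≤ R := not_lt.1 hRδ
      have hR : 0 < R := hδ.trans_le hδR
      have hη0 : 0 ≤ δ / d := by positivity
      have hηδ : δ / d ≤ δ := by
        rw [div_le_iff₀ hdpos]
        have : (1 : ℝ) ≤ d := by exact_mod_cast hd1
        nlinarith
      have hηR : δ / d ≤ R := hηδ.trans hδR
      set A : Set (EuclideanSpace ℝ (Fin d)) :=
        ball (0 : EuclideanSpace ℝ (Fin d)) R \ closedBall (0 : EuclideanSpace ℝ (Fin d)) (R - δ / d)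
        with hA
      have hAsub : A ⊆ ⋃ i : Fin d,
          ({x : EuclideanSpace ℝ (Fin d) | G ‖x + EuclideanSpace.single i δ‖ ≤ t ∧ t < G ‖x‖} ∪
            {x : EuclideanSpace ℝ (Fin d) |
              G ‖x + EuclideanSpace.single i (-δ)‖ ≤ t ∧ t < G ‖x‖}) := by
        intro x hx
        have hx1 : ‖x‖ < R := mem_ball_zero_iff.1 hx.1
        have hx2 : R - δ / d < ‖x‖ := by
          by_contra hcon
          exact hx.2 (mem_closedBall_zero_iff.2 (not_lt.1 hcon))
        have hxS : t < G ‖x‖ := hsub hx.1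
        have key : ∀ y : EuclideanSpace ℝ (Fin d), ‖x‖ + δ / d ≤ ‖y‖ → G ‖y‖ ≤ t := by
          intro y hy
          by_contra hcon
          have h1 : y ∈ closedBall (0 : EuclideanSpace ℝ (Fin d)) R := hsup (not_le.1 hcon)
          have h2 : ‖y‖ ≤ R := mem_closedBall_zero_iff.1 h1
          linarith
        obtain ⟨i, hi | hi⟩ := exists_coord hd1 x δ hδ
        · exact mem_iUnion.2 ⟨i, Or.inl ⟨key _ hi, hxS⟩⟩
        · exact mem_iUnion.2 ⟨i, Or.inr ⟨key _ hi, hxS⟩⟩
      have hAle : volume A ≤ ∑ i : Fin d,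
        (volume {x : EuclideanSpace ℝ (Fin d) | G ‖x + EuclideanSpace.single i δ‖ ≤ t ∧ t < G ‖x‖} +
          volume {x : EuclideanSpace ℝ (Fin d) |
            G ‖x + EuclideanSpace.single i (-δ)‖ ≤ t ∧ t < G ‖x‖}) :=
        (measure_mono hAsub).trans ((measure_iUnion_fintype_le _ _).trans
          (Finset.sum_le_sum fun i _ => measure_union_le _ _))
      have hsubset : {x : EuclideanSpace ℝ (Fin d) | t < G ‖x‖ ∧ δ ≤ ‖x‖} ⊆
          closedBall (0 : EuclideanSpace ℝ (Fin d)) R := fun x hx => hsup hx.1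
      have e1 : ENNReal.ofReal δ = (d : ℝ≥0∞) * ENNReal.ofReal (δ / d) := by
        rw [← ENNReal.ofReal_natCast, ← ENNReal.ofReal_mul hdpos.le]
        congr 1
        field_simp
      calc ENNReal.ofReal δ *
            ∫⁻ x in {x : EuclideanSpace ℝ (Fin d) | t < G ‖x‖ ∧ δ ≤ ‖x‖}, (ENNReal.ofReal ‖x‖)⁻¹
          ≤ ENNReal.ofReal δ *
            ∫⁻ x in closedBall (0 : EuclideanSpace ℝ (Fin d)) R, (ENNReal.ofReal ‖x‖)⁻¹ :=
            mul_le_mul_right (lintegral_mono_set hsubset) _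
        _ ≤ ENNReal.ofReal δ *
            (2 * (volume (ball (0 : EuclideanSpace ℝ (Fin d)) R) / ENNReal.ofReal R)) :=
            mul_le_mul_right (ballInv_le hd R hR) _
        _ = 2 * (d : ℝ≥0∞) * (ENNReal.ofReal (δ / d) *
            (volume (ball (0 : EuclideanSpace ℝ (Fin d)) R) / ENNReal.ofReal R)) := by
            rw [e1]; ring
        _ ≤ 2 * (d : ℝ≥0∞) * volume A :=
            mul_le_mul_right (annulus_ge hd1 R (δ / d) hR hη0 hηR) _
        _ ≤ _ := mul_le_mul_right hAle _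

end P137
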