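import Vale.Agent.Lib.P137.Level
import Vale.Agent.Lib.P137.AnnulusUp
import Vale.Agent.Lib.P137.BallInv

/-!
# P137 / V7: a shifted superlevel set, upper bound

Blueprint. Let `S = {x | t < G ‖x‖}`; the set on the left is `D = {x | x + h ∉ S ∧ x ∈ S}`. Use `superlevel_cases`.
`S = ∅` or `S = univ`: `D = ∅`. Otherwise `ball 0 R ⊆ S ⊆ closedBall 0 R`. If `R = 0`, `D ⊆ {0}` is null (`d ≥ 1`).
If `R > 0`: `x ∈ D` gives `‖x‖ ≤ R` and `R ≤ ‖x + h‖ ≤ ‖x‖ + ‖h‖`, so `D ⊆ closedBall 0 R \ ball 0 (R - ‖h‖)`; apply `annulus_le`, then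
`ballInv_ge` and `lintegral_mono_set` (`ball 0 R ⊆ S`).
-/

namespace P137

open MeasureTheory Metric Set
open scoped ENNReal

theorem vol_shift_le {d : ℕ} (hd : 1 ≤ d) (G : ℝ → ℝ≥0∞) (hG : Antitone G) (t : ℝ≥0∞)
    (h : EuclideanSpace ℝ (Fin d)) :
    volume {x : EuclideanSpace ℝ (Fin d) | G ‖x + h‖ ≤ t ∧ t < G ‖x‖} ≤
      (d : ℝ≥0∞) * ENNReal.ofReal ‖h‖ *
        ∫⁻ x in {x : EuclideanSpace ℝ (Fin d) | t < G ‖x‖}, (ENNReal.ofReal ‖x‖)⁻¹ := by
  rcases superlevel_cases (d := d) G hG t with hS | hS | ⟨R, hR0, hsub, hsup⟩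
  · have hD : {x : EuclideanSpace ℝ (Fin d) | G ‖x + h‖ ≤ t ∧ t < G ‖x‖} = ∅ := by
      ext x
      simp only [mem_ofPred_eq, mem_empty_iff_false, iff_false, not_and]
      intro _ hx
      have : x ∈ {x : EuclideanSpace ℝ (Fin d) | t < G ‖x‖} := hx
      rw [hS] at this
      exact this
    rw [hD, measure_empty]
    exact zero_le
  · have hD : {x : EuclideanSpace ℝ (Fin d) | G ‖x + h‖ ≤ t ∧ t < G ‖x‖} = ∅ := by
      ext x
      simp only [mem_ofPred_eq, mem_empty_iff_false, iff_false, not_and]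
      intro hx _
      have : x + h ∈ {x : EuclideanSpace ℝ (Fin d) | t < G ‖x‖} := by
        rw [hS]
        exact mem_univ _
      exact absurd hx (not_le.mpr this)
    rw [hD, measure_empty]
    exact zero_le
  · rcases hR0.eq_or_lt with hR | hR
    · have : Nonempty (Fin d) := ⟨⟨0, hd⟩⟩
      have hD : {x : EuclideanSpace ℝ (Fin d) | G ‖x + h‖ ≤ t ∧ t < G ‖x‖} ⊆ {0} := by
        intro x hx
        have h1 : x ∈ closedBall (0 : EuclideanSpace ℝ (Fin d)) R := hsup hx.2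
        rw [← hR] at h1
        simpa using h1
      have h0 : volume ({0} : Set (EuclideanSpace ℝ (Fin d))) = 0 := measure_singleton _
      have := measure_mono_null hD h0
      rw [this]
      exact zero_le
    · have hD : {x : EuclideanSpace ℝ (Fin d) | G ‖x + h‖ ≤ t ∧ t < G ‖x‖} ⊆
          closedBall (0 : EuclideanSpace ℝ (Fin d)) R \ ball (0 : EuclideanSpace ℝ (Fin d)) (R - ‖h‖) := by
        intro x hx
        refine ⟨hsup hx.2, fun hxb => ?_⟩
        have h1 : ‖x‖ < R - ‖h‖ := by simpa using hxb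
        have h2 : ‖x + h‖ < R := by
          have := norm_add_le x h
          linarith
        have h3 : x + h ∈ ball (0 : EuclideanSpace ℝ (Fin d)) R := by simpa using h2
        exact absurd hx.1 (not_le.mpr (hsub h3))
      calc volume {x : EuclideanSpace ℝ (Fin d) | G ‖x + h‖ ≤ t ∧ t < G ‖x‖}
          ≤ volume (closedBall (0 : EuclideanSpace ℝ (Fin d)) R \
              ball (0 : EuclideanSpace ℝ (Fin d)) (R - ‖h‖)) := measure_mono hD
        _ ≤ (d : ℝ≥0∞) * ENNReal.ofReal ‖h‖ *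
              (volume (ball (0 : EuclideanSpace ℝ (Fin d)) R) / ENNReal.ofReal R) :=
            annulus_le hd R ‖h‖ hR (norm_nonneg h)
        _ ≤ (d : ℝ≥0∞) * ENNReal.ofReal ‖h‖ *
              ∫⁻ x in ball (0 : EuclideanSpace ℝ (Fin d)) R, (ENNReal.ofReal ‖x‖)⁻¹ := by
            gcongr
            exact ballInv_ge R hR
        _ ≤ (d : ℝ≥0∞) * ENNReal.ofReal ‖h‖ *
              ∫⁻ x in {x : EuclideanSpace ℝ (Fin d) | t < G ‖x‖}, (ENNReal.ofReal ‖x‖)⁻¹ := by
            exact mul_le_mul_right (lintegral_mono_set hsub) _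

end P137
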