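import Vale.Agent.Lib.P137.Variation
import Vale.Agent.Lib.P137.LocInt
import Vale.Agent.Lib.P137.Lip
import Vale.Agent.Lib.P137.C1DQ
import Vale.Agent.Lib.P137.FatouGrad

/-!
# P137: the gradient bound of Q1 for `C¹` Lipschitz radially nonincreasing input
-/

namespace P137

open MeasureTheory Metric Set
open scoped ENNReal NNReal

theorem gradient_bound {d : ℕ} (hd : 2 ≤ d) (F : ℝ → ℝ) (hF : Antitone F)
    (hC1 : ContDiff ℝ 1 (fun x : EuclideanSpace ℝ (Fin d) => F ‖x‖)) (L : ℝ≥0)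
    (hL : LipschitzWith L (fun x : EuclideanSpace ℝ (Fin d) => F ‖x‖))
    (hint : Integrable (fun x : EuclideanSpace ℝ (Fin d) => F ‖x‖) volume) :
    (∀ x, maxFun (fun z : EuclideanSpace ℝ (Fin d) => ENNReal.ofReal (F ‖z‖)) x ≠ ∞) ∧
    LipschitzWith L
      (fun x => (maxFun (fun z : EuclideanSpace ℝ (Fin d) => ENNReal.ofReal (F ‖z‖)) x).toReal) ∧
    ∫⁻ x, ‖fderiv ℝ (fun x =>
        (maxFun (fun z : EuclideanSpace ℝ (Fin d) => ENNReal.ofReal (F ‖z‖)) x).toReal) x‖ₑ ≤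
      8 * (d : ℝ≥0∞) ^ 4 * (2 ^ (d - 1) + d * 3 ^ d) *
        ∫⁻ x, ‖fderiv ℝ (fun x : EuclideanSpace ℝ (Fin d) => F ‖x‖) x‖ₑ := by
  have hg : Antitone (fun r : ℝ => ENNReal.ofReal (F r)) := fun a b hab =>
    ENNReal.ofReal_le_ofReal (hF hab)
  have hint' : ∫⁻ x : EuclideanSpace ℝ (Fin d), ENNReal.ofReal (F ‖x‖) ≠ ∞ :=
    hint.lintegral_lt_top.ne
  have hfin : ∀ x, maxFun (fun z : EuclideanSpace ℝ (Fin d) => ENNReal.ofReal (F ‖z‖)) x ≠ ∞ := by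
    intro x
    refine ne_top_of_le_ne_top (ENNReal.ofReal_ne_top (r := F 0)) ?_
    exact maxFun_le_const _ _ (fun z => hg (norm_nonneg z)) x
  have hLip := lipschitzWith_maxFun_toReal
    (fun x : EuclideanSpace ℝ (Fin d) => F ‖x‖) L hL hfin
  refine ⟨hfin, hLip, ?_⟩
  have hV : ∀ h : EuclideanSpace ℝ (Fin d),
      ∫⁻ x : EuclideanSpace ℝ (Fin d),
        ((ENNReal.ofReal (F ‖x‖) - ENNReal.ofReal (F ‖x + h‖)) +
          (ENNReal.ofReal (F ‖x + h‖) - ENNReal.ofReal (F ‖x‖))) ≤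
        (∫⁻ x, ‖fderiv ℝ (fun x : EuclideanSpace ℝ (Fin d) => F ‖x‖) x‖ₑ) *
          ENNReal.ofReal ‖h‖ := by
    intro h
    refine le_trans (lintegral_mono fun x => ?_) (dq_of_contDiff _ hC1 h)
    exact ofReal_sub_add_le _ _
  have hdq : ∀ h : EuclideanSpace ℝ (Fin d),
      ∫⁻ x, ENNReal.ofReal
        |(maxFun (fun z : EuclideanSpace ℝ (Fin d) => ENNReal.ofReal (F ‖z‖)) (x + h)).toReal -
          (maxFun (fun z : EuclideanSpace ℝ (Fin d) => ENNReal.ofReal (F ‖z‖)) x).toReal| ≤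
      (8 * (d : ℝ≥0∞) ^ 3 * (2 ^ (d - 1) + d * 3 ^ d) *
        ∫⁻ x, ‖fderiv ℝ (fun x : EuclideanSpace ℝ (Fin d) => F ‖x‖) x‖ₑ) *
          ENNReal.ofReal ‖h‖ := by
    intro h
    refine le_trans (lintegral_mono fun x => ?_)
      (variation_le hd (fun r : ℝ => ENNReal.ofReal (F r)) hg hint' _ hV h)
    exact le_trans (ofReal_abs_toReal_sub_le _ _) (le_of_eq (add_comm _ _))
  refine le_trans (lintegral_fderiv_le_of_dq _ hLip.continuous _ hdq) (le_of_eq ?_)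
  ring

end P137
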