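import Vale.Agent.Lib.P137.Defs

/-!
# P137 / L5: the tail integral

Blueprint. `volume (ball 0 ‖x‖) = ofReal (‖x‖ ^ d) * volume (ball 0 1)` for `x ≠ 0`. So the integrand is
`(volume (ball 0 1))⁻¹ * ofReal (g ‖x‖)` with `g t = indicator (Ioi a) (fun t => t ^ (-(d:ℝ) - 1)) t`. By `integrable_fun_norm_addHaar`,
`integral_fun_norm_addHaar` and `integral_Ioi_rpow_of_lt`:
`∫ g ‖x‖ = d * (volume (ball 0 1)).toReal * ∫ t in Ioi a, t ^ (-2) = d * (volume (ball 0 1)).toReal / a`;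
pass to `∫⁻` with `ofReal_integral_eq_lintegral_ofReal`.
-/

namespace P137

open MeasureTheory Metric Set
open scoped ENNReal

/-- the radial profile -/
noncomputable def tailG (d : ℕ) (a : ℝ) : ℝ → ℝ :=
  indicator (Ioi a) (fun t => t ^ (-(d:ℝ) - 1))

theorem tailG_nonneg (d : ℕ) (a : ℝ) (ha : 0 < a) (t : ℝ) : 0 ≤ tailG d a t := by
  unfold tailG
  refine indicator_nonneg ?_ t
  intro s hs
  exact Real.rpow_nonneg (ha.le.trans (le_of_lt hs)) _

theorem tailG_radial {d : ℕ} (hd : 1 ≤ d) (a : ℝ) (ha : 0 < a) :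
    (fun y : ℝ => y ^ (d - 1) • tailG d a y) = indicator (Ioi a) (fun t : ℝ => t ^ (-2 : ℝ)) := by
  funext y
  unfold tailG
  by_cases hy : y ∈ Ioi a
  · rw [indicator_of_mem hy, indicator_of_mem hy]
    have hy0 : 0 < y := ha.trans hy
    rw [smul_eq_mul, ← Real.rpow_natCast, ← Real.rpow_add hy0]
    congr 1
    rw [Nat.cast_sub hd]
    push_cast
    ring
  · rw [indicator_of_notMem hy, indicator_of_notMem hy, smul_zero]

theorem tailG_integrableOn {d : ℕ} (hd : 1 ≤ d) (a : ℝ) (ha : 0 < a) :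
    IntegrableOn (fun y : ℝ => y ^ (d - 1) • tailG d a y) (Ioi 0) := by
  rw [tailG_radial hd a ha]
  have h := integrableOn_Ioi_rpow_of_lt (a := (-2 : ℝ)) (by norm_num) ha
  exact ((integrable_indicator_iff measurableSet_Ioi).2 h).integrableOn

theorem tailG_integral {d : ℕ} (hd : 1 ≤ d) (a : ℝ) (ha : 0 < a) :
    ∫ y in Ioi (0 : ℝ), y ^ (d - 1) • tailG d a y = a⁻¹ := by
  rw [tailG_radial hd a ha, setIntegral_indicator measurableSet_Ioi]
  have : Ioi (0 : ℝ) ∩ Ioi a = Ioi a := by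
    ext t
    simp only [mem_inter_iff, mem_Ioi]
    exact ⟨fun h => h.2, fun h => ⟨ha.trans h, h⟩⟩
  rw [this, integral_Ioi_rpow_of_lt (by norm_num) ha]
  have : (-2 : ℝ) + 1 = -1 := by norm_num
  rw [this, Real.rpow_neg_one]
  ring

theorem tail_le {d : ℕ} (hd : 1 ≤ d) (a : ℝ) (ha : 0 < a) :
    ∫⁻ x in {x : EuclideanSpace ℝ (Fin d) | a < ‖x‖},
        (volume (ball (0 : EuclideanSpace ℝ (Fin d)) ‖x‖))⁻¹ / ENNReal.ofReal ‖x‖ ≤
      (d : ℝ≥0∞) / ENNReal.ofReal a := by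
  have hne : Nonempty (Fin d) := ⟨⟨0, hd⟩⟩
  have hω0 : volume (ball (0 : EuclideanSpace ℝ (Fin d)) 1) ≠ 0 :=
    (measure_ball_pos _ _ one_pos).ne'
  have hωt : volume (ball (0 : EuclideanSpace ℝ (Fin d)) 1) ≠ ⊤ := measure_ball_lt_top.ne
  have hfin : Module.finrank ℝ (EuclideanSpace ℝ (Fin d)) = d := by simp
  have hS : MeasurableSet {x : EuclideanSpace ℝ (Fin d) | a < ‖x‖} :=
    measurableSet_lt measurable_const measurable_norm
  have h1 : ∀ x : EuclideanSpace ℝ (Fin d),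
      indicator {x : EuclideanSpace ℝ (Fin d) | a < ‖x‖}
        (fun x => (volume (ball (0 : EuclideanSpace ℝ (Fin d)) ‖x‖))⁻¹ / ENNReal.ofReal ‖x‖) x =
      (volume (ball (0 : EuclideanSpace ℝ (Fin d)) 1))⁻¹ * ENNReal.ofReal (tailG d a ‖x‖) := by
    intro x
    by_cases hx : a < ‖x‖
    · have hx0 : 0 < ‖x‖ := ha.trans hx
      rw [indicator_of_mem (show x ∈ {x : EuclideanSpace ℝ (Fin d) | a < ‖x‖} from hx)]
      unfold tailG
      rw [indicator_of_mem (show ‖x‖ ∈ Ioi a from hx)]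
      rw [Measure.addHaar_ball_of_pos volume 0 hx0, hfin]
      have e1 : ‖x‖ ^ (-(d:ℝ) - 1) = (‖x‖ ^ d)⁻¹ * ‖x‖⁻¹ := by
        rw [sub_eq_add_neg, Real.rpow_add hx0, Real.rpow_neg hx0.le, Real.rpow_natCast,
          Real.rpow_neg_one]
      rw [e1, ENNReal.ofReal_mul (by positivity), ENNReal.ofReal_inv_of_pos (by positivity),
        ENNReal.ofReal_inv_of_pos hx0, div_eq_mul_inv]
      rw [ENNReal.mul_inv (Or.inr hωt) (Or.inr hω0)]
      ring
    · rw [indicator_of_notMem (show x ∉ {x : EuclideanSpace ℝ (Fin d) | a < ‖x‖} from hx)]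
      unfold tailG
      rw [indicator_of_notMem (show ‖x‖ ∉ Ioi a from hx)]
      simp
  rw [← lintegral_indicator hS]
  simp_rw [h1]
  have hint : Integrable (fun x : EuclideanSpace ℝ (Fin d) => tailG d a ‖x‖) volume := by
    rw [integrable_fun_norm_addHaar, hfin]
    exact tailG_integrableOn hd a ha
  have hval : ∫ x : EuclideanSpace ℝ (Fin d), tailG d a ‖x‖ =
      d * ((volume (ball (0 : EuclideanSpace ℝ (Fin d)) 1)).toReal * a⁻¹) := by
    rw [integral_fun_norm_addHaar, hfin, tailG_integral hd a ha]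
    simp [Measure.real]
  rw [lintegral_const_mul' _ _ (ENNReal.inv_ne_top.2 hω0)]
  rw [← ofReal_integral_eq_lintegral_ofReal hint
    (Filter.Eventually.of_forall fun x => tailG_nonneg d a ha _), hval]
  rw [ENNReal.ofReal_mul (by positivity), ENNReal.ofReal_mul ENNReal.toReal_nonneg,
    ENNReal.ofReal_toReal hωt, ENNReal.ofReal_inv_of_pos ha, ENNReal.ofReal_natCast]
  apply le_of_eq
  rw [div_eq_mul_inv]
  calc (volume (ball (0 : EuclideanSpace ℝ (Fin d)) 1))⁻¹ *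
        ((d : ℝ≥0∞) * (volume (ball (0 : EuclideanSpace ℝ (Fin d)) 1) * (ENNReal.ofReal a)⁻¹))
      = ((volume (ball (0 : EuclideanSpace ℝ (Fin d)) 1))⁻¹ *
          volume (ball (0 : EuclideanSpace ℝ (Fin d)) 1)) * ((d : ℝ≥0∞) * (ENNReal.ofReal a)⁻¹) := by
        ring
    _ = (d : ℝ≥0∞) * (ENNReal.ofReal a)⁻¹ := by
        rw [ENNReal.inv_mul_cancel hω0 hωt, one_mul]

end P137
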