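import Vale.Agent.Lib.P137.Layer
import Vale.Agent.Lib.P137.SetLower

/-!
# P137 / V10: the weighted integral is controlled by the translation differences

Blueprint for `weighted_trunc_le`. Fix `δ > 0`. By `lintegral_sub_mul_eq` (`g1 x = F ‖x‖`, `g2 = 0`, `w = indicator {x | δ ≤ ‖x‖} (fun x => (ofReal ‖x‖)⁻¹)`)
`ofReal δ * ∫⁻ x in {x | δ ≤ ‖x‖}, F ‖x‖ / ofReal ‖x‖ = ∫⁻ t in Ioi 0, ofReal δ * ∫⁻ x in {x | ofReal t < F ‖x‖ ∧ δ ≤ ‖x‖}, (ofReal ‖x‖)⁻¹`.
For `t > 0` the set `{x | ofReal t < F ‖x‖}` has finite volume (Markov: `meas_ge_le_lintegral_div` / `mul_meas_ge_le_lintegral`, `hint`), so `vol_shift_ge` applies.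
Integrate the right side in `t` (`lintegral_const_mul`, `lintegral_finset_sum`, `lintegral_add_left`; measurability in `t` can be avoided with the `'`/`le` versions or obtained
from `Measurable.lintegral_prod_left`), and use `lintegral_sub_mul_eq` with `w = 1` backwards: each term is `∫⁻ x, (F ‖x‖ - F ‖x + single i (± δ)‖) ≤ V * ofReal δ` (`‖single i (± δ)‖ = δ`).
So `ofReal δ * (...) ≤ 2 * d * (d * (2 * V * ofReal δ))`; cancel `ofReal δ`.
`weighted_le_var`: `{x | x ≠ 0} = ⋃ n, {x | 1 / (n + 1) ≤ ‖x‖}` increasing, monotone convergence (`lintegral_iSup` on indicators, or `setLIntegral_iUnion_of_directed` / `Monotone.measure_iUnion` on `withDensity`),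
and `{0}` is null.
-/

namespace P137

open MeasureTheory Metric Set
open scoped ENNReal

/-- measurability in `t` of the volume of the layer between two measurable functions -/
theorem measurable_layer {α : Type*} [MeasurableSpace α] (μ : Measure α) [SFinite μ]
    (g1 g2 : α → ℝ≥0∞) (h1 : Measurable g1) (h2 : Measurable g2) :
    Measurable (fun t : ℝ => μ {x | g2 x ≤ ENNReal.ofReal t ∧ ENNReal.ofReal t < g1 x}) := by
  have hS : MeasurableSet {p : ℝ × α | g2 p.2 ≤ ENNReal.ofReal p.1 ∧ ENNReal.ofReal p.1 < g1 p.2} := by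
    apply MeasurableSet.inter
    · exact measurableSet_le (h2.comp measurable_snd)
        (ENNReal.measurable_ofReal.comp measurable_fst)
    · exact measurableSet_lt (ENNReal.measurable_ofReal.comp measurable_fst)
        (h1.comp measurable_snd)
  exact measurable_measure_prodMk_left hS

/-- the layer-cake formula for the integral of a truncated difference -/
theorem lintegral_layer {α : Type*} [MeasurableSpace α] (μ : Measure α) [SFinite μ]
    (g1 g2 : α → ℝ≥0∞) (h1 : Measurable g1) (h2 : Measurable g2) :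
    ∫⁻ t in Ioi (0 : ℝ), μ {x | g2 x ≤ ENNReal.ofReal t ∧ ENNReal.ofReal t < g1 x} =
      ∫⁻ x, (g1 x - g2 x) ∂μ := by
  have h := lintegral_sub_mul_eq μ g1 g2 (fun _ => 1) h1 h2 measurable_const
  simp only [mul_one, lintegral_const, one_mul, Measure.restrict_apply MeasurableSet.univ,
    univ_inter] at h
  exact h.symm

theorem weighted_trunc_le {d : ℕ} (hd : 2 ≤ d) (F : ℝ → ℝ≥0∞) (hF : Antitone F)
    (hint : ∫⁻ x : EuclideanSpace ℝ (Fin d), F ‖x‖ ≠ ∞) (V : ℝ≥0∞)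
    (hV : ∀ h : EuclideanSpace ℝ (Fin d),
      ∫⁻ x : EuclideanSpace ℝ (Fin d), (F ‖x‖ - F ‖x + h‖) ≤ V * ENNReal.ofReal ‖h‖)
    (δ : ℝ) (hδ : 0 < δ) :
    ∫⁻ x in {x : EuclideanSpace ℝ (Fin d) | δ ≤ ‖x‖}, F ‖x‖ / ENNReal.ofReal ‖x‖ ≤
      4 * (d : ℝ≥0∞) ^ 2 * V := by
  have hFm : Measurable F := hF.measurable
  have hg : Measurable (fun x : EuclideanSpace ℝ (Fin d) => F ‖x‖) := hFm.comp measurable_norm
  have hgs : ∀ h : EuclideanSpace ℝ (Fin d),
      Measurable (fun x : EuclideanSpace ℝ (Fin d) => F ‖x + h‖) := fun h =>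
    hFm.comp (measurable_norm.comp (measurable_id.add_const h))
  have hSδ : MeasurableSet {x : EuclideanSpace ℝ (Fin d) | δ ≤ ‖x‖} :=
    measurableSet_le measurable_const measurable_norm
  have hinv : Measurable (fun x : EuclideanSpace ℝ (Fin d) => (ENNReal.ofReal ‖x‖)⁻¹) :=
    (ENNReal.measurable_ofReal.comp measurable_norm).inv
  have hδ0 : ENNReal.ofReal δ ≠ 0 := by
    simpa using hδ
  have hδt : ENNReal.ofReal δ ≠ ∞ := ENNReal.ofReal_ne_top
  -- step 1: layer cake for the left side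
  have h1 : ∫⁻ x in {x : EuclideanSpace ℝ (Fin d) | δ ≤ ‖x‖}, F ‖x‖ / ENNReal.ofReal ‖x‖ =
      ∫⁻ t in Ioi (0 : ℝ), ∫⁻ x in {x : EuclideanSpace ℝ (Fin d) |
        ENNReal.ofReal t < F ‖x‖ ∧ δ ≤ ‖x‖}, (ENNReal.ofReal ‖x‖)⁻¹ := by
    have h := lintegral_sub_mul_eq (volume : Measure (EuclideanSpace ℝ (Fin d)))
      (fun x => F ‖x‖) (fun _ => 0)
      ({x : EuclideanSpace ℝ (Fin d) | δ ≤ ‖x‖}.indicator (fun x => (ENNReal.ofReal ‖x‖)⁻¹))
      hg measurable_const (hinv.indicator hSδ)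
    have e1 : ∫⁻ x in {x : EuclideanSpace ℝ (Fin d) | δ ≤ ‖x‖}, F ‖x‖ / ENNReal.ofReal ‖x‖ =
        ∫⁻ x : EuclideanSpace ℝ (Fin d), (F ‖x‖ - 0) *
          ({x : EuclideanSpace ℝ (Fin d) | δ ≤ ‖x‖}.indicator
            (fun x => (ENNReal.ofReal ‖x‖)⁻¹)) x := by
      rw [← lintegral_indicator hSδ]
      apply lintegral_congr
      intro x
      by_cases hx : x ∈ {x : EuclideanSpace ℝ (Fin d) | δ ≤ ‖x‖}
      · rw [indicator_of_mem hx, indicator_of_mem hx, tsub_zero, div_eq_mul_inv]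
      · rw [indicator_of_notMem hx, indicator_of_notMem hx, mul_zero]
    rw [e1, h]
    apply lintegral_congr
    intro t
    rw [setLIntegral_indicator hSδ]
    congr 2
    ext x
    simp only [mem_inter_iff, mem_ofPred_eq, zero_le, true_and]
    exact and_comm
  -- step 2: pointwise bound
  have h2 : ∀ t ∈ Ioi (0 : ℝ), ENNReal.ofReal δ * ∫⁻ x in {x : EuclideanSpace ℝ (Fin d) |
        ENNReal.ofReal t < F ‖x‖ ∧ δ ≤ ‖x‖}, (ENNReal.ofReal ‖x‖)⁻¹ ≤
      2 * (d : ℝ≥0∞) * ∑ i : Fin d,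
        (volume {x : EuclideanSpace ℝ (Fin d) |
            F ‖x + EuclideanSpace.single i δ‖ ≤ ENNReal.ofReal t ∧ ENNReal.ofReal t < F ‖x‖} +
          volume {x : EuclideanSpace ℝ (Fin d) |
            F ‖x + EuclideanSpace.single i (-δ)‖ ≤ ENNReal.ofReal t ∧
              ENNReal.ofReal t < F ‖x‖}) := by
    intro t ht
    have ht0 : ENNReal.ofReal t ≠ 0 := by
      simpa using ht
    have hfin : volume {x : EuclideanSpace ℝ (Fin d) | ENNReal.ofReal t < F ‖x‖} ≠ ∞ := by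
      have hsub : {x : EuclideanSpace ℝ (Fin d) | ENNReal.ofReal t < F ‖x‖} ⊆
          {x : EuclideanSpace ℝ (Fin d) | ENNReal.ofReal t ≤ F ‖x‖} := by
        intro x hx
        simp only [mem_ofPred_eq] at hx ⊢
        exact hx.le
      have hle : volume {x : EuclideanSpace ℝ (Fin d) | ENNReal.ofReal t < F ‖x‖} ≤
          (∫⁻ x : EuclideanSpace ℝ (Fin d), F ‖x‖) / ENNReal.ofReal t :=
        (measure_mono hsub).trans
          (meas_ge_le_lintegral_div (μ := volume) hg.aemeasurable ht0 ENNReal.ofReal_ne_top)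
      exact ne_top_of_le_ne_top (ENNReal.div_ne_top hint ht0) hle
    exact vol_shift_ge hd F hF (ENNReal.ofReal t) hfin δ hδ
  -- step 3: the integral of each layer volume
  have h3 : ∀ h : EuclideanSpace ℝ (Fin d), ∫⁻ t in Ioi (0 : ℝ),
      volume {x : EuclideanSpace ℝ (Fin d) |
        F ‖x + h‖ ≤ ENNReal.ofReal t ∧ ENNReal.ofReal t < F ‖x‖} ≤ V * ENNReal.ofReal ‖h‖ := by
    intro h
    rw [lintegral_layer volume (fun x => F ‖x‖) (fun x => F ‖x + h‖) hg (hgs h)]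
    exact hV h
  have hm : ∀ h : EuclideanSpace ℝ (Fin d), Measurable (fun t : ℝ =>
      volume {x : EuclideanSpace ℝ (Fin d) |
        F ‖x + h‖ ≤ ENNReal.ofReal t ∧ ENNReal.ofReal t < F ‖x‖}) := fun h =>
    measurable_layer volume (fun x => F ‖x‖) (fun x => F ‖x + h‖) hg (hgs h)
  have hn1 : ∀ i : Fin d, ‖(EuclideanSpace.single i δ : EuclideanSpace ℝ (Fin d))‖ = δ := by
    intro i
    rw [PiLp.norm_single, Real.norm_eq_abs, abs_of_pos hδ]
  have hn2 : ∀ i : Fin d, ‖(EuclideanSpace.single i (-δ) : EuclideanSpace ℝ (Fin d))‖ = δ := by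
    intro i
    rw [PiLp.norm_single, Real.norm_eq_abs, abs_neg, abs_of_pos hδ]
  have h2d : (2 * (d : ℝ≥0∞)) ≠ ∞ := ENNReal.mul_ne_top (by norm_num) (ENNReal.natCast_ne_top d)
  -- step 4: integrate
  have h4 : ENNReal.ofReal δ *
      ∫⁻ x in {x : EuclideanSpace ℝ (Fin d) | δ ≤ ‖x‖}, F ‖x‖ / ENNReal.ofReal ‖x‖ ≤
      ENNReal.ofReal δ * (4 * (d : ℝ≥0∞) ^ 2 * V) := by
    rw [h1, ← lintegral_const_mul' _ _ hδt]
    calc ∫⁻ t in Ioi (0 : ℝ), ENNReal.ofReal δ * ∫⁻ x in {x : EuclideanSpace ℝ (Fin d) |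
          ENNReal.ofReal t < F ‖x‖ ∧ δ ≤ ‖x‖}, (ENNReal.ofReal ‖x‖)⁻¹
        ≤ ∫⁻ t in Ioi (0 : ℝ), 2 * (d : ℝ≥0∞) * ∑ i : Fin d,
        (volume {x : EuclideanSpace ℝ (Fin d) |
            F ‖x + EuclideanSpace.single i δ‖ ≤ ENNReal.ofReal t ∧ ENNReal.ofReal t < F ‖x‖} +
          volume {x : EuclideanSpace ℝ (Fin d) |
            F ‖x + EuclideanSpace.single i (-δ)‖ ≤ ENNReal.ofReal t ∧
              ENNReal.ofReal t < F ‖x‖}) := setLIntegral_mono' measurableSet_Ioi h2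
      _ = 2 * (d : ℝ≥0∞) * ∑ i : Fin d,
        ((∫⁻ t in Ioi (0 : ℝ), volume {x : EuclideanSpace ℝ (Fin d) |
            F ‖x + EuclideanSpace.single i δ‖ ≤ ENNReal.ofReal t ∧ ENNReal.ofReal t < F ‖x‖}) +
          ∫⁻ t in Ioi (0 : ℝ), volume {x : EuclideanSpace ℝ (Fin d) |
            F ‖x + EuclideanSpace.single i (-δ)‖ ≤ ENNReal.ofReal t ∧
              ENNReal.ofReal t < F ‖x‖}) := by
        rw [lintegral_const_mul' _ _ h2d, lintegral_finsetSum]
        · congr 1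
          apply Finset.sum_congr rfl
          intro i _
          rw [lintegral_add_left (hm _)]
        · intro i _
          exact (hm _).add (hm _)
      _ ≤ 2 * (d : ℝ≥0∞) * ∑ _i : Fin d, (V * ENNReal.ofReal δ + V * ENNReal.ofReal δ) := by
        gcongr with i _
        · have := h3 (EuclideanSpace.single i δ)
          rwa [hn1 i] at this
        · have := h3 (EuclideanSpace.single i (-δ))
          rwa [hn2 i] at this
      _ = ENNReal.ofReal δ * (4 * (d : ℝ≥0∞) ^ 2 * V) := by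
        rw [Finset.sum_const, Finset.card_univ, Fintype.card_fin, nsmul_eq_mul]
        ring
  exact (ENNReal.mul_le_mul_iff_right hδ0 hδt).mp h4

theorem weighted_le_var {d : ℕ} (hd : 2 ≤ d) (F : ℝ → ℝ≥0∞) (hF : Antitone F)
    (hint : ∫⁻ x : EuclideanSpace ℝ (Fin d), F ‖x‖ ≠ ∞) (V : ℝ≥0∞)
    (hV : ∀ h : EuclideanSpace ℝ (Fin d),
      ∫⁻ x : EuclideanSpace ℝ (Fin d), (F ‖x‖ - F ‖x + h‖) ≤ V * ENNReal.ofReal ‖h‖) :
    ∫⁻ x : EuclideanSpace ℝ (Fin d), F ‖x‖ / ENNReal.ofReal ‖x‖ ≤ 4 * (d : ℝ≥0∞) ^ 2 * V := by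
  have : Nonempty (Fin d) := ⟨⟨0, by omega⟩⟩
  have hU : (⋃ n : ℕ, {x : EuclideanSpace ℝ (Fin d) | 1 / ((n : ℝ) + 1) ≤ ‖x‖}) = {0}ᶜ := by
    ext x
    simp only [mem_iUnion, mem_ofPred_eq, mem_compl_iff, mem_singleton_iff]
    constructor
    · rintro ⟨n, hn⟩ rfl
      rw [norm_zero] at hn
      have : (0 : ℝ) < 1 / ((n : ℝ) + 1) := by positivity
      linarith
    · intro hx
      have hpos : 0 < ‖x‖ := norm_pos_iff.mpr hx
      obtain ⟨n, hn⟩ := exists_nat_one_div_lt hpos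
      exact ⟨n, hn.le⟩
  have hae : ∀ᵐ x : EuclideanSpace ℝ (Fin d), x ∈ ({0}ᶜ : Set (EuclideanSpace ℝ (Fin d))) := by
    show ({0}ᶜ : Set (EuclideanSpace ℝ (Fin d))) ∈ ae volume
    exact compl_mem_ae_iff.mpr (measure_singleton 0)
  rw [← Measure.restrict_eq_self_of_ae_mem hae, ← hU, setLIntegral_iUnion_of_directed]
  · apply iSup_le
    intro n
    exact weighted_trunc_le hd F hF hint V hV _ (by positivity)
  · apply Monotone.directed_le
    intro m n hmn x hx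
    simp only [mem_ofPred_eq] at hx ⊢
    refine le_trans ?_ hx
    apply one_div_le_one_div_of_le (by positivity)
    have : (m : ℝ) ≤ n := by exact_mod_cast hmn
    linarith

end P137
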