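import Vale.Agent.Lib.P137.Layer
import Vale.Agent.Lib.P137.SetUpper

/-!
# P137 / V9: translation differences of a radially nonincreasing function

Blueprint for `shift_le_weighted`. `lintegral_sub_mul_eq` with `g1 x = G ‖x‖`, `g2 x = G ‖x + h‖`, `w = 1` turns the left side into
`∫⁻ t in Ioi 0, volume {x | G ‖x + h‖ ≤ ofReal t ∧ ofReal t < G ‖x‖}`; bound the integrand by `vol_shift_le`, pull out the constant, and use
`lintegral_sub_mul_eq` with `g1 x = G ‖x‖`, `g2 = 0`, `w x = (ofReal ‖x‖)⁻¹` backwards.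
`var_le_weighted`: `lintegral_add_left`; the second term is the first one for `-h` after the translation `x ↦ x - h` (`lintegral_add_right_eq_self`).
-/

namespace P137

open MeasureTheory Metric Set
open scoped ENNReal

theorem shift_le_weighted {d : ℕ} (hd : 1 ≤ d) (G : ℝ → ℝ≥0∞) (hG : Antitone G)
    (h : EuclideanSpace ℝ (Fin d)) :
    ∫⁻ x : EuclideanSpace ℝ (Fin d), (G ‖x‖ - G ‖x + h‖) ≤
      (d : ℝ≥0∞) * ENNReal.ofReal ‖h‖ *
        ∫⁻ x : EuclideanSpace ℝ (Fin d), G ‖x‖ / ENNReal.ofReal ‖x‖ := by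
  have hGm : Measurable G := hG.measurable
  have h1 : Measurable (fun x : EuclideanSpace ℝ (Fin d) => G ‖x‖) :=
    hGm.comp measurable_norm
  have h2 : Measurable (fun x : EuclideanSpace ℝ (Fin d) => G ‖x + h‖) :=
    hGm.comp (measurable_norm.comp (measurable_id.add_const h))
  have hw : Measurable (fun x : EuclideanSpace ℝ (Fin d) => (ENNReal.ofReal ‖x‖)⁻¹) :=
    (ENNReal.measurable_ofReal.comp measurable_norm).inv
  have hc : (d : ℝ≥0∞) * ENNReal.ofReal ‖h‖ ≠ ∞ :=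
    ENNReal.mul_ne_top (ENNReal.natCast_ne_top d) ENNReal.ofReal_ne_top
  have e1 := lintegral_sub_mul_eq (volume : Measure (EuclideanSpace ℝ (Fin d)))
    (fun x => G ‖x‖) (fun x => G ‖x + h‖) (fun _ => 1) h1 h2 measurable_const
  have e2 := lintegral_sub_mul_eq (volume : Measure (EuclideanSpace ℝ (Fin d)))
    (fun x => G ‖x‖) (fun _ => 0) (fun x => (ENNReal.ofReal ‖x‖)⁻¹) h1 measurable_const hw
  simp only [mul_one] at e1
  simp only [tsub_zero, zero_le, true_and] at e2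
  have e3 : ∫⁻ x : EuclideanSpace ℝ (Fin d), G ‖x‖ / ENNReal.ofReal ‖x‖
      = ∫⁻ x : EuclideanSpace ℝ (Fin d), G ‖x‖ * (ENNReal.ofReal ‖x‖)⁻¹ := by
    simp only [div_eq_mul_inv]
  rw [e1, e3, e2, ← lintegral_const_mul' _ _ hc]
  refine lintegral_mono (fun t => ?_)
  have := vol_shift_le hd G hG (ENNReal.ofReal t) h
  simpa using this

theorem var_le_weighted {d : ℕ} (hd : 1 ≤ d) (G : ℝ → ℝ≥0∞) (hG : Antitone G)
    (h : EuclideanSpace ℝ (Fin d)) :
    ∫⁻ x : EuclideanSpace ℝ (Fin d), ((G ‖x‖ - G ‖x + h‖) + (G ‖x + h‖ - G ‖x‖)) ≤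
      2 * (d : ℝ≥0∞) * ENNReal.ofReal ‖h‖ *
        ∫⁻ x : EuclideanSpace ℝ (Fin d), G ‖x‖ / ENNReal.ofReal ‖x‖ := by
  have hGm : Measurable G := hG.measurable
  have h1 : Measurable (fun x : EuclideanSpace ℝ (Fin d) => G ‖x‖) :=
    hGm.comp measurable_norm
  have h2 : Measurable (fun x : EuclideanSpace ℝ (Fin d) => G ‖x + h‖) :=
    hGm.comp (measurable_norm.comp (measurable_id.add_const h))
  have h3 : Measurable (fun x : EuclideanSpace ℝ (Fin d) => G ‖x‖ - G ‖x + h‖) := h1.sub h2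
  rw [lintegral_add_left h3]
  have a1 := shift_le_weighted hd G hG h
  have a2 := shift_le_weighted hd G hG (-h)
  rw [norm_neg] at a2
  have e : ∫⁻ x : EuclideanSpace ℝ (Fin d), (G ‖x + h‖ - G ‖x‖)
      = ∫⁻ x : EuclideanSpace ℝ (Fin d), (G ‖x‖ - G ‖x + -h‖) := by
    rw [← lintegral_add_right_eq_self
      (fun x : EuclideanSpace ℝ (Fin d) => G ‖x‖ - G ‖x + -h‖) h]
    simp
  rw [e]
  refine (add_le_add a1 a2).trans (le_of_eq ?_)
  ring

end P137
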