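import Vale.Agent.Lib.P137.Main
import Vale.Agent.Lib.P137.VarUpper
import Vale.Agent.Lib.P137.VarLower
import Vale.Agent.Lib.P137.Profile

/-!
# P137: the variation bound (difference-quotient form) for radially nonincreasing input
-/

namespace P137

open MeasureTheory Metric Set
open scoped ENNReal

theorem variation_le {d : ℕ} (hd : 2 ≤ d) (F : ℝ → ℝ≥0∞) (hF : Antitone F)
    (hint : ∫⁻ x : EuclideanSpace ℝ (Fin d), F ‖x‖ ≠ ∞) (V : ℝ≥0∞)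
    (hV : ∀ h : EuclideanSpace ℝ (Fin d),
      ∫⁻ x : EuclideanSpace ℝ (Fin d), ((F ‖x‖ - F ‖x + h‖) + (F ‖x + h‖ - F ‖x‖)) ≤
        V * ENNReal.ofReal ‖h‖)
    (h : EuclideanSpace ℝ (Fin d)) :
    ∫⁻ x : EuclideanSpace ℝ (Fin d),
        ((maxFun (fun z : EuclideanSpace ℝ (Fin d) => F ‖z‖) x -
            maxFun (fun z : EuclideanSpace ℝ (Fin d) => F ‖z‖) (x + h)) +
          (maxFun (fun z : EuclideanSpace ℝ (Fin d) => F ‖z‖) (x + h) -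
            maxFun (fun z : EuclideanSpace ℝ (Fin d) => F ‖z‖) x)) ≤
      8 * (d : ℝ≥0∞) ^ 3 * (2 ^ (d - 1) + d * 3 ^ d) * V * ENNReal.ofReal ‖h‖ := by
  have hd1 : 1 ≤ d := by omega
  obtain ⟨G, hG, hGe⟩ := exists_profile hd1
    (maxFun (fun z : EuclideanSpace ℝ (Fin d) => F ‖z‖)) (fun x y hxy => maxFun_anti F hF x y hxy)
  have hV' : ∀ h : EuclideanSpace ℝ (Fin d),
      ∫⁻ x : EuclideanSpace ℝ (Fin d), (F ‖x‖ - F ‖x + h‖) ≤ V * ENNReal.ofReal ‖h‖ := fun h =>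
    le_trans (lintegral_mono fun x => le_self_add) (hV h)
  have h1 := var_le_weighted hd1 G hG h
  have h2 := weighted_le hd1 F hF
  have h3 := weighted_le_var hd F hF hint V hV'
  simp only [hGe] at h2 ⊢
  calc _ ≤ 2 * (d : ℝ≥0∞) * ENNReal.ofReal ‖h‖ *
        ∫⁻ x : EuclideanSpace ℝ (Fin d), G ‖x‖ / ENNReal.ofReal ‖x‖ := h1
    _ ≤ 2 * (d : ℝ≥0∞) * ENNReal.ofReal ‖h‖ * ((2 ^ (d - 1) + d * 3 ^ d) *
        (4 * (d : ℝ≥0∞) ^ 2 * V)) :=
        mul_le_mul_right (le_trans h2 (mul_le_mul_right h3 _)) _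
    _ = _ := by ring

end P137
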